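import Crest.Agent.R168.Defs

/-! Row 168: the equation lemmas of `ballV` are generated once, here. -/

set_option autoImplicit false

namespace Crest.Agent.R168

theorem ballV_zero (G : SimpleGraph ℕ) (e : Sym2 ℕ) : ballV G e 0 = {v | v ∈ e} := by
  simp only [ballV]

theorem ballV_succ (G : SimpleGraph ℕ) (e : Sym2 ℕ) (n : ℕ) :
    ballV G e (n + 1) = ballV G e n ∪ {w | ∃ v ∈ ballV G e n, G.Adj v w} := by
  simp only [ballV]

theorem ballV_unfold (G : SimpleGraph ℕ) (e : Sym2 ℕ) (n : ℕ) :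
    ballV G e (n + 1) = ballV G e n ∪ {w | ∃ v ∈ ballV G e n, G.Adj v w} := by
  rw [ballV.eq_def]

end Crest.Agent.R168
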