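import Crest.Agent.R168.Noise

/-!
Row 168: the probability space of hidden bits and noisy observations; Bayes' formula for finitely
many observations.
-/

set_option autoImplicit false

namespace Crest.Agent.R168

open MeasureTheory Set

variable {V : Type*}

/-- Exponential weight of a configuration in a field restricted to the window `F`. -/
noncomputable def wt (F : Finset V) (h : V → ℝ) (x : V → Bool) : ℝ :=
  Real.exp (∑ j ∈ F, if x j then h j else 0)

/-- The bit at `i` as a real number. -/
noncomputable def bit (i : V) (x : V → Bool) : ℝ := if x i then 1 else 0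

/-- Tilted marginal of a measure. -/
noncomputable def tiltM (ν : Measure (V → Bool)) (F : Finset V) (i : V) (h : V → ℝ) : ℝ :=
  (∫ x, bit i x * wt F h x ∂ν) / ∫ x, wt F h x ∂ν

theorem wt_pos (F : Finset V) (h : V → ℝ) (x : V → Bool) : 0 < wt F h x := Real.exp_pos _

theorem bit_nonneg (i : V) (x : V → Bool) : 0 ≤ bit i x := by
  unfold bit; split_ifs <;> norm_num

theorem bit_le_one (i : V) (x : V → Bool) : bit i x ≤ 1 := by
  unfold bit; split_ifs <;> norm_num

theorem measurableSet_bit (i : V) : MeasurableSet {x : V → Bool | x i = true} :=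
  (measurable_pi_apply (X := fun _ : V => Bool) i) (measurableSet_singleton true)

theorem measurable_bit (i : V) : Measurable (bit i) :=
  Measurable.ite (measurableSet_bit i) measurable_const measurable_const

theorem measurable_wt (F : Finset V) :
    Measurable fun p : (V → ℝ) × (V → Bool) => wt F p.1 p.2 := by
  unfold wt
  refine Real.measurable_exp.comp (Finset.measurable_sum _ fun j _ => ?_)
  exact Measurable.ite (measurable_snd (measurableSet_bit j)) (by fun_prop) measurable_const

theorem wt_le (F : Finset V) (h : V → ℝ) (x : V → Bool) :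
    wt F h x ≤ Real.exp (∑ j ∈ F, |h j|) := by
  refine Real.exp_le_exp.2 (Finset.sum_le_sum fun j _ => ?_)
  split_ifs
  · exact le_abs_self _
  · exact abs_nonneg _

theorem integrable_wt (ν : Measure (V → Bool)) [IsFiniteMeasure ν] (F : Finset V) (h : V → ℝ) :
    Integrable (wt F h) ν :=
  Integrable.of_bound ((measurable_wt F).comp measurable_prodMk_left).aestronglyMeasurable
    (Real.exp (∑ j ∈ F, |h j|)) (Filter.Eventually.of_forall fun x => by
      rw [Real.norm_eq_abs, abs_of_pos (wt_pos F h x)]; exact wt_le F h x)

theorem tiltM_mem01 (ν : Measure (V → Bool)) [IsFiniteMeasure ν] (F : Finset V) (i : V)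
    (h : V → ℝ) : 0 ≤ tiltM ν F i h ∧ tiltM ν F i h ≤ 1 := by
  have h0 : 0 ≤ ∫ x, wt F h x ∂ν := integral_nonneg fun x => (wt_pos F h x).le
  constructor
  · exact div_nonneg (integral_nonneg fun x => mul_nonneg (bit_nonneg i x) (wt_pos F h x).le) h0
  · refine div_le_one_of_le₀ ?_ h0
    refine integral_mono_of_nonneg (Filter.Eventually.of_forall fun x =>
      mul_nonneg (bit_nonneg i x) (wt_pos F h x).le) (integrable_wt ν F h)
      (Filter.Eventually.of_forall fun x => ?_)
    exact mul_le_of_le_one_left (wt_pos F h x).le (bit_le_one i x)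

theorem measurable_tiltM (ν : Measure (V → Bool)) [IsFiniteMeasure ν] (F : Finset V) (i : V) :
    Measurable (tiltM ν F i) := by
  unfold tiltM
  refine Measurable.div ?_ ?_
  · exact (((measurable_bit i).comp measurable_snd).mul
      (measurable_wt F)).stronglyMeasurable.integral_prod_right'.measurable
  · exact (measurable_wt F).stronglyMeasurable.integral_prod_right'.measurable

/-- Law of the noise: for each site and round, a pair of potential observations. -/
noncomputable def noise (V : Type*) : Measure (V × ℕ → ℝ × ℝ) :=
  Measure.infinitePi fun _ => unif.prod m1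

instance noise_prob : IsProbabilityMeasure (noise V) := by unfold noise; infer_instance

/-- Selecting the observation according to the hidden bit. -/
def sel (b : Bool) (w : ℝ × ℝ) : ℝ := if b then w.2 else w.1

/-- The observations. -/
def obs (ω : (V → Bool) × (V × ℕ → ℝ × ℝ)) (c : V × ℕ) : ℝ := sel (ω.1 c.1) (ω.2 c)

/-- Law of the observation given the hidden bit. -/
noncomputable def mb (b : Bool) : Measure ℝ := if b then m1 else unif

instance mb_prob (b : Bool) : IsProbabilityMeasure (mb b) := by
  unfold mb; split_ifs <;> infer_instance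

/-- Density of the observation given the hidden bit. -/
noncomputable def db (b : Bool) (y : ℝ) : ℝ := if b then dens y else 1

theorem measurable_sel (b : Bool) : Measurable (sel b) := by
  unfold sel; split_ifs <;> fun_prop

theorem map_sel (b : Bool) : (unif.prod m1).map (sel b) = mb b := by
  cases b
  · exact Measure.fst_prod
  · exact Measure.snd_prod

theorem measurable_obs_apply (c : V × ℕ) :
    Measurable fun ω : (V → Bool) × (V × ℕ → ℝ × ℝ) => obs ω c := by
  unfold obs sel
  exact Measurable.ite (measurable_fst (measurableSet_bit c.1)) (by fun_prop) (by fun_prop)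

theorem measurable_obs : Measurable (obs (V := V)) := measurable_pi_iff.2 measurable_obs_apply

theorem db_pos (b : Bool) (y : ℝ) : 0 < db b y := by
  unfold db; split_ifs
  · exact dens_pos y
  · norm_num

theorem db_le (b : Bool) (y : ℝ) : db b y ≤ 2 := by
  unfold db; split_ifs
  · exact dens_le y
  · norm_num

theorem measurable_db (b : Bool) : Measurable (db b) := by
  unfold db; split_ifs
  · exact continuous_dens.measurable
  · exact measurable_const

theorem mb_eq (b : Bool) : mb b = unif.withDensity (fun y => ENNReal.ofReal (db b y)) := by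
  cases b
  · simp [mb, db]
  · rfl

theorem integrable_db (b : Bool) (μ : Measure ℝ) [IsFiniteMeasure μ] : Integrable (db b) μ :=
  Integrable.of_bound (measurable_db b).aestronglyMeasurable 2
    (Filter.Eventually.of_forall fun y => by
      rw [Real.norm_eq_abs, abs_of_pos (db_pos b y)]; exact db_le b y)

theorem pi_mb {ι : Type*} [Fintype ι] (b : ι → Bool) :
    Measure.pi (fun c => mb (b c)) = (Measure.pi fun _ : ι => unif).withDensity
      (fun z => ENNReal.ofReal (∏ c, db (b c) (z c))) := by
  refine Measure.pi_eq fun s hs => ?_
  rw [withDensity_apply _ (MeasurableSet.univ_pi hs), Measure.restrict_pi_pi,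
    ← ofReal_integral_eq_lintegral_ofReal, integral_fintype_prod_eq_prod
      (f := fun c y => db (b c) y), ENNReal.ofReal_prod_of_nonneg]
  · refine Finset.prod_congr rfl fun c _ => ?_
    rw [mb_eq, withDensity_apply _ (hs c), ofReal_integral_eq_lintegral_ofReal
      (integrable_db _ _) (Filter.Eventually.of_forall fun y => (db_pos _ y).le)]
  · exact fun c _ => integral_nonneg fun y => (db_pos _ y).le
  · exact Integrable.fintype_prod (f := fun c y => db (b c) y) fun c => integrable_db _ _
  · exact Filter.Eventually.of_forall fun z => Finset.prod_nonneg fun c _ => (db_pos _ _).le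

theorem noise_map_obs (x : V → Bool) :
    (noise V).map (fun w => obs (x, w)) = Measure.infinitePi fun c : V × ℕ => mb (x c.1) := by
  have := Measure.infinitePi_map_pi (fun _ : V × ℕ => unif.prod m1)
    (f := fun c => sel (x c.1)) (fun c => measurable_sel _)
  simp only [map_sel] at this
  exact this

/-- Likelihood of the observations indexed by `C`. -/
noncomputable def lik (C : Finset (V × ℕ)) (x : V → Bool) (z : C → ℝ) : ℝ :=
  ∏ c : C, db (x c.1.1) (z c)

theorem lik_pos (C : Finset (V × ℕ)) (x : V → Bool) (z : C → ℝ) : 0 < lik C x z :=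
  Finset.prod_pos fun _ _ => db_pos _ _

theorem lik_le (C : Finset (V × ℕ)) (x : V → Bool) (z : C → ℝ) :
    lik C x z ≤ 2 ^ Fintype.card C := by
  unfold lik
  rw [← Finset.card_univ, ← Finset.prod_const]
  exact Finset.prod_le_prod (fun _ _ => (db_pos _ _).le) fun _ _ => db_le _ _

theorem measurable_lik (C : Finset (V × ℕ)) :
    Measurable fun p : (V → Bool) × (C → ℝ) => lik C p.1 p.2 := by
  unfold lik
  refine Finset.measurable_prod _ fun c _ => ?_
  unfold db
  exact Measurable.ite (measurable_fst (measurableSet_bit _))
    (continuous_dens.measurable.comp (by fun_prop)) measurable_const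

theorem integral_obs_eq (ν : Measure (V → Bool)) [IsProbabilityMeasure ν] (C : Finset (V × ℕ))
    {Ψ : (V → Bool) × (C → ℝ) → ℝ} (hΨ : Measurable Ψ) (hb : ∀ p, |Ψ p| ≤ 1) :
    ∫ ω, Ψ (ω.1, C.restrict (obs ω)) ∂(ν.prod (noise V)) =
      ∫ z, ∫ x, lik C x z * Ψ (x, z) ∂ν ∂(Measure.pi fun _ : C => unif) := by
  have hm : Measurable fun ω : (V → Bool) × (V × ℕ → ℝ × ℝ) => Ψ (ω.1, C.restrict (obs ω)) :=
    hΨ.comp (measurable_fst.prodMk ((Finset.measurable_restrict C).comp measurable_obs))
  rw [integral_prod _ (Integrable.of_bound hm.aestronglyMeasurable 1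
    (Filter.Eventually.of_forall fun ω => hb _)),
    ← integral_integral_swap (f := fun x z => lik C x z * Ψ (x, z))]
  · refine integral_congr_ae (Filter.Eventually.of_forall fun x => ?_)
    have hx : Measurable fun w : V × ℕ → ℝ × ℝ => obs (x, w) :=
      measurable_obs.comp measurable_prodMk_left
    have h1 : (noise V).map (fun w => C.restrict (obs (x, w))) =
        Measure.pi fun c : C => mb (x c.1.1) := by
      rw [← Measure.infinitePi_map_restrict (fun c : V × ℕ => mb (x c.1)), ← noise_map_obs,
        Measure.map_map (Finset.measurable_restrict C) hx]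
      rfl
    have h2 := integral_map (μ := noise V) (φ := fun w => C.restrict (obs (x, w)))
      ((Finset.measurable_restrict C).comp hx).aemeasurable (f := fun z => Ψ (x, z))
      (hΨ.comp measurable_prodMk_left).aestronglyMeasurable
    simp only
    rw [← h2, h1, pi_mb, integral_withDensity_eq_integral_toReal_smul]
    · refine integral_congr_ae (Filter.Eventually.of_forall fun z => ?_)
      simp only [smul_eq_mul]
      congr 1
      exact ENNReal.toReal_ofReal (lik_pos C x z).le
    · exact ((measurable_lik C).comp measurable_prodMk_left).ennreal_ofReal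
    · exact Filter.Eventually.of_forall fun _ => ENNReal.ofReal_lt_top
  · refine Integrable.of_bound ((measurable_lik C).mul hΨ).aestronglyMeasurable
      (2 ^ Fintype.card C) (Filter.Eventually.of_forall fun p => ?_)
    simp only [Function.uncurry, Real.norm_eq_abs, abs_mul, abs_of_pos (lik_pos C _ _)]
    calc _ ≤ 2 ^ Fintype.card C * 1 :=
          mul_le_mul (lik_le C _ _) (hb _) (abs_nonneg _) (by positivity)
      _ = _ := mul_one _

/-- Posterior probability of the bit `i` given the observations indexed by `C`. -/
noncomputable def post (ν : Measure (V → Bool)) (C : Finset (V × ℕ)) (i : V) (z : C → ℝ) : ℝ :=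
  (∫ x, bit i x * lik C x z ∂ν) / ∫ x, lik C x z ∂ν

theorem measurable_post (ν : Measure (V → Bool)) [IsFiniteMeasure ν] (C : Finset (V × ℕ))
    (i : V) : Measurable (post ν C i) := by
  unfold post
  refine Measurable.div ?_ ?_
  · exact (((measurable_bit i).comp measurable_fst).mul
      (measurable_lik C)).stronglyMeasurable.integral_prod_left'.measurable
  · exact (measurable_lik C).stronglyMeasurable.integral_prod_left'.measurable

theorem integrable_lik (ν : Measure (V → Bool)) [IsFiniteMeasure ν] (C : Finset (V × ℕ))
    (z : C → ℝ) : Integrable (fun x => lik C x z) ν :=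
  Integrable.of_bound ((measurable_lik C).comp measurable_prodMk_right).aestronglyMeasurable
    (2 ^ Fintype.card C) (Filter.Eventually.of_forall fun x => by
      rw [Real.norm_eq_abs, abs_of_pos (lik_pos C x z)]; exact lik_le C x z)

theorem post_mem01 (ν : Measure (V → Bool)) [IsFiniteMeasure ν] (C : Finset (V × ℕ)) (i : V)
    (z : C → ℝ) : 0 ≤ post ν C i z ∧ post ν C i z ≤ 1 := by
  have h0 : 0 ≤ ∫ x, lik C x z ∂ν := integral_nonneg fun x => (lik_pos C x z).le
  constructor
  · exact div_nonneg (integral_nonneg fun x => mul_nonneg (bit_nonneg i x) (lik_pos C x z).le) h0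
  · refine div_le_one_of_le₀ ?_ h0
    refine integral_mono_of_nonneg (Filter.Eventually.of_forall fun x =>
      mul_nonneg (bit_nonneg i x) (lik_pos C x z).le) (integrable_lik ν C z)
      (Filter.Eventually.of_forall fun x => ?_)
    exact mul_le_of_le_one_left (lik_pos C x z).le (bit_le_one i x)

/-- Bayes' formula. -/
theorem post_ae_eq_condExp (ν : Measure (V → Bool)) [IsProbabilityMeasure ν]
    (C : Finset (V × ℕ)) (i : V) :
    (fun ω => post ν C i (C.restrict (obs ω))) =ᵐ[ν.prod (noise V)]
      (ν.prod (noise V))[fun ω => bit i ω.1 |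
        MeasurableSpace.comap (fun ω => C.restrict (obs ω)) inferInstance] := by
  have hR : Measurable fun ω : (V → Bool) × (V × ℕ → ℝ × ℝ) => C.restrict (obs ω) :=
    (Finset.measurable_restrict C).comp measurable_obs
  refine ae_eq_condExp_of_forall_setIntegral_eq hR.comap_le ?_ ?_ ?_ ?_
  · exact Integrable.of_bound ((measurable_bit i).comp measurable_fst).aestronglyMeasurable 1
      (Filter.Eventually.of_forall fun ω => by
        rw [Real.norm_eq_abs, abs_of_nonneg (bit_nonneg _ _)]; exact bit_le_one _ _)
  · intro s _ _
    refine Integrable.integrableOn ?_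
    exact Integrable.of_bound ((measurable_post ν C i).comp hR).aestronglyMeasurable 1
      (Filter.Eventually.of_forall fun ω => by
        rw [Real.norm_eq_abs, abs_of_nonneg (post_mem01 _ _ _ _).1]; exact (post_mem01 _ _ _ _).2)
  · rintro s ⟨B, hB, rfl⟩ -
    rw [← integral_indicator (hR hB), ← integral_indicator (hR hB)]
    have hind : ∀ z, |B.indicator (fun _ => (1 : ℝ)) z| ≤ 1 := by
      intro z; by_cases hz : z ∈ B <;> simp [hz]
    have hmi : Measurable (B.indicator (fun _ => (1 : ℝ))) := measurable_const.indicator hB
    have e1 := integral_obs_eq ν C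
      (Ψ := fun p => B.indicator (fun _ => (1 : ℝ)) p.2 * post ν C i p.2)
      ((hmi.mul (measurable_post ν C i)).comp measurable_snd) (fun p => by
        rw [abs_mul, abs_of_nonneg (post_mem01 _ _ _ _).1]
        exact mul_le_one₀ (hind _) (post_mem01 _ _ _ _).1 (post_mem01 _ _ _ _).2)
    have e2 := integral_obs_eq ν C
      (Ψ := fun p => B.indicator (fun _ => (1 : ℝ)) p.2 * bit i p.1)
      ((hmi.comp measurable_snd).mul ((measurable_bit i).comp measurable_fst)) (fun p => by
        rw [abs_mul, abs_of_nonneg (bit_nonneg _ _)]
        exact mul_le_one₀ (hind _) (bit_nonneg _ _) (bit_le_one _ _))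
    convert e1.trans (Eq.trans ?_ e2.symm) using 2
    · funext ω
      by_cases hω : C.restrict (obs ω) ∈ B <;> simp [hω, indicator]
    · funext ω
      by_cases hω : C.restrict (obs ω) ∈ B <;> simp [hω, indicator]
    · refine integral_congr_ae (Filter.Eventually.of_forall fun z => ?_)
      have hZ : 0 < ∫ x, lik C x z ∂ν := by
        rw [integral_pos_iff_support_of_nonneg (fun x => (lik_pos C x z).le)
          (integrable_lik ν C z)]
        have : Function.support (fun x => lik C x z) = univ := by
          ext x; simp [(lik_pos C x z).ne']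
        rw [this]; simp
      simp only
      rw [integral_mul_const]
      have : ∀ x, lik C x z * (B.indicator (fun _ => (1 : ℝ)) z * bit i x) =
          B.indicator (fun _ => (1 : ℝ)) z * (bit i x * lik C x z) := fun x => by ring
      simp only [this]
      rw [integral_const_mul, post]
      field_simp
  · exact ((measurable_post ν C i).comp (comap_measurable _)).aestronglyMeasurable

open Classical in
/-- The observations inside the window `F` revealed before `a`. -/
noncomputable def pastSet (r : V → V → Prop) (F : Finset V) (a : V × ℕ) : Finset (V × ℕ) :=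
  (F ×ˢ Finset.range (a.2 + 1)).filter (fun c => prec r c a)

theorem mem_pastSet {r : V → V → Prop} {F : Finset V} {a c : V × ℕ} :
    c ∈ pastSet r F a ↔ c.1 ∈ F ∧ prec r c a := by
  simp only [pastSet, Finset.mem_filter, Finset.mem_product, Finset.mem_range]
  constructor
  · rintro ⟨⟨h1, -⟩, h2⟩; exact ⟨h1, h2⟩
  · rintro ⟨h1, h2⟩
    refine ⟨⟨h1, ?_⟩, h2⟩
    rcases h2 with h | h <;> omega

theorem wt_field (r : V → V → Prop) (F : Finset V) (a : V × ℕ) (Y : V × ℕ → ℝ) (x : V → Bool) :
    wt F (field r Y a) x = lik (pastSet r F a) x ((pastSet r F a).restrict Y) := by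
  classical
  unfold lik wt field
  have : ∏ c : pastSet r F a, db (x c.1.1) ((pastSet r F a).restrict Y c) =
      ∏ c ∈ pastSet r F a, db (x c.1) (Y c) :=
    Finset.prod_coe_sort (pastSet r F a) (fun c => db (x c.1) (Y c))
  rw [this, pastSet, Finset.prod_filter, Finset.prod_product, Real.exp_sum]
  refine Finset.prod_congr rfl fun j _ => ?_
  by_cases hx : x j = true
  · simp only [hx, if_true, Real.exp_sum, db]
    refine Finset.prod_congr rfl fun l _ => ?_
    split_ifs
    · exact exp_ll _
    · exact Real.exp_zero
  · simp [hx, db]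

theorem tiltM_field (ν : Measure (V → Bool)) (r : V → V → Prop) (F : Finset V) (a : V × ℕ)
    (i : V) (Y : V × ℕ → ℝ) :
    tiltM ν F i (field r Y a) = post ν (pastSet r F a) i ((pastSet r F a).restrict Y) := by
  simp only [tiltM, post, wt_field]

end Crest.Agent.R168
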