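import Mathlib

/-!
Row 168: the deterministic construction (a fixed point of a weighted sup-norm contraction), its
equivariance and its measurability.
-/

set_option autoImplicit false

namespace Crest.Agent.R168

open Filter

/-- The signal strength. -/
noncomputable def eps : ℝ := 1 / 100

theorem eps_eq : eps = 1 / 100 := rfl

/-- Projection of the real line onto `[0, 1]`. -/
noncomputable def clamp (y : ℝ) : ℝ := max 0 (min 1 y)

/-- `y (1 - y)` on `[0, 1]`, zero outside. -/
noncomputable def bump (y : ℝ) : ℝ := clamp y * (1 - clamp y)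

/-- The likelihood ratio of an observation. -/
noncomputable def dens (y : ℝ) : ℝ := 1 + eps * (2 * clamp y - 1)

/-- The log-likelihood ratio. -/
noncomputable def ll (y : ℝ) : ℝ := Real.log (dens y)

theorem clamp_nonneg (y : ℝ) : 0 ≤ clamp y := le_max_left _ _

theorem clamp_le_one (y : ℝ) : clamp y ≤ 1 := max_le zero_le_one (min_le_left _ _)

theorem clamp_of_mem {y : ℝ} (h0 : 0 ≤ y) (h1 : y ≤ 1) : clamp y = y := by
  simp [clamp, h0, h1]

theorem clamp_lip (y y' : ℝ) : |clamp y - clamp y'| ≤ |y - y'| := by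
  unfold clamp
  refine (abs_max_sub_max_le_max _ _ _ _).trans (max_le (by simp) ?_)
  refine (abs_min_sub_min_le_max _ _ _ _).trans (max_le (by simp) le_rfl)

theorem continuous_clamp : Continuous clamp := by unfold clamp; fun_prop

theorem continuous_bump : Continuous bump := by
  have := continuous_clamp
  unfold bump; fun_prop

theorem continuous_dens : Continuous dens := by
  have := continuous_clamp
  unfold dens; fun_prop

theorem bump_nonneg (y : ℝ) : 0 ≤ bump y :=
  mul_nonneg (clamp_nonneg y) (sub_nonneg.2 (clamp_le_one y))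

theorem bump_le (y : ℝ) : bump y ≤ 1 / 4 := by
  unfold bump
  nlinarith [sq_nonneg (clamp y - 1 / 2)]

theorem bump_lip (y y' : ℝ) : |bump y - bump y'| ≤ |y - y'| := by
  refine le_trans ?_ (clamp_lip y y')
  have : bump y - bump y' = (clamp y - clamp y') * (1 - clamp y - clamp y') := by
    unfold bump; ring
  rw [this, abs_mul]
  refine mul_le_of_le_one_right (abs_nonneg _) ?_
  have := clamp_nonneg y
  have := clamp_nonneg y'
  have := clamp_le_one y
  have := clamp_le_one y'
  rw [abs_le]; constructor <;> linarith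

theorem dens_ge (y : ℝ) : 1 / 2 ≤ dens y := by
  have := clamp_nonneg y
  unfold dens; rw [eps_eq]; linarith

theorem dens_le (y : ℝ) : dens y ≤ 2 := by
  have := clamp_le_one y
  unfold dens; rw [eps_eq]; linarith

theorem dens_pos (y : ℝ) : 0 < dens y := lt_of_lt_of_le (by norm_num) (dens_ge y)

theorem exp_ll (y : ℝ) : Real.exp (ll y) = dens y := Real.exp_log (dens_pos y)

theorem measurable_ll : Measurable ll := continuous_dens.measurable.log

theorem log_sub_le {a b : ℝ} (ha : 0 < a) (hb : 1 / 2 ≤ b) :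
    Real.log a - Real.log b ≤ 2 * |a - b| := by
  have hb0 : 0 < b := by linarith
  rw [← Real.log_div ha.ne' hb0.ne']
  refine (Real.log_le_sub_one_of_pos (div_pos ha hb0)).trans ?_
  rw [div_sub_one hb0.ne', div_le_iff₀ hb0]
  have := le_abs_self (a - b)
  have := abs_nonneg (a - b)
  nlinarith

theorem ll_lip (y y' : ℝ) : |ll y - ll y'| ≤ 4 * eps * |y - y'| := by
  have h1 := log_sub_le (dens_pos y) (dens_ge y')
  have h2 := log_sub_le (dens_pos y') (dens_ge y)
  have h3 : |dens y - dens y'| ≤ 2 * eps * |y - y'| := by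
    have : dens y - dens y' = 2 * eps * (clamp y - clamp y') := by unfold dens; ring
    rw [this, abs_mul, abs_of_nonneg (by rw [eps_eq]; norm_num : 0 ≤ 2 * eps)]
    exact mul_le_mul_of_nonneg_left (clamp_lip y y') (by rw [eps_eq]; norm_num)
  rw [abs_sub_comm (dens y') (dens y)] at h2
  unfold ll
  rw [abs_le]; constructor <;> linarith

variable {V : Type*}

/-- The order in which observations are revealed: by round, then by the relation `r`. -/
def prec (r : V → V → Prop) (c a : V × ℕ) : Prop := c.2 < a.2 ∨ (c.2 = a.2 ∧ r c.1 a.1)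

open Classical in
/-- The field at `j` produced by the observations revealed before `a`. -/
noncomputable def field (r : V → V → Prop) (Y : V × ℕ → ℝ) (a : V × ℕ) (j : V) : ℝ :=
  ∑ l ∈ Finset.range (a.2 + 1), if prec r (j, l) a then ll (Y (j, l)) else 0

/-- The posterior probability used when revealing `a`. -/
noncomputable def prob (q : V → ℕ → (V → ℝ) → ℝ) (r : V → V → Prop) (Y : V × ℕ → ℝ)
    (a : V × ℕ) : ℝ :=
  limsup (fun n => q a.1 n (field r Y a)) atTop

/-- One step of the fixed point iteration. -/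
noncomputable def step (q : V → ℕ → (V → ℝ) → ℝ) (r : V → V → Prop) (U Y : V × ℕ → ℝ)
    (a : V × ℕ) : ℝ :=
  U a + eps * prob q r Y a * bump (Y a)

/-- The fixed point iteration. -/
noncomputable def iter (q : V → ℕ → (V → ℝ) → ℝ) (r : V → V → Prop) (U : V × ℕ → ℝ) :
    ℕ → V × ℕ → ℝ
  | 0 => fun _ => 0
  | m + 1 => step q r U (iter q r U m)

/-- The limit of the iteration. -/
noncomputable def sol (q : V → ℕ → (V → ℝ) → ℝ) (r : V → V → Prop) (U : V × ℕ → ℝ)
    (a : V × ℕ) : ℝ :=
  limsup (fun m => iter q r U m a) atTop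

/-- Indicator of the lower half. -/
noncomputable def low (y : ℝ) : ℝ := Set.indicator (Set.Iic (1 / 2)) (fun _ => 1) y

open Classical in
/-- Reading the hidden bit from its sequence of observations. -/
noncomputable def decode (y : ℕ → ℝ) : Bool :=
  decide (limsup (fun n : ℕ => (∑ k ∈ Finset.range n, low (y k)) / n) atTop < 1 / 2 - eps / 8)

/-- The output configuration. -/
noncomputable def out (q : V → ℕ → (V → ℝ) → ℝ) (r : V → V → Prop) (U : V × ℕ → ℝ)
    (i : V) : Bool :=
  decode (fun k => sol q r U (i, k))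

/-! ### Contraction -/

theorem abs_limsup_sub_le {u v : ℕ → ℝ} (hu : ∀ n, 0 ≤ u n ∧ u n ≤ 1)
    (hv : ∀ n, 0 ≤ v n ∧ v n ≤ 1) {d : ℝ} (h : ∀ n, |u n - v n| ≤ d) :
    |limsup u atTop - limsup v atTop| ≤ d := by
  have key : ∀ {u v : ℕ → ℝ}, (∀ n, 0 ≤ u n ∧ u n ≤ 1) → (∀ n, 0 ≤ v n ∧ v n ≤ 1) →
      (∀ n, u n ≤ v n + d) → limsup u atTop ≤ limsup v atTop + d := by
    intro u v hu hv h
    have hvb : IsBoundedUnder (· ≤ ·) atTop v := isBoundedUnder_of ⟨1, fun n => (hv n).2⟩
    have hvc : IsCoboundedUnder (· ≤ ·) atTop v :=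
      isCoboundedUnder_le_of_le atTop (x := 0) fun n => (hv n).1
    rw [← limsup_add_const atTop v d hvb hvc]
    refine limsup_le_limsup (Eventually.of_forall h)
      (isCoboundedUnder_le_of_le atTop (x := 0) fun n => (hu n).1) ?_
    exact isBoundedUnder_of ⟨1 + d, fun n => by have := (hv n).2; show v n + d ≤ 1 + d; linarith⟩
  have h1 := key hu hv fun n => by have := abs_le.1 (h n); linarith
  have h2 := key hv hu fun n => by have := abs_le.1 (h n); linarith
  rw [abs_le]; constructor <;> linarith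

theorem limsup_mem01 {u : ℕ → ℝ} (hu : ∀ n, 0 ≤ u n ∧ u n ≤ 1) :
    0 ≤ limsup u atTop ∧ limsup u atTop ≤ 1 := by
  constructor
  · exact le_limsup_of_frequently_le (Eventually.of_forall fun n => (hu n).1).frequently
      (isBoundedUnder_of ⟨1, fun n => (hu n).2⟩)
  · exact limsup_le_of_le (isCoboundedUnder_le_of_le atTop (x := 0) fun n => (hu n).1)
      (Eventually.of_forall fun n => (hu n).2)

theorem prob_mem01 {q : V → ℕ → (V → ℝ) → ℝ} (hq : ∀ i n h, 0 ≤ q i n h ∧ q i n h ≤ 1)
    (r : V → V → Prop) (Y : V × ℕ → ℝ) (a : V × ℕ) : 0 ≤ prob q r Y a ∧ prob q r Y a ≤ 1 :=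
  limsup_mem01 fun _ => hq _ _ _

theorem field_lip (r : V → V → Prop) {Y Y' : V × ℕ → ℝ} {D : ℝ} (hD : 0 ≤ D)
    (h : ∀ c, |Y c - Y' c| ≤ D * 2 ^ c.2) (a : V × ℕ) (j : V) :
    |field r Y a j - field r Y' a j| ≤ 8 * eps * D * 2 ^ a.2 := by
  unfold field
  rw [← Finset.sum_sub_distrib]
  refine (Finset.abs_sum_le_sum_abs _ _).trans ?_
  have he : 0 ≤ eps := by rw [eps_eq]; norm_num
  calc _ ≤ ∑ l ∈ Finset.range (a.2 + 1), 4 * eps * D * 2 ^ l := by
        refine Finset.sum_le_sum fun l _ => ?_
        split_ifs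
        · refine (ll_lip _ _).trans ?_
          rw [mul_assoc (4 * eps)]
          exact mul_le_mul_of_nonneg_left (h (j, l)) (by positivity)
        · simp only [sub_self, abs_zero]; positivity
    _ = 4 * eps * D * ∑ l ∈ Finset.range (a.2 + 1), (2 : ℝ) ^ l := by rw [Finset.mul_sum]
    _ ≤ 4 * eps * D * (2 * 2 ^ a.2) := by
        refine mul_le_mul_of_nonneg_left ?_ (by positivity)
        rw [geom_sum_eq (by norm_num), pow_succ]
        norm_num
        linarith
    _ = _ := by ring

theorem step_contract {q : V → ℕ → (V → ℝ) → ℝ} (hq : ∀ i n h, 0 ≤ q i n h ∧ q i n h ≤ 1)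
    (hlip : ∀ i n h h' (δ : ℝ), (∀ j, |h j - h' j| ≤ δ) → |q i n h - q i n h'| ≤ 100 * δ)
    (r : V → V → Prop) (U : V × ℕ → ℝ) {Y Y' : V × ℕ → ℝ} {D : ℝ} (hD : 0 ≤ D)
    (h : ∀ c, |Y c - Y' c| ≤ D * 2 ^ c.2) (a : V × ℕ) :
    |step q r U Y a - step q r U Y' a| ≤ (D / 2) * 2 ^ a.2 := by
  have h1 : |prob q r Y a - prob q r Y' a| ≤ 100 * (8 * eps * D * 2 ^ a.2) :=
    abs_limsup_sub_le (fun _ => hq _ _ _) (fun _ => hq _ _ _)
      fun n => hlip _ _ _ _ _ (field_lip r hD h a)
  have h2 : |bump (Y a) - bump (Y' a)| ≤ D * 2 ^ a.2 := (bump_lip _ _).trans (h a)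
  obtain ⟨p0, p1⟩ := prob_mem01 hq r Y' a
  have b0 := bump_nonneg (Y a)
  have b1 := bump_le (Y a)
  have : step q r U Y a - step q r U Y' a = eps * ((prob q r Y a - prob q r Y' a) * bump (Y a) +
      prob q r Y' a * (bump (Y a) - bump (Y' a))) := by
    unfold step; ring
  rw [this, abs_mul]
  have h3 : |(prob q r Y a - prob q r Y' a) * bump (Y a) +
      prob q r Y' a * (bump (Y a) - bump (Y' a))| ≤
      100 * (8 * eps * D * 2 ^ a.2) * (1 / 4) + 1 * (D * 2 ^ a.2) := by
    refine (abs_add_le _ _).trans (add_le_add ?_ ?_)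
    · rw [abs_mul, abs_of_nonneg b0]
      exact mul_le_mul h1 b1 b0 ((abs_nonneg _).trans h1)
    · rw [abs_mul, abs_of_nonneg p0]
      exact mul_le_mul p1 h2 (abs_nonneg _) zero_le_one
  rw [eps_eq] at h3 ⊢
  have hp : (0 : ℝ) ≤ D * 2 ^ a.2 := by positivity
  rw [abs_of_pos (by norm_num : (0 : ℝ) < 1 / 100)]
  nlinarith

theorem sol_eq_of_fixed {q : V → ℕ → (V → ℝ) → ℝ} (hq : ∀ i n h, 0 ≤ q i n h ∧ q i n h ≤ 1)
    (hlip : ∀ i n h h' (δ : ℝ), (∀ j, |h j - h' j| ≤ δ) → |q i n h - q i n h'| ≤ 100 * δ)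
    (r : V → V → Prop) (U : V × ℕ → ℝ) {Y : V × ℕ → ℝ} (hY : ∀ c, |Y c| ≤ 1)
    (hfix : step q r U Y = Y) : sol q r U = Y := by
  have key : ∀ m c, |iter q r U m c - Y c| ≤ (1 / 2) ^ m * 2 ^ c.2 := by
    intro m
    induction m with
    | zero =>
      intro c
      simp only [iter, zero_sub, abs_neg, pow_zero, one_mul]
      exact (hY c).trans (one_le_pow₀ (by norm_num))
    | succ m ih =>
      intro c
      have := step_contract hq hlip r U (by positivity) ih c
      rw [hfix] at this
      simp only [iter]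
      refine this.trans (le_of_eq ?_)
      ring
  funext c
  refine Tendsto.limsup_eq ?_
  rw [tendsto_iff_norm_sub_tendsto_zero]
  refine squeeze_zero (fun _ => norm_nonneg _) (fun m => key m c) ?_
  have := (tendsto_pow_atTop_nhds_zero_of_lt_one (r := (1 / 2 : ℝ)) (by norm_num)
    (by norm_num)).mul_const ((2 : ℝ) ^ c.2)
  simpa using this

/-! ### Equivariance -/

theorem out_comp {V' : Type*} (σ : V → V') {q : V → ℕ → (V → ℝ) → ℝ}
    {q' : V' → ℕ → (V' → ℝ) → ℝ} {r : V → V → Prop} {r' : V' → V' → Prop}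
    {U : V × ℕ → ℝ} {U' : V' × ℕ → ℝ}
    (hq : ∀ i n h, q i n (h ∘ σ) = q' (σ i) n h) (hr : ∀ j i, r j i ↔ r' (σ j) (σ i))
    (hU : ∀ i k, U (i, k) = U' (σ i, k)) (i : V) : out q r U i = out q' r' U' (σ i) := by
  have hfield : ∀ (Y : V × ℕ → ℝ) (Y' : V' × ℕ → ℝ), (∀ i k, Y (i, k) = Y' (σ i, k)) →
      ∀ i k, field r Y (i, k) = field r' Y' (σ i, k) ∘ σ := by
    intro Y Y' hY i k
    funext j
    simp only [field, Function.comp, hY]
    refine Finset.sum_congr rfl fun l _ => ?_
    have : prec r (j, l) (i, k) = prec r' (σ j, l) (σ i, k) := by simp only [prec, hr]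
    rw [this]
  have hiter : ∀ m i k, iter q r U m (i, k) = iter q' r' U' m (σ i, k) := by
    intro m
    induction m with
    | zero => intro i k; rfl
    | succ m ih =>
      intro i k
      simp only [iter, step, prob, hfield _ _ ih, hq, hU, ih]
  simp only [out, sol, hiter]

/-! ### Measurability -/

theorem measurable_decode : Measurable decode := by
  have hlow : Measurable low := measurable_const.indicator measurableSet_Iic
  have : Measurable fun y : ℕ → ℝ =>
      limsup (fun n : ℕ => (∑ k ∈ Finset.range n, low (y k)) / n) atTop := by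
    refine Measurable.limsup fun n => ?_
    fun_prop
  refine measurable_to_bool ?_
  have h2 := measurableSet_lt this (measurable_const (a := 1 / 2 - eps / 8))
  convert h2 using 1
  ext y
  simp [decode]

section Meas

variable {Θ : Type*} [MeasurableSpace Θ]

theorem measurable_field {r : Θ → V → V → Prop} (hr : ∀ j i, MeasurableSet {θ | r θ j i})
    {Y : Θ → V × ℕ → ℝ} (hY : Measurable Y) (a : V × ℕ) :
    Measurable fun θ => field (r θ) (Y θ) a := by
  refine measurable_pi_iff.2 fun j => ?_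
  unfold field
  refine Finset.measurable_sum _ fun l _ => ?_
  refine Measurable.ite ?_ (measurable_ll.comp (measurable_pi_iff.1 hY _)) measurable_const
  unfold prec
  exact (MeasurableSet.const _).union ((MeasurableSet.const _).inter (hr _ _))

theorem measurable_prob {q : Θ → V → ℕ → (V → ℝ) → ℝ}
    (hq : ∀ i n, Measurable fun p : Θ × (V → ℝ) => q p.1 i n p.2)
    {r : Θ → V → V → Prop} (hr : ∀ j i, MeasurableSet {θ | r θ j i})
    {Y : Θ → V × ℕ → ℝ} (hY : Measurable Y) (a : V × ℕ) :
    Measurable fun θ => prob (q θ) (r θ) (Y θ) a := by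
  refine Measurable.limsup fun n => ?_
  exact (hq a.1 n).comp (measurable_id.prodMk (measurable_field hr hY a))

theorem measurable_out {q : Θ → V → ℕ → (V → ℝ) → ℝ}
    (hq : ∀ i n, Measurable fun p : Θ × (V → ℝ) => q p.1 i n p.2)
    {r : Θ → V → V → Prop} (hr : ∀ j i, MeasurableSet {θ | r θ j i})
    {U : Θ → V × ℕ → ℝ} (hU : Measurable U) :
    Measurable fun θ => out (q θ) (r θ) (U θ) := by
  have hiter : ∀ m, Measurable fun θ => iter (q θ) (r θ) (U θ) m := by
    intro m
    induction m with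
    | zero => exact measurable_const
    | succ m ih =>
      refine measurable_pi_iff.2 fun a => ?_
      simp only [iter, step]
      exact (measurable_pi_iff.1 hU a).add
        ((measurable_const.mul (measurable_prob hq hr ih a)).mul
          (continuous_bump.measurable.comp (measurable_pi_iff.1 ih a)))
  refine measurable_pi_iff.2 fun i => ?_
  refine measurable_decode.comp (measurable_pi_iff.2 fun k => ?_)
  exact Measurable.limsup fun m => measurable_pi_iff.1 (hiter m) _

end Meas

end Crest.Agent.R168
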