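import Mathlib
import Crest.Prelude.Def_SpanningTrees
import Crest.Prelude.Def_GraphTables

/-!
Row 168 (S0254, S0255): shared definitions.

* `Stable T c`: the generating polynomial of the weighted family `(T, c)` of finite sets has no
  zero in the product of upper half planes.
* `tilt T c i h`: probability that `i ∈ S` when `S ∈ T` has weight `c S * exp (∑ j ∈ S, h j)`.
* `trees G S`: edge sets of spanning trees of the piece of `G` induced on `S`.
* `muG G R`: infimum of `ustContains G S R` over finite connected `S` whose edges contain `R`.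
* `ballV`, `window`: canonical finite windows of edges around an unordered pair.
* `tiltInc μ F i h`: tilted marginal written with inclusion probabilities `μ R = P (R ⊆ X)`.
-/

set_option autoImplicit false

namespace Crest.Agent.R168

open Crest.ProbabilityR.SpanningTrees

/-- The generating polynomial of the weighted family `(T, c)` does not vanish when all
variables lie in the upper half plane. -/
def Stable {V : Type*} (T : Finset (Finset V)) (c : Finset V → ℝ) : Prop :=
  ∀ z : V → ℂ, (∀ j, 0 < (z j).im) → ∑ S ∈ T, (c S : ℂ) * ∏ j ∈ S, z j ≠ 0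

open Classical in
/-- Tilted marginal of the weighted family `(T, c)` at `i` in the field `h`. -/
noncomputable def tilt {V : Type*} (T : Finset (Finset V)) (c : Finset V → ℝ) (i : V)
    (h : V → ℝ) : ℝ :=
  (∑ S ∈ T, if i ∈ S then c S * Real.exp (∑ j ∈ S, h j) else 0) /
    ∑ S ∈ T, c S * Real.exp (∑ j ∈ S, h j)

open Classical in
/-- Edge sets of the spanning trees of the piece of `G` induced on `S`. -/
noncomputable def trees {V : Type*} (G : SimpleGraph V) (S : Finset V) :
    Finset (Finset (Sym2 V)) :=
  (edgesIn G S).powerset.filter (fun A => IsSpanningTreeOn G S A)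

theorem mem_trees {V : Type*} {G : SimpleGraph V} {S : Finset V} {A : Finset (Sym2 V)} :
    A ∈ trees G S ↔ IsSpanningTreeOn G S A := by
  unfold trees
  simp only [Finset.mem_filter, Finset.mem_powerset]
  exact ⟨fun h => h.2, fun h => ⟨h.1, h⟩⟩

theorem mem_edgesIn {V : Type*} {G : SimpleGraph V} {S : Finset V} {e : Sym2 V} :
    e ∈ edgesIn G S ↔ e ∈ G.edgeSet ∧ ∀ v ∈ e, v ∈ S := by
  classical
  unfold edgesIn
  simp only [Finset.mem_filter, Finset.mem_sym2_iff]
  exact and_comm

open Classical in
theorem ustContains_eq {V : Type*} (G : SimpleGraph V) (S : Finset V) (F : Finset (Sym2 V)) :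
    ustContains G S F = (((trees G S).filter (fun A => F ⊆ A)).card : ℝ) / (trees G S).card := by
  unfold ustContains trees
  rw [Finset.filter_filter]

open Classical in
/-- Inclusion probabilities of the free uniform spanning forest: the infimum over finite
connected pieces. -/
noncomputable def muG (G : SimpleGraph ℕ) (R : Finset (Sym2 ℕ)) : ℝ :=
  ⨅ S : Finset ℕ,
    if (G.induce (S : Set ℕ)).Connected ∧ R ⊆ edgesIn G S then ustContains G S R else 1

/-- Vertices within distance `n` of the unordered pair `e`. -/
def ballV (G : SimpleGraph ℕ) (e : Sym2 ℕ) : ℕ → Set ℕ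
  | 0 => {v | v ∈ e}
  | n + 1 => ballV G e n ∪ {w | ∃ v ∈ ballV G e n, G.Adj v w}

/-- Edges of `G` with both ends within distance `n` of `e`. -/
def ballE (G : SimpleGraph ℕ) (e : Sym2 ℕ) (n : ℕ) : Set (Sym2 ℕ) :=
  {f | f ∈ G.edgeSet ∧ ∀ w ∈ f, w ∈ ballV G e n}

open Classical in
/-- The finite window of edges around `e` (empty if the ball is infinite). -/
noncomputable def window (G : SimpleGraph ℕ) (e : Sym2 ℕ) (n : ℕ) : Finset (Sym2 ℕ) :=
  if h : (ballE G e n).Finite then h.toFinset else ∅

open Classical in
/-- Tilted marginal at `i` for a field `h` on the finite window `F`, written with the inclusion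
probabilities `μ R = P (R ⊆ X)`. -/
noncomputable def tiltInc {V : Type*} (μ : Finset V → ℝ) (F : Finset V) (i : V) (h : V → ℝ) : ℝ :=
  (∑ R ∈ F.powerset, μ (insert i R) * ∏ j ∈ R, (Real.exp (h j) - 1)) /
    ∑ R ∈ F.powerset, μ R * ∏ j ∈ R, (Real.exp (h j) - 1)

/-- The rule giving tilted marginals for the graph `G`. -/
noncomputable def qG (G : SimpleGraph ℕ) (e : Sym2 ℕ) (n : ℕ) (h : Sym2 ℕ → ℝ) : ℝ :=
  tiltInc (muG G) (window G e n) e h

end Crest.Agent.R168
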