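import Crest.Agent.R168.BallEq

/-!
Row 168, task C1: the rule `qG` is equivariant under relabellings of `ℕ`.
-/

set_option autoImplicit false

namespace Crest.Agent.R168

open Crest.ProbabilityR.SpanningTrees

/-- The action of a permutation on unordered pairs. -/
def ge_E (σ : Equiv.Perm ℕ) : Sym2 ℕ ≃ Sym2 ℕ where
  toFun := Sym2.map σ
  invFun := Sym2.map σ.symm
  left_inv e := by induction e using Sym2.ind with | _ a b => simp
  right_inv e := by induction e using Sym2.ind with | _ a b => simp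

@[simp] theorem ge_E_apply (σ : Equiv.Perm ℕ) (e : Sym2 ℕ) : ge_E σ e = Sym2.map σ e := rfl

theorem ge_mem_edgeSet (σ : Equiv.Perm ℕ) (G : SimpleGraph ℕ) (f : Sym2 ℕ) :
    f ∈ (G.comap σ).edgeSet ↔ ge_E σ f ∈ G.edgeSet := by
  induction f using Sym2.ind with
  | _ a b => simp

theorem ge_forall_mem (σ : Equiv.Perm ℕ) (f : Sym2 ℕ) (P : ℕ → Prop) :
    (∀ w ∈ ge_E σ f, P w) ↔ ∀ w ∈ f, P (σ w) := by
  induction f using Sym2.ind with
  | _ a b => simp

theorem ge_ballV (σ : Equiv.Perm ℕ) (G : SimpleGraph ℕ) (e : Sym2 ℕ) (n : ℕ) (v : ℕ) :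
    v ∈ ballV (G.comap σ) e n ↔ σ v ∈ ballV G (ge_E σ e) n := by
  induction n generalizing v with
  | zero =>
    induction e using Sym2.ind with
    | _ a b => simp [ballV]
  | succ n ih =>
    simp only [ballV, Set.mem_union, ih, Set.mem_ofPred_eq, SimpleGraph.comap_adj]
    refine or_congr Iff.rfl ⟨?_, ?_⟩
    · rintro ⟨u, hu, huv⟩
      exact ⟨σ u, hu, huv⟩
    · rintro ⟨u, hu, huv⟩
      exact ⟨σ.symm u, by simpa using hu, by simpa using huv⟩

theorem ge_ballE (σ : Equiv.Perm ℕ) (G : SimpleGraph ℕ) (e : Sym2 ℕ) (n : ℕ) (f : Sym2 ℕ) :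
    f ∈ ballE (G.comap σ) e n ↔ ge_E σ f ∈ ballE G (ge_E σ e) n := by
  simp only [ballE, Set.mem_ofPred_eq, ge_mem_edgeSet, ge_forall_mem, ge_ballV]

theorem ge_window (σ : Equiv.Perm ℕ) (G : SimpleGraph ℕ) (e : Sym2 ℕ) (n : ℕ) :
    window G (ge_E σ e) n = (window (G.comap σ) e n).map (ge_E σ).toEmbedding := by
  have hpre : ballE (G.comap σ) e n = ge_E σ ⁻¹' ballE G (ge_E σ e) n := by
    ext f; exact ge_ballE σ G e n f
  have hfin : (ballE (G.comap σ) e n).Finite ↔ (ballE G (ge_E σ e) n).Finite := by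
    rw [hpre]
    exact ⟨fun h => h.of_preimage (ge_E σ).surjective,
      fun h => h.preimage (ge_E σ).injective.injOn⟩
  unfold window
  by_cases h : (ballE (G.comap σ) e n).Finite
  · rw [dif_pos h, dif_pos (hfin.mp h)]
    ext f
    rw [Finset.mem_map_equiv, Set.Finite.mem_toFinset, Set.Finite.mem_toFinset, ge_ballE,
      Equiv.apply_symm_apply]
  · rw [dif_neg h, dif_neg (fun h' => h (hfin.mpr h'))]
    simp

theorem ge_edgesIn (σ : Equiv.Perm ℕ) (G : SimpleGraph ℕ) (S : Finset ℕ) :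
    edgesIn G (S.map σ.toEmbedding) = (edgesIn (G.comap σ) S).map (ge_E σ).toEmbedding := by
  ext f
  obtain ⟨f, rfl⟩ := (ge_E σ).surjective f
  rw [Finset.mem_map_equiv, Equiv.symm_apply_apply, mem_edgesIn, mem_edgesIn, ge_mem_edgeSet,
    ge_forall_mem]
  simp

/-- Induced pieces of a relabelled graph. -/
def ge_iso (σ : Equiv.Perm ℕ) (H : SimpleGraph ℕ) (S : Finset ℕ) :
    (H.comap σ).induce (S : Set ℕ) ≃g H.induce ((S.map σ.toEmbedding : Finset ℕ) : Set ℕ) where
  toFun x := ⟨σ x, by simp⟩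
  invFun y := ⟨σ.symm y, by
    have := y.2
    rw [Finset.mem_coe, Finset.mem_map_equiv] at this
    exact this⟩
  left_inv x := by simp
  right_inv y := by simp
  map_rel_iff' := by intro a b; simp

theorem ge_fromEdgeSet (σ : Equiv.Perm ℕ) (A : Finset (Sym2 ℕ)) :
    (SimpleGraph.fromEdgeSet ((A.map (ge_E σ).toEmbedding : Finset (Sym2 ℕ)) :
      Set (Sym2 ℕ))).comap σ = SimpleGraph.fromEdgeSet (A : Set (Sym2 ℕ)) := by
  ext a b
  have : s(σ a, σ b) = ge_E σ s(a, b) := by simp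
  simp only [SimpleGraph.comap_adj, SimpleGraph.fromEdgeSet_adj, Finset.mem_coe, this,
    Finset.mem_map_equiv, Equiv.symm_apply_apply, ne_eq, EmbeddingLike.apply_eq_iff_eq]

theorem ge_isSpanningTreeOn (σ : Equiv.Perm ℕ) (G : SimpleGraph ℕ) (S : Finset ℕ)
    (A : Finset (Sym2 ℕ)) :
    IsSpanningTreeOn G (S.map σ.toEmbedding) (A.map (ge_E σ).toEmbedding) ↔
      IsSpanningTreeOn (G.comap σ) S A := by
  unfold IsSpanningTreeOn
  rw [ge_edgesIn, Finset.map_subset_map, ← (ge_iso σ _ S).isTree_iff, ge_fromEdgeSet]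

theorem ge_trees (σ : Equiv.Perm ℕ) (G : SimpleGraph ℕ) (S : Finset ℕ) :
    trees G (S.map σ.toEmbedding) =
      (trees (G.comap σ) S).map (ge_E σ).finsetCongr.toEmbedding := by
  ext A
  obtain ⟨A, rfl⟩ := (ge_E σ).finsetCongr.surjective A
  rw [Finset.mem_map_equiv, Equiv.symm_apply_apply, mem_trees, mem_trees,
    Equiv.finsetCongr_apply, ge_isSpanningTreeOn]

theorem ge_ustContains (σ : Equiv.Perm ℕ) (G : SimpleGraph ℕ) (S : Finset ℕ)
    (R : Finset (Sym2 ℕ)) :
    ustContains G (S.map σ.toEmbedding) (R.map (ge_E σ).toEmbedding) =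
      ustContains (G.comap σ) S R := by
  rw [ustContains_eq, ustContains_eq, ge_trees, Finset.card_map]
  congr 2
  symm
  refine Finset.card_equiv (ge_E σ).finsetCongr fun A => ?_
  simp only [Finset.mem_filter, Finset.mem_map_equiv, Equiv.symm_apply_apply]
  rw [Equiv.finsetCongr_apply, Finset.map_subset_map]

theorem ge_muG (σ : Equiv.Perm ℕ) (G : SimpleGraph ℕ) (R : Finset (Sym2 ℕ)) :
    muG G (R.map (ge_E σ).toEmbedding) = muG (G.comap σ) R := by
  unfold muG
  rw [← Equiv.iInf_comp (Equiv.finsetCongr σ)]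
  refine iInf_congr fun S => ?_
  rw [Equiv.finsetCongr_apply, ge_ustContains]
  have : ((G.induce ((S.map σ.toEmbedding : Finset ℕ) : Set ℕ)).Connected ∧
      R.map (ge_E σ).toEmbedding ⊆ edgesIn G (S.map σ.toEmbedding)) ↔
      (((G.comap σ).induce (S : Set ℕ)).Connected ∧ R ⊆ edgesIn (G.comap σ) S) := by
    rw [ge_edgesIn, Finset.map_subset_map, ← (ge_iso σ G S).connected_iff]
  by_cases h : ((G.comap σ).induce (S : Set ℕ)).Connected ∧ R ⊆ edgesIn (G.comap σ) S
  · rw [if_pos h, if_pos (this.mpr h)]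
  · rw [if_neg h, if_neg (fun h' => h (this.mp h'))]

theorem ge_sum_powerset (E : Sym2 ℕ ≃ Sym2 ℕ) (F : Finset (Sym2 ℕ))
    (g : Finset (Sym2 ℕ) → ℝ) :
    ∑ R ∈ (F.map E.toEmbedding).powerset, g R = ∑ R ∈ F.powerset, g (R.map E.toEmbedding) := by
  symm
  refine Finset.sum_equiv E.finsetCongr ?_ ?_
  · intro R
    simp [Finset.map_subset_map]
  · intro R _
    rfl

theorem qG_comap (σ : Equiv.Perm ℕ) (G : SimpleGraph ℕ) (e : Sym2 ℕ) (n : ℕ) (h : Sym2 ℕ → ℝ) :
    qG (G.comap σ) e n (h ∘ Sym2.map σ) = qG G (Sym2.map σ e) n h := by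
  unfold qG tiltInc
  rw [← ge_E_apply σ e, ge_window, ge_sum_powerset, ge_sum_powerset]
  congr 1
  · refine Finset.sum_congr rfl fun R _ => ?_
    rw [Finset.prod_map, ← ge_muG]
    congr 2
    ext f
    obtain ⟨f, rfl⟩ := (ge_E σ).surjective f
    simp only [Finset.mem_map_equiv, Equiv.symm_apply_apply, Finset.mem_insert,
      EmbeddingLike.apply_eq_iff_eq]
  · refine Finset.sum_congr rfl fun R _ => ?_
    rw [Finset.prod_map, ← ge_muG]
    rfl

end Crest.Agent.R168
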