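import Crest.Agent.R168.BallEq

/-!
Row 168, task C2: the rule `qG` is jointly measurable in the adjacency table and the field.
-/

set_option autoImplicit false

namespace Crest.Agent.R168

open Crest.ProbabilityR.SpanningTrees Crest.ProbabilityR.GraphTables

instance gm_countable_sym2 : Countable (Sym2 ℕ) :=
  Function.Surjective.countable (f := fun p : ℕ × ℕ => s(p.1, p.2)) fun e => by
    induction e using Sym2.ind with
    | _ a b => exact ⟨(a, b), rfl⟩

theorem gm_entry (i j : ℕ) : Measurable fun A : ℕ → ℕ → Bool => A i j = true :=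
  (Measurable.of_discrete (f := fun b : Bool => b = true)).comp
    ((measurable_pi_apply j).comp (measurable_pi_apply i))

theorem gm_adj (i j : ℕ) : Measurable fun A : ℕ → ℕ → Bool => (graphOfTable A).Adj i j := by
  simp only [graphOfTable, SimpleGraph.fromRel_adj]
  exact measurable_const.and ((gm_entry i j).or (gm_entry j i))

theorem gm_edgeSet (f : Sym2 ℕ) :
    Measurable fun A : ℕ → ℕ → Bool => f ∈ (graphOfTable A).edgeSet := by
  induction f using Sym2.ind with
  | _ a b => exact gm_adj a b

theorem gm_ballV (e : Sym2 ℕ) (n : ℕ) (v : ℕ) :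
    Measurable fun A : ℕ → ℕ → Bool => v ∈ ballV (graphOfTable A) e n := by
  induction n generalizing v with
  | zero => exact measurable_const
  | succ n ih =>
    simp only [ballV, Set.mem_union, Set.mem_ofPred_eq]
    exact (ih v).or (Measurable.exists fun u => (ih u).and (gm_adj u v))

theorem gm_ballE (e : Sym2 ℕ) (n : ℕ) :
    Measurable fun A : ℕ → ℕ → Bool => ballE (graphOfTable A) e n := by
  refine measurable_set_iff.mpr fun f => ?_
  simp only [ballE, Set.mem_ofPred_eq]
  exact (gm_edgeSet f).and (Measurable.forall fun w => measurable_const.imp (gm_ballV e n w))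

theorem gm_window (e : Sym2 ℕ) (n : ℕ) :
    Measurable fun A : ℕ → ℕ → Bool => window (graphOfTable A) e n := by
  refine measurable_finset_iff.mpr fun f => ?_
  have : (fun A : ℕ → ℕ → Bool => f ∈ window (graphOfTable A) e n) =
      fun A => (ballE (graphOfTable A) e n).Finite ∧ f ∈ ballE (graphOfTable A) e n := by
    funext A
    unfold window
    by_cases h : (ballE (graphOfTable A) e n).Finite
    · simp [h]
    · simp [h]
  rw [this]
  refine Measurable.and ?_ ((measurable_set_mem f).comp (gm_ballE e n))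
  exact (measurableSet_setOfPred.mp MeasurableSet.setOfPred_finite).comp (gm_ballE e n)

theorem gm_edgesIn (S : Finset ℕ) :
    Measurable fun A : ℕ → ℕ → Bool => edgesIn (graphOfTable A) S := by
  refine measurable_finset_iff.mpr fun f => ?_
  simp only [mem_edgesIn]
  exact (gm_edgeSet f).and measurable_const

theorem gm_induce_eq (G : SimpleGraph ℕ) (S : Finset ℕ) :
    G.induce (S : Set ℕ) =
      (SimpleGraph.fromEdgeSet (edgesIn G S : Set (Sym2 ℕ))).induce (S : Set ℕ) := by
  ext ⟨a, ha⟩ ⟨b, hb⟩
  simp only [SimpleGraph.comap_adj, Function.Embedding.coe_subtype, SimpleGraph.fromEdgeSet_adj,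
    Finset.mem_coe, mem_edgesIn, SimpleGraph.mem_edgeSet]
  constructor
  · intro h
    refine ⟨⟨h, fun v hv => ?_⟩, G.ne_of_adj h⟩
    rcases Sym2.mem_iff.mp hv with rfl | rfl
    · exact ha
    · exact hb
  · exact fun h => h.1.1

open Classical in
/-- The term of the infimum defining `muG`, as a function of the finite edge set. -/
noncomputable def gm_term (S : Finset ℕ) (R E : Finset (Sym2 ℕ)) : ℝ :=
  if ((SimpleGraph.fromEdgeSet (E : Set (Sym2 ℕ))).induce (S : Set ℕ)).Connected ∧ R ⊆ E then
    (((E.powerset.filter (fun A : Finset (Sym2 ℕ) =>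
      ((SimpleGraph.fromEdgeSet (A : Set (Sym2 ℕ))).induce (S : Set ℕ)).IsTree)).filter
        (fun A => R ⊆ A)).card : ℝ) /
      (E.powerset.filter (fun A : Finset (Sym2 ℕ) =>
        ((SimpleGraph.fromEdgeSet (A : Set (Sym2 ℕ))).induce (S : Set ℕ)).IsTree)).card
  else 1

open Classical in
theorem gm_trees_eq (G : SimpleGraph ℕ) (S : Finset ℕ) :
    trees G S = (edgesIn G S).powerset.filter (fun A : Finset (Sym2 ℕ) =>
      ((SimpleGraph.fromEdgeSet (A : Set (Sym2 ℕ))).induce (S : Set ℕ)).IsTree) := by
  ext A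
  rw [mem_trees, Finset.mem_filter, Finset.mem_powerset]
  rfl

theorem gm_muG_eq (G : SimpleGraph ℕ) (R : Finset (Sym2 ℕ)) :
    muG G R = ⨅ S : Finset ℕ, gm_term S R (edgesIn G S) := by
  unfold muG
  refine iInf_congr fun S => ?_
  unfold gm_term
  by_cases h : (G.induce (S : Set ℕ)).Connected ∧ R ⊆ edgesIn G S
  · rw [if_pos h, if_pos (by rw [← gm_induce_eq]; exact h), ustContains_eq, gm_trees_eq]
    congr
  · rw [if_neg h, if_neg (by rw [← gm_induce_eq]; exact h)]

theorem gm_muG (R : Finset (Sym2 ℕ)) :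
    Measurable fun A : ℕ → ℕ → Bool => muG (graphOfTable A) R := by
  simp only [gm_muG_eq]
  exact Measurable.iInf fun S => (Measurable.of_discrete (f := gm_term S R)).comp (gm_edgesIn S)

theorem measurable_qG (e : Sym2 ℕ) (n : ℕ) :
    Measurable (fun p : (ℕ → ℕ → Bool) × (Sym2 ℕ → ℝ) => qG (graphOfTable p.1) e n p.2) := by
  have h1 : Measurable (fun q : ((ℕ → ℕ → Bool) × (Sym2 ℕ → ℝ)) × Finset (Sym2 ℕ) =>
      tiltInc (muG (graphOfTable q.1.1)) q.2 e q.1.2) := by
    refine measurable_from_prod_countable_left fun F => ?_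
    show Measurable (fun x : (ℕ → ℕ → Bool) × (Sym2 ℕ → ℝ) =>
      tiltInc (muG (graphOfTable x.1)) F e x.2)
    unfold tiltInc
    have hm : ∀ R : Finset (Sym2 ℕ), Measurable
        fun x : (ℕ → ℕ → Bool) × (Sym2 ℕ → ℝ) => muG (graphOfTable x.1) R :=
      fun R => (gm_muG R).comp measurable_fst
    have hp : ∀ R : Finset (Sym2 ℕ), Measurable
        fun x : (ℕ → ℕ → Bool) × (Sym2 ℕ → ℝ) => ∏ j ∈ R, (Real.exp (x.2 j) - 1) := by
      intro R
      refine Finset.measurable_prod _ fun j _ => ?_
      exact (Real.measurable_exp.comp ((measurable_pi_apply j).comp measurable_snd)).sub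
        measurable_const
    refine Measurable.div ?_ ?_
    · refine Finset.measurable_sum _ fun R _ => ?_
      exact (hm _).mul (hp R)
    · refine Finset.measurable_sum _ fun R _ => ?_
      exact (hm _).mul (hp R)
  have h2 : Measurable (fun p : (ℕ → ℕ → Bool) × (Sym2 ℕ → ℝ) =>
      (p, window (graphOfTable p.1) e n)) :=
    measurable_id.prodMk ((gm_window e n).comp measurable_fst)
  have h3 := h1.comp h2
  unfold qG
  exact h3

end Crest.Agent.R168
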