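import Crest.Agent.R168.Noise
import Crest.Prelude.Def_Labels

/-!
Row 168: splitting one uniform label per vertex into a time and a sequence of uniform labels.
-/

set_option autoImplicit false

namespace Crest.Agent.R168

open MeasureTheory Set ProbabilityTheory Crest.ProbabilityR.Labels

theorem exists_spl : ∃ φ : unitInterval → (ℕ → ℝ), Measurable φ ∧
    (volume : Measure unitInterval).map φ = Measure.infinitePi fun _ : ℕ => unif :=
  Measure.exists_measurable_map_eq _

/-- A measurable map sending the uniform law to a sequence of independent uniform laws. -/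
noncomputable def spl : unitInterval → ℕ → ℝ := exists_spl.choose

theorem measurable_spl : Measurable spl := exists_spl.choose_spec.1

theorem map_spl : (volume : Measure unitInterval).map spl = Measure.infinitePi fun _ : ℕ => unif :=
  exists_spl.choose_spec.2

variable {W : Type*}

/-- The time attached to a vertex. -/
noncomputable def timeL (x : W → unitInterval) (w : W) : ℝ := spl (x w) 0

/-- The remaining uniform labels attached to a vertex. -/
noncomputable def unifL (x : W → unitInterval) (c : W × ℕ) : ℝ := spl (x c.1) (c.2 + 1)

theorem measurable_timeL : Measurable (timeL (W := W)) :=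
  measurable_pi_iff.2 fun w =>
    (measurable_pi_apply 0).comp (measurable_spl.comp (measurable_pi_apply w))

theorem measurable_unifL : Measurable (unifL (W := W)) :=
  measurable_pi_iff.2 fun c =>
    (measurable_pi_apply (c.2 + 1)).comp (measurable_spl.comp (measurable_pi_apply c.1))

theorem infinitePi_split {A B C : Type*} (α : A → C) (β : B → C) (hα : Function.Injective α)
    (hβ : Function.Injective β) (hd : Disjoint (range α) (range β)) :
    (Measure.infinitePi fun _ : C => unif).map (fun a => ((fun i => a (α i)), (fun i => a (β i)))) =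
      (Measure.infinitePi fun _ : A => unif).prod (Measure.infinitePi fun _ : B => unif) := by
  have hmα : Measurable fun (a : C → ℝ) (i : A) => a (α i) :=
    measurable_pi_iff.2 fun i => measurable_pi_apply _
  have hmβ : Measurable fun (a : C → ℝ) (i : B) => a (β i) :=
    measurable_pi_iff.2 fun i => measurable_pi_apply _
  have hind : iIndepFun (fun (c : C) (a : C → ℝ) => a c) (Measure.infinitePi fun _ : C => unif) :=
    iIndepFun_infinitePi (X := fun _ y => y) fun _ => measurable_id
  have h1 := indep_iSup_of_disjoint (fun c => (measurable_pi_apply c).comap_le) hind.iIndep hd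
  have h2 : IndepFun (fun (a : C → ℝ) (i : A) => a (α i)) (fun (a : C → ℝ) (i : B) => a (β i))
      (Measure.infinitePi fun _ : C => unif) := by
    rw [IndepFun_iff_Indep]
    refine indep_of_indep_of_le_right (indep_of_indep_of_le_left h1 ?_) ?_
    · refine Measurable.comap_le ?_
      refine (@measurable_pi_iff _ _ (fun _ : A => ℝ) (_) _ _).2 fun i => ?_
      exact Measurable.of_comap_le (le_iSup₂_of_le (α i) (mem_range_self i) le_rfl)
    · refine Measurable.comap_le ?_
      refine (@measurable_pi_iff _ _ (fun _ : B => ℝ) (_) _ _).2 fun i => ?_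
      exact Measurable.of_comap_le (le_iSup₂_of_le (β i) (mem_range_self i) le_rfl)
  rw [h2.map_prod_eq_prod_map_map hmα.aemeasurable hmβ.aemeasurable,
    Measure.map_infinitePi_infinitePi_of_inj (P := fun _ : C => unif) hα,
    Measure.map_infinitePi_infinitePi_of_inj (P := fun _ : C => unif) hβ]

theorem label_map (W : Type*) :
    (labelMeasure W).map (fun x => (timeL x, unifL x)) =
      (Measure.infinitePi fun _ : W => unif).prod (Measure.infinitePi fun _ : W × ℕ => unif) := by
  have h1 := Measure.infinitePi_map_pi (fun _ : W => (volume : Measure unitInterval))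
    (f := fun _ => spl) (fun _ => measurable_spl)
  simp only [map_spl] at h1
  have h2 := Measure.infinitePi_map_curry_symm (fun (_ : W) (_ : ℕ) => unif)
  have h3 := infinitePi_split (fun w : W => (w, 0)) (fun c : W × ℕ => (c.1, c.2 + 1))
    (fun _ _ h => (Prod.mk.inj h).1)
    (fun c c' h => Prod.ext (Prod.mk.inj h).1 (Nat.succ_injective (Prod.mk.inj h).2))
    (by
      rw [Set.disjoint_left]
      rintro _ ⟨w, rfl⟩ ⟨c, hc⟩
      exact Nat.succ_ne_zero _ (Prod.mk.inj hc).2)
  have hm1 : Measurable fun (x : W → unitInterval) (w : W) => spl (x w) :=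
    measurable_pi_iff.2 fun w => measurable_spl.comp (measurable_pi_apply w)
  rw [← h3, ← h2, ← h1, Measure.map_map (by fun_prop) (by fun_prop),
    Measure.map_map (by fun_prop) hm1]
  rfl

theorem ae_injective [Countable W] :
    ∀ᵐ t ∂(Measure.infinitePi fun _ : W => unif), Function.Injective t := by
  have : ∀ u v : W, ∀ᵐ t ∂(Measure.infinitePi fun _ : W => unif), u ≠ v → t u ≠ t v := by
    intro u v
    by_cases huv : u = v
    · simp [huv]
    have h1 := Measure.infinitePi_map_eval_prod (P := fun _ : W => unif) huv
    have hm : MeasurableSet {p : ℝ × ℝ | p.1 ≠ p.2} :=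
      (measurableSet_eq_fun measurable_fst measurable_snd).compl
    have h2 : ∀ᵐ p ∂(unif.prod unif), p.1 ≠ p.2 := by
      rw [Measure.ae_prod_iff_ae_ae hm]
      refine Filter.Eventually.of_forall fun s => ?_
      have := compl_mem_ae_iff.2 (measure_singleton (μ := unif) s)
      filter_upwards [this] with t ht
      exact fun h => ht h.symm
    rw [← h1] at h2
    filter_upwards [ae_of_ae_map (by fun_prop) h2] with t ht _
    exact ht
  filter_upwards [ae_all_iff.2 fun u => ae_all_iff.2 fun v => this u v] with t ht u v huv
  by_contra h
  exact ht u v h huv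

theorem label_map_eq [Countable W] {O : Type*} [MeasurableSpace O]
    {Ψ : (W → ℝ) × (W × ℕ → ℝ) → O} (hΨ : Measurable Ψ) {ν : Measure O}
    (h : ∀ t, Function.Injective t →
      (Measure.infinitePi fun _ : W × ℕ => unif).map (fun u => Ψ (t, u)) = ν) :
    (labelMeasure W).map (fun x => Ψ (timeL x, unifL x)) = ν := by
  have : (fun x : W → unitInterval => Ψ (timeL x, unifL x)) = Ψ ∘ fun x => (timeL x, unifL x) := rfl
  rw [this, ← Measure.map_map hΨ (measurable_timeL.prodMk measurable_unifL), label_map]
  ext s hs
  rw [Measure.map_apply hΨ hs, Measure.prod_apply (hΨ hs)]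
  have : ∀ᵐ t ∂(Measure.infinitePi fun _ : W => unif),
      (Measure.infinitePi fun _ : W × ℕ => unif) (Prod.mk t ⁻¹' (Ψ ⁻¹' s)) = ν s := by
    filter_upwards [ae_injective] with t ht
    have hm : Measurable fun u => Ψ (t, u) := hΨ.comp measurable_prodMk_left
    rw [← h t ht, Measure.map_apply hm hs]
    rfl
  rw [lintegral_congr_ae this]
  simp

end Crest.Agent.R168
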