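import Crest.Agent.R168.Law

/-!
Row 168: the law of the output of the construction on independent uniform labels.
-/

set_option autoImplicit false

namespace Crest.Agent.R168

open MeasureTheory Set Filter Topology ProbabilityTheory

variable {V : Type*}

theorem innov_past (q : V → ℕ → (V → ℝ) → ℝ) (r : V → V → Prop) {a b : V × ℕ}
    (hba : prec r b a) (hb : ∀ c, prec r c b → prec r c a) (Y : V × ℕ → ℝ) :
    innov q r (past r a Y) b = innov q r Y b := by
  simp only [innov, prob_past q r hb, past, hba, if_true]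

theorem innov_iid (ν : Measure (V → Bool)) [IsProbabilityMeasure ν]
    {F : V → ℕ → Finset V} (hF : ∀ i, Monotone (F i)) (hex : ∀ i j, ∃ n, j ∈ F i n)
    {K : Type*} [LinearOrder K] {key : V → K} (hkey : Function.Injective key)
    {r : V → V → Prop} (hr : ∀ j i, r j i ↔ key j < key i) :
    (ν.prod (noise V)).map (fun ω => innov (fun i n => tiltM ν (F i n) i) r (obs ω)) =
      Measure.infinitePi fun _ : V × ℕ => unif := by
  classical
  set q : V → ℕ → (V → ℝ) → ℝ := fun i n => tiltM ν (F i n) i with hq
  have hqm : ∀ i n, Measurable (q i n) := fun i n => measurable_tiltM _ _ _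
  have hm : Measurable fun ω : (V → Bool) × (V × ℕ → ℝ × ℝ) => innov q r (obs ω) :=
    (measurable_innov hqm r).comp measurable_obs
  set f : V × ℕ → Lex (ℕ × K) := fun c => toLex (c.2, key c.1) with hf
  have hfi : Function.Injective f := by
    intro c c' h
    have h' : (c.2, key c.1) = (c'.2, key c'.1) := toLex.injective h
    simp only [Prod.mk.injEq] at h'
    exact Prod.ext (hkey h'.2) h'.1
  have hprec : ∀ c a, prec r c a ↔ f c < f a := by
    intro c a
    simp only [prec, hf, Prod.Lex.toLex_lt_toLex, hr]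
  refine Measure.eq_infinitePi _ fun s t ht => ?_
  rw [Measure.map_apply hm (MeasurableSet.pi s.countable_toSet fun i _ => ht i)]
  suffices h : (ν.prod (noise V)).real ((fun ω => innov q r (obs ω)) ⁻¹' Set.pi s t) =
      ∏ i ∈ s, unif.real (t i) by
    rw [← ENNReal.toReal_eq_toReal_iff' (measure_ne_top _ _)
      (ENNReal.prod_ne_top fun _ _ => measure_ne_top _ _), ENNReal.toReal_prod]
    exact h
  induction s using Finset.induction_on_max_value f with
  | empty => simp
  | insert a s ha hmax ih =>
    have hlt : ∀ b ∈ s, prec r b a := fun b hb =>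
      (hprec b a).2 (lt_of_le_of_ne (hmax b hb) fun h => ha (hfi h ▸ hb))
    have hG : MeasurableSet (innov q r ⁻¹' Set.pi s t) :=
      measurable_innov hqm r (MeasurableSet.pi s.countable_toSet fun i _ => ht i)
    have key := innov_step ν hF hex r (fun i h => lt_irrefl _ ((hr i i).1 h)) a hG (ht a)
    have e1 : {ω : (V → Bool) × (V × ℕ → ℝ × ℝ) | past r a (obs ω) ∈ innov q r ⁻¹' Set.pi s t} =
        (fun ω => innov q r (obs ω)) ⁻¹' Set.pi s t := by
      ext ω
      simp only [mem_ofPred_eq, mem_preimage, Set.mem_pi, Finset.mem_coe]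
      refine forall₂_congr fun b hb => ?_
      rw [innov_past q r (hlt b hb) fun c hc =>
        (hprec c a).2 (((hprec c b).1 hc).trans ((hprec b a).1 (hlt b hb)))]
    rw [e1, ih] at key
    rw [Finset.prod_insert ha, mul_comm, ← key]
    congr 1
    ext ω
    simp only [Finset.coe_insert, Set.insert_pi, mem_preimage, mem_inter_iff, mem_ofPred_eq,
      Function.eval]
    exact and_comm

theorem decode_ae (b : Bool) :
    ∀ᵐ y ∂(Measure.infinitePi fun _ : ℕ => mb b), decode y = b := by
  have hind : iIndepFun (fun (k : ℕ) (y : ℕ → ℝ) => low (y k))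
      (Measure.infinitePi fun _ : ℕ => mb b) :=
    iIndepFun_infinitePi (X := fun _ => low) fun _ => measurable_low
  have hlow : ∀ y, ‖low y‖ ≤ 1 := by
    intro y; unfold low
    by_cases hy : y ∈ Iic (1 / 2 : ℝ)
    · rw [indicator_of_mem hy]; simp
    · rw [indicator_of_notMem hy]; simp
  have hmp : ∀ k : ℕ, MeasurePreserving (fun y : ℕ → ℝ => y k)
      (Measure.infinitePi fun _ : ℕ => mb b) (mb b) := fun k =>
    measurePreserving_eval_infinitePi (fun _ : ℕ => mb b) k
  have h := strong_law_ae_real (μ := Measure.infinitePi fun _ : ℕ => mb b)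
    (fun k y => low (y k))
    (Integrable.of_bound (measurable_low.comp (measurable_pi_apply 0)).aestronglyMeasurable 1
      (Eventually.of_forall fun y => hlow _))
    (fun i j hij => hind.indepFun hij)
    (fun k => IdentDistrib.comp (f := fun y : ℕ → ℝ => y k) (g := fun y : ℕ → ℝ => y 0)
      ⟨(measurable_pi_apply k).aemeasurable, (measurable_pi_apply 0).aemeasurable,
        by rw [(hmp k).map_eq, (hmp 0).map_eq]⟩ measurable_low)
  have hE : ∫ y, low (y 0) ∂(Measure.infinitePi fun _ : ℕ => mb b) = ∫ t, low t ∂(mb b) := by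
    rw [← (hmp 0).map_eq, integral_map (measurable_pi_apply 0).aemeasurable
      measurable_low.aestronglyMeasurable, (hmp 0).map_eq]
  filter_upwards [h] with y hy
  rw [hE] at hy
  unfold decode
  rw [hy.limsup_eq]
  cases b
  · simp only [mb, Bool.false_eq_true, if_false, integral_low_unif, eps_eq]; norm_num
  · simp only [mb, if_true, integral_low_m1, eps_eq]; norm_num

theorem obs_ae [Countable V] (ν : Measure (V → Bool)) [IsProbabilityMeasure ν] :
    ∀ᵐ ω ∂(ν.prod (noise V)),
      (∀ c, obs ω c ∈ Icc (0 : ℝ) 1) ∧ ∀ i, decode (fun k => obs ω (i, k)) = ω.1 i := by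
  have hmeas : MeasurableSet {ω : (V → Bool) × (V × ℕ → ℝ × ℝ) |
      (∀ c, obs ω c ∈ Icc (0 : ℝ) 1) ∧ ∀ i, decode (fun k => obs ω (i, k)) = ω.1 i} := by
    refine MeasurableSet.inter ?_ ?_
    · change MeasurableSet {ω : (V → Bool) × (V × ℕ → ℝ × ℝ) | ∀ c, obs ω c ∈ Icc (0 : ℝ) 1}
      rw [Set.ofPred_forall]
      exact MeasurableSet.iInter fun c => measurable_obs_apply c measurableSet_Icc
    · change MeasurableSet {ω : (V → Bool) × (V × ℕ → ℝ × ℝ) |
        ∀ i, decode (fun k => obs ω (i, k)) = ω.1 i}
      rw [Set.ofPred_forall]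
      refine MeasurableSet.iInter fun i => measurableSet_eq_fun ?_ ?_
      · exact measurable_decode.comp (measurable_pi_iff.2 fun k => measurable_obs_apply _)
      · fun_prop
  rw [Measure.ae_prod_iff_ae_ae hmeas]
  refine Eventually.of_forall fun x => ?_
  have hx : Measurable fun w : V × ℕ → ℝ × ℝ => obs (x, w) :=
    measurable_obs.comp measurable_prodMk_left
  have : ∀ᵐ Y ∂(Measure.infinitePi fun c : V × ℕ => mb (x c.1)),
      (∀ c, Y c ∈ Icc (0 : ℝ) 1) ∧ ∀ i, decode (fun k => Y (i, k)) = x i := by
    refine Eventually.and (ae_all_iff.2 fun c => ?_) (ae_all_iff.2 fun i => ?_)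
    · refine (measurePreserving_eval_infinitePi (fun c : V × ℕ => mb (x c.1))
        c).quasiMeasurePreserving.ae (p := fun y => y ∈ Icc (0 : ℝ) 1) ?_
      unfold mb
      split_ifs
      · exact m1_ae_mem
      · exact unif_ae_mem
    · have hmap := Measure.map_infinitePi_infinitePi_of_inj
        (P := fun c : V × ℕ => mb (x c.1)) (f := fun k : ℕ => (i, k))
        (fun k l h => (Prod.mk.inj h).2)
      have h2 := decode_ae (x i)
      rw [← hmap] at h2
      exact ae_of_ae_map (Measurable.aemeasurable
        (measurable_pi_iff.2 fun k => measurable_pi_apply (i, k))) h2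
  rw [← noise_map_obs] at this
  exact ae_of_ae_map hx.aemeasurable this

/-- The output of the construction has law `ν`. -/
theorem out_law [Countable V] (ν : Measure (V → Bool)) [IsProbabilityMeasure ν]
    {F : V → ℕ → Finset V} (hF : ∀ i, Monotone (F i)) (hex : ∀ i j, ∃ n, j ∈ F i n)
    (hlip : ∀ (F : Finset V) i h h' (δ : ℝ), (∀ j, |h j - h' j| ≤ δ) →
      |tiltM ν F i h - tiltM ν F i h'| ≤ 100 * δ)
    {K : Type*} [LinearOrder K] {key : V → K} (hkey : Function.Injective key)
    {r : V → V → Prop} (hr : ∀ j i, r j i ↔ key j < key i) :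
    (Measure.infinitePi fun _ : V × ℕ => unif).map (out (fun i n => tiltM ν (F i n) i) r) = ν := by
  set q : V → ℕ → (V → ℝ) → ℝ := fun i n => tiltM ν (F i n) i with hq
  have hqm : ∀ i n, Measurable (q i n) := fun i n => measurable_tiltM _ _ _
  have hq01 : ∀ i n h, 0 ≤ q i n h ∧ q i n h ≤ 1 := fun i n h => tiltM_mem01 _ _ _ _
  have hm : Measurable fun ω : (V → Bool) × (V × ℕ → ℝ × ℝ) => innov q r (obs ω) :=
    (measurable_innov hqm r).comp measurable_obs
  have hout : Measurable (out q r) :=
    measurable_out (Θ := V × ℕ → ℝ) (q := fun _ => q) (r := fun _ => r)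
      (fun i n => (hqm i n).comp measurable_snd) (fun _ _ => MeasurableSet.const _) measurable_id
  rw [← innov_iid ν hF hex hkey hr, Measure.map_map hout hm]
  have : (out q r ∘ fun ω : (V → Bool) × (V × ℕ → ℝ × ℝ) => innov q r (obs ω))
      =ᵐ[ν.prod (noise V)] Prod.fst := by
    filter_upwards [obs_ae ν] with ω hω
    have hsol : sol q r (innov q r (obs ω)) = obs ω := by
      refine sol_eq_of_fixed hq01 (fun i n => hlip _ _) r _ (fun c => ?_) ?_
      · rw [abs_of_nonneg (hω.1 c).1]; exact (hω.1 c).2
      · funext a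
        simp [step, innov, cdfp]
    funext i
    simp only [Function.comp, out, hsol, hω.2 i]
  rw [Measure.map_congr this]
  exact Measure.fst_prod

end Crest.Agent.R168
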