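import Crest.Agent.R168.Fusf
import Crest.Agent.R168.OutLaw
import Crest.Agent.R168.Labels
import Crest.Agent.R168.GraphEquiv
import Crest.Agent.R168.GraphMeas

/-!
Row 168: the rule for graphs on `ℕ` (edge labels borrowed from the endpoint with the later time),
its measurability, equivariance and law.
-/

set_option autoImplicit false

namespace Crest.Agent.R168

open MeasureTheory Set Filter Topology Crest.ProbabilityR.SpanningTrees
  Crest.ProbabilityR.GraphTables Crest.ProbabilityR.Labels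

attribute [local irreducible] out tiltM spl qG

/-- Number of neighbours of `u` whose time is smaller than the time of `v`. -/
noncomputable def rank (G : SimpleGraph ℕ) (t : ℕ → ℝ) (u v : ℕ) : ℕ :=
  Set.ncard {w | G.Adj u w ∧ t w < t v}

/-- The label lent by `u` to the pair `u, v` when `u` has the later time. -/
noncomputable def half (G : SimpleGraph ℕ) (t : ℕ → ℝ) (a : ℕ × ℕ → ℝ) (k u v : ℕ) : ℝ :=
  if t v < t u then a (u, Nat.pair (rank G t u v) k) else 0

/-- Labels of unordered pairs. -/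
noncomputable def edgeU (G : SimpleGraph ℕ) (t : ℕ → ℝ) (a : ℕ × ℕ → ℝ) (c : Sym2 ℕ × ℕ) : ℝ :=
  Sym2.lift ⟨fun u v => half G t a c.2 u v + half G t a c.2 v u, fun _ _ => add_comm _ _⟩ c.1

/-- Sorting key of unordered pairs. -/
noncomputable def ekey (t : ℕ → ℝ) : Sym2 ℕ → Lex (ℝ × ℝ) :=
  Sym2.lift ⟨fun u v => toLex (max (t u) (t v), min (t u) (t v)), fun u v => by
    simp only [max_comm, min_comm]⟩

/-- The rule in terms of times and labels. -/
noncomputable def psiG (G : SimpleGraph ℕ) (p : (ℕ → ℝ) × (ℕ × ℕ → ℝ)) : Sym2 ℕ → Bool :=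
  out (qG G) (fun f e => ekey p.1 f < ekey p.1 e) (edgeU G p.1 p.2)

theorem graphOfTable_tableOf (G : SimpleGraph ℕ) : graphOfTable (tableOf G) = G := by
  ext u v
  simp only [graphOfTable, tableOf, SimpleGraph.fromRel_adj, decide_eq_true_eq]
  exact ⟨fun h => h.2.elim id G.adj_symm, fun h => ⟨h.ne, Or.inl h⟩⟩

theorem measurable_psiG_table :
    Measurable fun θ : (ℕ → ℕ → Bool) × ((ℕ → ℝ) × (ℕ × ℕ → ℝ)) =>
      psiG (graphOfTable θ.1) θ.2 := by
  have hA : ∀ u w : ℕ, Measurable fun θ : (ℕ → ℕ → Bool) × ((ℕ → ℝ) × (ℕ × ℕ → ℝ)) =>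
      θ.1 u w = true := fun u w => by
    have : Measurable fun θ : (ℕ → ℕ → Bool) × ((ℕ → ℝ) × (ℕ × ℕ → ℝ)) => θ.1 u w := by fun_prop
    exact (Measurable.of_discrete (f := fun b : Bool => b = true)).comp this
  have hlt : ∀ u w : ℕ, MeasurableSet {θ : (ℕ → ℕ → Bool) × ((ℕ → ℝ) × (ℕ × ℕ → ℝ)) |
      θ.2.1 u < θ.2.1 w} := fun u w => measurableSet_lt (by fun_prop) (by fun_prop)
  have hrank : ∀ u v : ℕ, Measurable fun θ : (ℕ → ℕ → Bool) × ((ℕ → ℝ) × (ℕ × ℕ → ℝ)) =>
      rank (graphOfTable θ.1) θ.2.1 u v := by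
    intro u v
    refine measurable_ncard.comp (measurable_set_iff.2 fun w => ?_)
    simp only [mem_ofPred_eq, graphOfTable, SimpleGraph.fromRel_adj]
    exact (measurable_const.and ((hA u w).or (hA w u))).and (measurableSet_setOfPred.1 (hlt w v))
  have hhalf : ∀ k u v : ℕ, Measurable fun θ : (ℕ → ℕ → Bool) × ((ℕ → ℝ) × (ℕ × ℕ → ℝ)) =>
      half (graphOfTable θ.1) θ.2.1 θ.2.2 k u v := by
    intro k u v
    refine Measurable.ite (hlt v u) ?_ measurable_const
    have h1 : Measurable fun z : ((ℕ → ℕ → Bool) × ((ℕ → ℝ) × (ℕ × ℕ → ℝ))) × ℕ =>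
        z.1.2.2 (u, Nat.pair z.2 k) :=
      measurable_from_prod_countable_left fun n => by
        show Measurable fun θ : (ℕ → ℕ → Bool) × ((ℕ → ℝ) × (ℕ × ℕ → ℝ)) =>
          θ.2.2 (u, Nat.pair n k)
        fun_prop
    exact h1.comp (measurable_id.prodMk (hrank u v))
  refine measurable_out (Θ := (ℕ → ℕ → Bool) × ((ℕ → ℝ) × (ℕ × ℕ → ℝ)))
    (q := fun θ => qG (graphOfTable θ.1)) (r := fun θ f e => ekey θ.2.1 f < ekey θ.2.1 e)
    (U := fun θ => edgeU (graphOfTable θ.1) θ.2.1 θ.2.2) (fun e n => ?_) (fun f e => ?_) ?_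
  · exact (measurable_qG e n).comp ((measurable_fst.comp measurable_fst).prodMk measurable_snd)
  · induction f using Sym2.ind with | _ u v => ?_
    induction e using Sym2.ind with | _ u' v' => ?_
    simp only [ekey, Sym2.lift_mk, Prod.Lex.toLex_lt_toLex]
    have hmax : ∀ u v : ℕ, Measurable fun θ : (ℕ → ℕ → Bool) × ((ℕ → ℝ) × (ℕ × ℕ → ℝ)) =>
        max (θ.2.1 u) (θ.2.1 v) := fun u v => by fun_prop
    have hmin : ∀ u v : ℕ, Measurable fun θ : (ℕ → ℕ → Bool) × ((ℕ → ℝ) × (ℕ × ℕ → ℝ)) =>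
        min (θ.2.1 u) (θ.2.1 v) := fun u v => by fun_prop
    exact (measurableSet_lt (hmax u v) (hmax u' v')).union
      ((measurableSet_eq_fun (hmax u v) (hmax u' v')).inter
        (measurableSet_lt (hmin u v) (hmin u' v')))
  · refine measurable_pi_iff.2 fun c => ?_
    obtain ⟨e, k⟩ := c
    induction e using Sym2.ind with | _ u v => ?_
    simp only [edgeU, Sym2.lift_mk]
    exact (hhalf k u v).add (hhalf k v u)

theorem measurable_psiG (G : SimpleGraph ℕ) : Measurable (psiG G) := by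
  have := measurable_psiG_table.comp (measurable_prodMk_left (x := tableOf G))
  simpa only [Function.comp_def, graphOfTable_tableOf] using this

theorem rank_comap (σ : Equiv.Perm ℕ) (G : SimpleGraph ℕ) (t : ℕ → ℝ) (u v : ℕ) :
    rank (G.comap σ) (t ∘ σ) u v = rank G t (σ u) (σ v) := by
  unfold rank
  rw [← Set.ncard_image_of_injective _ σ.injective]
  congr 1
  ext w
  simp only [mem_image, mem_ofPred_eq, SimpleGraph.comap_adj, Function.comp]
  constructor
  · rintro ⟨w', h, rfl⟩; exact h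
  · intro h; exact ⟨σ.symm w, by simpa using h, by simp⟩

theorem psiG_comap (σ : Equiv.Perm ℕ) (G : SimpleGraph ℕ) (t : ℕ → ℝ) (a : ℕ × ℕ → ℝ) :
    psiG (G.comap σ) (t ∘ σ, fun c => a (σ c.1, c.2)) = psiG G (t, a) ∘ Sym2.map σ := by
  funext e
  have hk : ∀ f, ekey (t ∘ σ) f = ekey t (Sym2.map σ f) := by
    intro f
    induction f using Sym2.ind with | _ u v => rfl
  refine out_comp (Sym2.map σ) (q := qG (G.comap σ)) (q' := qG G)
    (r := fun f e => ekey (t ∘ σ) f < ekey (t ∘ σ) e) (r' := fun f e => ekey t f < ekey t e)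
    (U := edgeU (G.comap σ) (t ∘ σ) fun c => a (σ c.1, c.2)) (U' := edgeU G t a)
    (fun i n h => qG_comap σ G i n h) (fun j i => by rw [hk, hk]) (fun i k => ?_) e
  induction i using Sym2.ind with | _ u v => ?_
  simp only [edgeU, Sym2.map_mk, Sym2.lift_mk, half, rank_comap, Function.comp]

theorem ekey_injective {t : ℕ → ℝ} (ht : Function.Injective t) : Function.Injective (ekey t) := by
  intro e f h
  induction e using Sym2.ind with | _ u v => ?_
  induction f using Sym2.ind with | _ u' v' => ?_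
  simp only [ekey, Sym2.lift_mk] at h
  have h' := toLex.injective h
  simp only [Prod.mk.injEq] at h'
  obtain ⟨h1, h2⟩ := h'
  rw [Sym2.eq_iff]
  rcases le_total (t u) (t v) with a | a <;> rcases le_total (t u') (t v') with b | b <;>
    simp only [max_eq_left, max_eq_right, min_eq_left, min_eq_right, a, b] at h1 h2
  · exact Or.inl ⟨ht h2, ht h1⟩
  · exact Or.inr ⟨ht h2, ht h1⟩
  · exact Or.inr ⟨ht h1, ht h2⟩
  · exact Or.inl ⟨ht h1, ht h2⟩

theorem rank_lt {G : SimpleGraph ℕ} (hlf : ∀ v : ℕ, (G.neighborSet v).Finite) {t : ℕ → ℝ}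
    {u v v' : ℕ} (hv : G.Adj u v) (h : t v < t v') : rank G t u v < rank G t u v' := by
  refine Set.ncard_lt_ncard ⟨fun w hw => ⟨hw.1, hw.2.trans h⟩, fun hs => ?_⟩
    ((hlf u).subset fun w hw => hw.1)
  exact lt_irrefl _ (hs (show v ∈ {w | G.Adj u w ∧ t w < t v'} from ⟨hv, h⟩)).2

theorem exists_own (G : SimpleGraph ℕ) (hlf : ∀ v : ℕ, (G.neighborSet v).Finite) {t : ℕ → ℝ}
    (ht : Function.Injective t) :
    ∃ own : G.edgeSet × ℕ → ℕ × ℕ, Function.Injective own ∧
      ∀ (a : ℕ × ℕ → ℝ) (e : G.edgeSet) (k : ℕ), a (own (e, k)) = edgeU G t a (e, k) := by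
  have : ∀ e : G.edgeSet, ∃ u v, (e : Sym2 ℕ) = s(u, v) ∧ G.Adj u v ∧ t v < t u := by
    rintro ⟨e, he⟩
    induction e using Sym2.ind with | _ u v => ?_
    have hadj : G.Adj u v := he
    rcases lt_trichotomy (t u) (t v) with h | h | h
    · exact ⟨v, u, Sym2.eq_swap, hadj.symm, h⟩
    · exact absurd (ht h) hadj.ne
    · exact ⟨u, v, rfl, hadj, h⟩
  choose top bot he hadj hlt using this
  refine ⟨fun c => (top c.1, Nat.pair (rank G t (top c.1) (bot c.1)) c.2), ?_, ?_⟩
  · rintro ⟨e, k⟩ ⟨e', k'⟩ h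
    simp only [Prod.mk.injEq, Nat.pair_eq_pair] at h
    obtain ⟨h1, h2, h3⟩ := h
    have hb : bot e = bot e' := by
      apply ht
      rw [← h1] at h2
      rcases lt_trichotomy (t (bot e)) (t (bot e')) with h | h | h
      · exact absurd h2 (rank_lt hlf (hadj e) h).ne
      · exact h
      · exact absurd h2 (rank_lt hlf (h1 ▸ hadj e') h).ne'
    refine Prod.ext (Subtype.ext ?_) h3
    simp only [he e, he e', h1, hb]
  · intro a e k
    simp only [edgeU, he e, Sym2.lift_mk, half, hlt e, (hlt e).le.not_gt, if_true, if_false,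
      add_zero]

theorem tiltInc_congr {V : Type*} {μ μ' : Finset V → ℝ} {E : Set V}
    (h : ∀ R : Finset V, (↑R : Set V) ⊆ E → μ R = μ' R) {F : Finset V} (hF : ∀ f ∈ F, f ∈ E)
    {i : V} (hi : i ∈ E) (g : V → ℝ) : tiltInc μ F i g = tiltInc μ' F i g := by
  unfold tiltInc
  congr 1
  · refine Finset.sum_congr rfl fun R hR => ?_
    rw [h]
    intro j hj
    simp only [Finset.coe_insert, mem_insert_iff, Finset.mem_coe] at hj
    rcases hj with rfl | hj
    · exact hi
    · exact hF j (Finset.mem_powerset.1 hR hj)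
  · refine Finset.sum_congr rfl fun R hR => ?_
    rw [h]
    exact fun j hj => hF j (Finset.mem_powerset.1 hR hj)

theorem psiG_law (G : SimpleGraph ℕ) (hG : G.Connected) (hlf : ∀ v : ℕ, (G.neighborSet v).Finite)
    (ν : Measure (Sym2 ℕ → Bool)) [IsProbabilityMeasure ν] (hlip : LipTilt ν)
    (hν : ∀ R : Finset (Sym2 ℕ), (↑R : Set (Sym2 ℕ)) ⊆ G.edgeSet → incl ν R = muG G R) :
    (labelMeasure ℕ).map (fun x => psiG G (timeL x, unifL x) ∘
        Function.Embedding.subtype (· ∈ G.edgeSet)) =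
      ν.map (fun x => x ∘ Function.Embedding.subtype (· ∈ G.edgeSet)) := by
  classical
  set σ := Function.Embedding.subtype (· ∈ G.edgeSet) with hσ
  have hmσ : Measurable fun x : Sym2 ℕ → Bool => x ∘ σ :=
    measurable_pi_iff.2 fun j => measurable_pi_apply (σ j)
  refine label_map_eq (Ψ := fun p => psiG G p ∘ σ) (hmσ.comp (measurable_psiG G)) fun t ht => ?_
  obtain ⟨own, hown, hU⟩ := exists_own G hlf ht
  set ν' := ν.map (fun x => x ∘ σ) with hν'
  have : IsProbabilityMeasure ν' := Measure.isProbabilityMeasure_map hmσ.aemeasurable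
  set F : G.edgeSet → ℕ → Finset G.edgeSet :=
    fun i n => (window G i n).subtype (· ∈ G.edgeSet) with hF
  have hFm : ∀ i, Monotone (F i) := fun i m n hmn =>
    Finset.subtype_mono ((window_spec G hG hlf i).1 hmn)
  have hFex : ∀ i j, ∃ n, j ∈ F i n := by
    intro i j
    obtain ⟨n, hn⟩ := (window_spec G hG hlf i).2.2 j j.2
    exact ⟨n, Finset.mem_subtype.2 hn⟩
  have hlaw := out_law ν' hFm hFex (hlip.map σ) (key := fun e => ekey t (σ e))
    ((ekey_injective ht).comp σ.injective) (r := fun f e => ekey t (σ f) < ekey t (σ e))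
    (fun _ _ => Iff.rfl)
  have hmout : Measurable (out (fun i n => tiltM ν' (F i n) i)
      (fun f e => ekey t (σ f) < ekey t (σ e))) :=
    measurable_out (Θ := G.edgeSet × ℕ → ℝ) (q := fun _ i n => tiltM ν' (F i n) i)
      (r := fun _ f e => ekey t (σ f) < ekey t (σ e))
      (fun i n => (measurable_tiltM _ _ _).comp measurable_snd)
      (fun _ _ => MeasurableSet.const _) measurable_id
  rw [← hlaw, ← Measure.map_infinitePi_infinitePi_of_inj (P := fun _ : ℕ × ℕ => unif) hown,
    Measure.map_map hmout (measurable_pi_iff.2 fun c => measurable_pi_apply (own c))]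
  congr 1
  funext a e
  symm
  refine out_comp σ (q := fun i n => tiltM ν' (F i n) i) (q' := qG G)
    (r := fun f e => ekey t (σ f) < ekey t (σ e)) (r' := fun f e => ekey t f < ekey t e)
    (U := fun c => a (own c)) (U' := edgeU G t a) (fun i n h => ?_) (fun _ _ => Iff.rfl)
    (fun i k => hU a i k) e
  have hw := (window_spec G hG hlf i).2.1 n
  have h1 : (F i n).map σ = window G i n := Finset.subtype_map_of_mem hw
  rw [hν', tiltM_map, h1, tiltM_eq_tiltInc]
  unfold qG
  exact tiltInc_congr hν hw i.2 h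

end Crest.Agent.R168
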