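import Crest.Agent.R168.BallEq

/-!
Row 168, tasks C3 and C4: the canonical windows exhaust the edge set, and the limit of the
inclusion probabilities along any exhaustion is `muG`.
-/

set_option autoImplicit false

namespace Crest.Agent.R168

open Crest.ProbabilityR.SpanningTrees

theorem gw_ballV_finite (G : SimpleGraph ℕ) (hlf : ∀ v : ℕ, (G.neighborSet v).Finite)
    (e : Sym2 ℕ) (n : ℕ) : (ballV G e n).Finite := by
  induction n with
  | zero =>
    induction e using Sym2.ind with
    | _ a b =>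
      refine (Set.toFinite ({a, b} : Set ℕ)).subset ?_
      intro v hv
      have : v ∈ s(a, b) := hv
      simpa using this
  | succ n ih =>
    refine ih.union ?_
    refine (ih.biUnion (t := fun v => G.neighborSet v) fun v _ => hlf v).subset ?_
    rintro w ⟨v, hv, hvw⟩
    exact Set.mem_biUnion hv hvw

theorem gw_ballE_finite (G : SimpleGraph ℕ) (hlf : ∀ v : ℕ, (G.neighborSet v).Finite)
    (e : Sym2 ℕ) (n : ℕ) : (ballE G e n).Finite := by
  have h := gw_ballV_finite G hlf e n
  refine ((h.prod h).image (fun p : ℕ × ℕ => s(p.1, p.2))).subset ?_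
  intro f hf
  induction f using Sym2.ind with
  | _ a b => exact ⟨(a, b), ⟨hf.2 a (by simp), hf.2 b (by simp)⟩, rfl⟩

theorem gw_mem_window (G : SimpleGraph ℕ) (hlf : ∀ v : ℕ, (G.neighborSet v).Finite)
    (e : Sym2 ℕ) (n : ℕ) (f : Sym2 ℕ) : f ∈ window G e n ↔ f ∈ ballE G e n := by
  unfold window
  rw [dif_pos (gw_ballE_finite G hlf e n), Set.Finite.mem_toFinset]

theorem gw_ballV_mono (G : SimpleGraph ℕ) (e : Sym2 ℕ) : Monotone (ballV G e) :=
  monotone_nat_of_le_succ fun _ => Set.subset_union_left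

theorem gw_exists_ballV (G : SimpleGraph ℕ) (hG : G.Connected) (e : Sym2 ℕ) (w : ℕ) :
    ∃ n, w ∈ ballV G e n := by
  have key : ∀ {u v : ℕ} (p : G.Walk u v) (n : ℕ), u ∈ ballV G e n → ∃ m, v ∈ ballV G e m := by
    intro u v p
    induction p with
    | nil => exact fun n h => ⟨n, h⟩
    | cons h _ ih => exact fun n hn => ih (n + 1) (Or.inr ⟨_, hn, h⟩)
  induction e using Sym2.ind with
  | _ a b =>
    obtain ⟨p⟩ := hG.preconnected a w
    exact key p 0 (show a ∈ s(a, b) by simp)

theorem window_spec (G : SimpleGraph ℕ) (hG : G.Connected)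
    (hlf : ∀ v : ℕ, (G.neighborSet v).Finite) (e : Sym2 ℕ) :
    Monotone (window G e) ∧ (∀ n, ∀ f ∈ window G e n, f ∈ G.edgeSet) ∧
      ∀ f ∈ G.edgeSet, ∃ n, f ∈ window G e n := by
  refine ⟨?_, ?_, ?_⟩
  · intro m n hmn f hf
    rw [gw_mem_window G hlf] at hf ⊢
    exact ⟨hf.1, fun w hw => gw_ballV_mono G e hmn (hf.2 w hw)⟩
  · intro n f hf
    exact ((gw_mem_window G hlf e n f).mp hf).1
  · intro f hf
    induction f using Sym2.ind with
    | _ a b =>
      obtain ⟨m, hm⟩ := gw_exists_ballV G hG e a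
      obtain ⟨n, hn⟩ := gw_exists_ballV G hG e b
      refine ⟨max m n, (gw_mem_window G hlf e _ _).mpr ⟨hf, fun w hw => ?_⟩⟩
      rcases Sym2.mem_iff.mp hw with rfl | rfl
      · exact gw_ballV_mono G e (le_max_left _ _) hm
      · exact gw_ballV_mono G e (le_max_right _ _) hn

theorem gw_ust_nonneg {V : Type*} (G : SimpleGraph V) (S : Finset V) (F : Finset (Sym2 V)) :
    0 ≤ ustContains G S F := by
  rw [ustContains_eq]; positivity

theorem gw_ust_le_one {V : Type*} (G : SimpleGraph V) (S : Finset V) (F : Finset (Sym2 V)) :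
    ustContains G S F ≤ 1 := by
  rw [ustContains_eq]
  refine div_le_one_of_le₀ ?_ (Nat.cast_nonneg _)
  exact Nat.cast_le.mpr (Finset.card_le_card (fun A hA => (by
    classical exact Finset.mem_of_mem_filter A (by convert hA))))

theorem gw_eventually_subset (S : ℕ → Finset ℕ) (hmono : Monotone S)
    (hex : ∀ v : ℕ, ∃ n, v ∈ S n) (T : Finset ℕ) : ∀ᶠ n in Filter.atTop, T ⊆ S n := by
  have : ∀ v ∈ T, ∀ᶠ n in Filter.atTop, v ∈ S n := by
    intro v _
    obtain ⟨m, hm⟩ := hex v
    exact Filter.eventually_atTop.mpr ⟨m, fun n hn => hmono hn hm⟩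
  exact ((Filter.eventually_all_finset T).mpr this).mono fun n hn v hv => hn v hv

theorem tendsto_ustContains_muG (G : SimpleGraph ℕ)
    (hanti : ∀ S S' : Finset ℕ, S ⊆ S' → (G.induce (S : Set ℕ)).Connected →
      (G.induce (S' : Set ℕ)).Connected → ∀ F : Finset (Sym2 ℕ), F ⊆ edgesIn G S →
        ustContains G S' F ≤ ustContains G S F)
    (S : ℕ → Finset ℕ) (hmono : Monotone S) (hex : ∀ v : ℕ, ∃ n, v ∈ S n)
    (hconn : ∀ n, (G.induce (S n : Set ℕ)).Connected)
    (F : Finset (Sym2 ℕ)) (hF : (↑F : Set (Sym2 ℕ)) ⊆ G.edgeSet) :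
    Filter.Tendsto (fun n => ustContains G (S n) F) Filter.atTop (nhds (muG G F)) := by
  classical
  have hbdd : BddBelow (Set.range fun S : Finset ℕ =>
      if (G.induce (S : Set ℕ)).Connected ∧ F ⊆ edgesIn G S then ustContains G S F else 1) := by
    refine ⟨0, ?_⟩
    rintro _ ⟨T, rfl⟩
    dsimp only
    split_ifs
    · exact gw_ust_nonneg G T F
    · exact zero_le_one
  have hev : ∀ᶠ n in Filter.atTop, F ⊆ edgesIn G (S n) := by
    refine (gw_eventually_subset S hmono hex (F.biUnion Sym2.toFinset)).mono ?_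
    intro n hn f hf
    refine mem_edgesIn.mpr ⟨hF hf, fun v hv => hn ?_⟩
    exact Finset.mem_biUnion.mpr ⟨f, hf, Sym2.mem_toFinset.mpr hv⟩
  refine tendsto_order.mpr ⟨fun a ha => ?_, fun a ha => ?_⟩
  · refine hev.mono fun n hn => lt_of_lt_of_le ha ?_
    have := ciInf_le hbdd (S n)
    rw [if_pos ⟨hconn n, hn⟩] at this
    unfold muG
    convert this
  · unfold muG at ha
    obtain ⟨T, hT⟩ := exists_lt_of_ciInf_lt ha
    split_ifs at hT with h
    · refine (gw_eventually_subset S hmono hex T).mono fun n hn => ?_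
      exact lt_of_le_of_lt (hanti T (S n) hn h.1 (hconn n) F h.2) hT
    · exact Filter.Eventually.of_forall fun n => lt_of_le_of_lt (gw_ust_le_one G _ F) hT

end Crest.Agent.R168
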