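import Crest.Agent.R168.Defs

/-!
Row 168, task A: the matrix-tree theorem in rooted-function form, and stability of the
spanning-tree generating polynomial.
-/

set_option autoImplicit false

namespace Crest.Agent.R168

open Crest.ProbabilityR.SpanningTrees

section Det

variable {W : Type*} [Fintype W] [DecidableEq W]

/-- `f` has a depth function: it moves every non-root point strictly closer to the root. -/
def mt_Depth (r : W) (f : W → W) : Prop := ∃ d : W → ℕ, ∀ x, x ≠ r → d (f x) < d x

/-- Row attached to the choice `x ↦ u`. -/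
def mt_row (r x u : W) : W → ℂ :=
  fun y => (if y = x then 1 else 0) - (if x ≠ r ∧ y = u then 1 else 0)

theorem mt_det_one (r : W) (f : W → W) (h : mt_Depth r f) :
    (Matrix.of fun x => mt_row r x (f x)).det = 1 := by
  obtain ⟨d, hd⟩ := h
  have hbt : (Matrix.of fun x => mt_row r x (f x)).BlockTriangular
      (fun x => OrderDual.toDual (d x)) := by
    intro i j hij
    have hij' : d i < d j := hij
    have h1 : j ≠ i := by rintro rfl; exact lt_irrefl _ hij'
    have h2 : ¬ (i ≠ r ∧ j = f i) := by
      rintro ⟨hi, rfl⟩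
      exact lt_asymm hij' (hd i hi)
    simp only [Matrix.of_apply, mt_row, if_neg h1, if_neg h2, sub_zero]
  rw [hbt.det]
  refine Finset.prod_eq_one fun a _ => ?_
  have : (Matrix.of fun x => mt_row r x (f x)).toSquareBlock
      (fun x => OrderDual.toDual (d x)) a = 1 := by
    ext ⟨i, hi⟩ ⟨j, hj⟩
    have hdij : d i = d j := by
      have : OrderDual.toDual (d i) = OrderDual.toDual (d j) := hi.trans hj.symm
      exact OrderDual.toDual.injective this
    have h2 : ¬ (i ≠ r ∧ j = f i) := by
      rintro ⟨hi', rfl⟩
      exact (hd i hi').ne' hdij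
    simp only [Matrix.toSquareBlock_def, Matrix.of_apply, mt_row, if_neg h2, sub_zero,
      Matrix.one_apply, Subtype.mk.injEq]
    by_cases hij : i = j
    · simp [hij]
    · simp [hij, Ne.symm hij]
  rw [this, Matrix.det_one]

theorem mt_mulVec_row (r : W) (f : W → W) (v : W → ℂ) (x : W) :
    ((Matrix.of fun x => mt_row r x (f x)).mulVec v) x =
      v x - if x ≠ r then v (f x) else 0 := by
  simp only [Matrix.mulVec, dotProduct, Matrix.of_apply, mt_row, sub_mul,
    Finset.sum_sub_distrib, ite_mul, one_mul, zero_mul]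
  by_cases hx : x = r
  · simp [hx]
  · simp [hx]

theorem mt_det_zero (r : W) (f : W → W) (h : ¬ mt_Depth r f) :
    (Matrix.of fun x => mt_row r x (f x)).det = 0 := by
  classical
  have hex : ∃ x, ¬ ∃ n, f^[n] x = r := by
    by_contra hcon
    push Not at hcon
    apply h
    refine ⟨fun x => Nat.find (hcon x), fun x hx => ?_⟩
    have h0 : Nat.find (hcon x) ≠ 0 := by
      intro h0
      have := Nat.find_spec (hcon x)
      rw [h0] at this
      exact hx this
    obtain ⟨m, hm⟩ := Nat.exists_eq_succ_of_ne_zero h0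
    have hs := Nat.find_spec (hcon x)
    rw [hm, Function.iterate_succ_apply] at hs
    have : Nat.find (hcon (f x)) ≤ m := Nat.find_min' _ hs
    show Nat.find (hcon (f x)) < Nat.find (hcon x)
    omega
  obtain ⟨x0, hx0⟩ := hex
  rw [← Matrix.exists_mulVec_eq_zero_iff]
  refine ⟨fun x => if ∃ n, f^[n] x = r then 0 else 1, ?_, ?_⟩
  · intro h0
    have := congrFun h0 x0
    simp [hx0] at this
  · funext x
    rw [mt_mulVec_row]
    by_cases hx : x = r
    · have : ∃ n, f^[n] x = r := ⟨0, hx⟩
      simp [hx]
      exact ⟨0, rfl⟩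
    · have : (∃ n, f^[n] (f x) = r) ↔ ∃ n, f^[n] x = r := by
        constructor
        · rintro ⟨n, hn⟩
          exact ⟨n + 1, by rw [Function.iterate_succ_apply]; exact hn⟩
        · rintro ⟨n, hn⟩
          cases n with
          | zero => exact absurd hn hx
          | succ n => exact ⟨n, by rw [Function.iterate_succ_apply] at hn; exact hn⟩
      simp only [ne_eq, hx, not_false_eq_true, if_true, this, sub_self, Pi.zero_apply]

/-- Expansion of the determinant of the rooted Laplacian over functions. -/
theorem mt_det_expand (r : W) (w : W → W → ℂ) :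
    (Matrix.of fun x => ∑ u, w x u • mt_row r x u).det =
      ∑ f : W → W, (∏ x, w x (f x)) * (Matrix.of fun x => mt_row r x (f x)).det := by
  have := (Matrix.detRowAlternating (n := W) (R := ℂ)).toMultilinearMap.map_sum
    (α := fun _ => W) (fun x u => w x u • mt_row r x u)
  refine this.trans ?_
  refine Finset.sum_congr rfl fun f _ => ?_
  exact (Matrix.detRowAlternating (n := W) (R := ℂ)).toMultilinearMap.map_smul_univ
    (fun x => w x (f x)) (fun x => mt_row r x (f x))

/-- The rooted Laplacian of a connected graph with weights in the upper half plane is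
invertible. -/
theorem mt_det_ne_zero (H : SimpleGraph W) (hH : H.Connected) (r : W) (c : W → W → ℂ)
    (hsymm : ∀ x u, c x u = c u x) (hpos : ∀ x u, H.Adj x u → 0 < (c x u).im)
    (hzero : ∀ x u, ¬ H.Adj x u → c x u = 0) :
    (Matrix.of fun x => ∑ u, (if x = r then (if u = r then 1 else 0) else c x u) •
      mt_row r x u).det ≠ 0 := by
  intro h0
  obtain ⟨v, hv0, hv⟩ := Matrix.exists_mulVec_eq_zero_iff.mpr h0
  have hrow : ∀ x u, ∑ y, mt_row r x u y * v y = v x - if x ≠ r then v u else 0 := by
    intro x u
    simp only [mt_row, sub_mul, Finset.sum_sub_distrib, ite_mul, one_mul, zero_mul]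
    by_cases hx : x = r
    · simp [hx]
    · simp [hx]
  have heq : ∀ x, ∑ u, (if x = r then (if u = r then 1 else 0) else c x u) *
      (v x - if x ≠ r then v u else 0) = 0 := by
    intro x
    have := congrFun hv x
    simp only [Matrix.mulVec, dotProduct, Matrix.of_apply, Finset.sum_apply, Pi.smul_apply,
      smul_eq_mul, Finset.sum_mul, Pi.zero_apply] at this
    rw [Finset.sum_comm] at this
    refine Eq.trans ?_ this
    refine Finset.sum_congr rfl fun u _ => ?_
    rw [← hrow, Finset.mul_sum]
    refine Finset.sum_congr rfl fun y _ => ?_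
    ring
  have hr : v r = 0 := by
    have := heq r
    simpa using this
  have h1 : ∀ x, (starRingEnd ℂ) (v x) * ∑ u, c x u * (v x - v u) = 0 := by
    intro x
    by_cases hx : x = r
    · rw [hx, hr]; simp
    · have := heq x
      simp only [hx, if_false, ne_eq, not_false_eq_true, if_true] at this
      rw [this, mul_zero]
  have h2 : ∑ x, ∑ u, c x u * ((starRingEnd ℂ) (v x) * (v x - v u)) = 0 := by
    refine Finset.sum_eq_zero fun x _ => ?_
    rw [← h1 x, Finset.mul_sum]
    refine Finset.sum_congr rfl fun u _ => ?_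
    ring
  have h3 : ∑ x, ∑ u, c x u * ((starRingEnd ℂ) (v u) * (v u - v x)) = 0 := by
    rw [Finset.sum_comm, ← h2]
    refine Finset.sum_congr rfl fun x _ => Finset.sum_congr rfl fun u _ => ?_
    rw [hsymm]
  have h4 : ∑ x, ∑ u, c x u * ((Complex.normSq (v x - v u) : ℝ) : ℂ) = 0 := by
    have := congrArg₂ (· + ·) h2 h3
    simp only [add_zero] at this
    rw [← this, ← Finset.sum_add_distrib]
    refine Finset.sum_congr rfl fun x _ => ?_
    rw [← Finset.sum_add_distrib]
    refine Finset.sum_congr rfl fun u _ => ?_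
    rw [Complex.normSq_eq_conj_mul_self, map_sub]
    ring
  have h5 : ∑ x, ∑ u, (c x u).im * Complex.normSq (v x - v u) = 0 := by
    have := congrArg Complex.im h4
    simpa [Complex.im_sum] using this
  have hnn : ∀ x u, 0 ≤ (c x u).im * Complex.normSq (v x - v u) := by
    intro x u
    refine mul_nonneg ?_ (Complex.normSq_nonneg _)
    by_cases hxu : H.Adj x u
    · exact (hpos x u hxu).le
    · rw [hzero x u hxu]; simp
  have h6 : ∀ x u, H.Adj x u → v x = v u := by
    intro x u hxu
    have ha := (Finset.sum_eq_zero_iff_of_nonneg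
      (fun x _ => Finset.sum_nonneg fun u _ => hnn x u)).mp h5 x (Finset.mem_univ _)
    have hb := (Finset.sum_eq_zero_iff_of_nonneg (fun u _ => hnn x u)).mp ha u (Finset.mem_univ _)
    rcases mul_eq_zero.mp hb with hc | hc
    · exact absurd hc (hpos x u hxu).ne'
    · exact sub_eq_zero.mp (Complex.normSq_eq_zero.mp hc)
  apply hv0
  funext x
  obtain ⟨p⟩ := hH.preconnected x r
  have : ∀ {a b : W} (p : H.Walk a b), v a = v b := by
    intro a b p
    induction p with
    | nil => rfl
    | cons h _ ih => exact (h6 _ _ h).trans ih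
  rw [this p, hr]; rfl

end Det

section Trees

variable {V : Type*} (G : SimpleGraph V) (S : Finset V)

theorem mt_card_edges {A : Finset (Sym2 V)} (hA : A ⊆ edgesIn G S) :
    Nat.card ((SimpleGraph.fromEdgeSet (A : Set (Sym2 V))).induce (S : Set V)).edgeSet
      = A.card := by
  have hinj : Function.Injective (Sym2.map (Subtype.val : ↥(S : Set V) → V)) :=
    Sym2.map.injective Subtype.val_injective
  have himg : Sym2.map (Subtype.val : ↥(S : Set V) → V) ''
      ((SimpleGraph.fromEdgeSet (A : Set (Sym2 V))).induce (S : Set V)).edgeSet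
      = (A : Set (Sym2 V)) := by
    ext e
    constructor
    · rintro ⟨e', he', rfl⟩
      induction e' using Sym2.ind with
      | _ a b =>
        simp only [SimpleGraph.mem_edgeSet, SimpleGraph.comap_adj, Function.Embedding.coe_subtype,
          SimpleGraph.fromEdgeSet_adj] at he'
        simpa using he'.1
    · intro he
      induction e using Sym2.ind with
      | _ a b =>
        have hab := mem_edgesIn.mp (hA he)
        have ha : a ∈ S := hab.2 a (by simp)
        have hb : b ∈ S := hab.2 b (by simp)
        refine ⟨s(⟨a, ha⟩, ⟨b, hb⟩), ?_, by simp⟩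
        simp only [SimpleGraph.mem_edgeSet, SimpleGraph.comap_adj, Function.Embedding.coe_subtype,
          SimpleGraph.fromEdgeSet_adj]
        exact ⟨he, (G.ne_of_adj hab.1)⟩
  rw [Nat.card_coe_set_eq, ← Set.ncard_image_of_injective _ hinj, himg, Set.ncard_coe_finset]

open Classical in
/-- The edge set attached to a rooted function. -/
noncomputable def mt_phi (r : (S : Set V)) (f : ↥(S : Set V) → ↥(S : Set V)) : Finset (Sym2 V) :=
  (Finset.univ.filter (fun x : ↥(S : Set V) => x ≠ r)).image
    (fun x : ↥(S : Set V) => s((x : V), (f x : V)))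

theorem mt_mem_phi {r : (S : Set V)} {f : ↥(S : Set V) → ↥(S : Set V)} {e : Sym2 V} :
    e ∈ mt_phi S r f ↔ ∃ x, x ≠ r ∧ s((x : V), (f x : V)) = e := by
  simp [mt_phi]

theorem mt_injOn {r : (S : Set V)} {f : ↥(S : Set V) → ↥(S : Set V)} (hf : mt_Depth r f)
    {x y : (S : Set V)} (hx : x ≠ r) (hy : y ≠ r)
    (h : s((x : V), (f x : V)) = s((y : V), (f y : V))) : x = y := by
  obtain ⟨d, hd⟩ := hf
  rcases Sym2.eq_iff.mp h with ⟨h1, _⟩ | ⟨h1, h2⟩
  · exact Subtype.ext h1
  · have h1' : x = f y := Subtype.ext h1
    have h2' : f x = y := Subtype.ext h2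
    have a := hd x hx
    have b := hd y hy
    rw [h2'] at a
    rw [← h1'] at b
    omega

theorem mt_card_phi {r : (S : Set V)} {f : ↥(S : Set V) → ↥(S : Set V)} (hf : mt_Depth r f) :
    (mt_phi S r f).card + 1 = Nat.card (S : Set V) := by
  classical
  unfold mt_phi
  rw [Finset.card_image_of_injOn]
  · rw [Nat.card_eq_fintype_card, Finset.filter_ne', Finset.card_erase_add_one (by simp)]
    simp
  · intro x hx y hy h
    simp only [Finset.coe_filter, Finset.mem_univ, true_and, Set.mem_ofPred_eq] at hx hy
    exact mt_injOn S hf hx hy h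

theorem mt_phi_mem {r : (S : Set V)} {f : ↥(S : Set V) → ↥(S : Set V)} (hf : mt_Depth r f)
    (hadj : ∀ x, x ≠ r → G.Adj x (f x)) : mt_phi S r f ∈ trees G S := by
  have hsub : mt_phi S r f ⊆ edgesIn G S := by
    intro e he
    obtain ⟨x, hx, rfl⟩ := (mt_mem_phi S).mp he
    refine mem_edgesIn.mpr ⟨hadj x hx, ?_⟩
    intro v hv
    rcases Sym2.mem_iff.mp hv with rfl | rfl
    · exact x.2
    · exact (f x).2
  refine mem_trees.mpr ⟨hsub, ?_⟩
  rw [SimpleGraph.isTree_iff_connected_and_card, mt_card_edges G S hsub]
  refine ⟨?_, mt_card_phi S hf⟩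
  obtain ⟨d, hd⟩ := hf
  have hreach : ∀ n, ∀ x : (S : Set V), d x = n →
      ((SimpleGraph.fromEdgeSet ((mt_phi S r f : Finset (Sym2 V)) : Set (Sym2 V))).induce
        (S : Set V)).Reachable x r := by
    intro n
    induction n using Nat.strong_induction_on with
    | _ n ih =>
      intro x hx
      by_cases hxr : x = r
      · rw [hxr]
      · have h1 := ih (d (f x)) (hx ▸ hd x hxr) (f x) rfl
        refine SimpleGraph.Reachable.trans (SimpleGraph.Adj.reachable ?_) h1
        simp only [SimpleGraph.comap_adj, Function.Embedding.coe_subtype,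
          SimpleGraph.fromEdgeSet_adj]
        exact ⟨(mt_mem_phi S).mpr ⟨x, hxr, rfl⟩, G.ne_of_adj (hadj x hxr)⟩
  have : Nonempty (S : Set V) := ⟨r⟩
  exact ⟨fun x y => (hreach _ x rfl).trans (hreach _ y rfl).symm⟩

theorem mt_phi_inj {r : (S : Set V)} {f g : ↥(S : Set V) → ↥(S : Set V)} (hf : mt_Depth r f)
    (hfr : f r = r) (hgr : g r = r) (h : mt_phi S r f = mt_phi S r g) : f = g := by
  obtain ⟨d, hd⟩ := hf
  have key : ∀ n, ∀ x : (S : Set V), d x = n → f x = g x := by
    intro n
    induction n using Nat.strong_induction_on with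
    | _ n ih =>
      intro x hx
      by_cases hxr : x = r
      · rw [hxr, hfr, hgr]
      · have hm : s((x : V), (f x : V)) ∈ mt_phi S r g := h ▸ (mt_mem_phi S).mpr ⟨x, hxr, rfl⟩
        obtain ⟨y, hy, hxy⟩ := (mt_mem_phi S).mp hm
        rcases Sym2.eq_iff.mp hxy with ⟨h1, h2⟩ | ⟨h1, h2⟩
        · have h1' : y = x := Subtype.ext h1
          rw [h1'] at h2
          exact Subtype.ext h2.symm
        · have h1' : y = f x := Subtype.ext h1
          have h2' : g y = x := Subtype.ext h2
          have a := hd x hxr
          have b := hd y hy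
          have c := ih (d y) (by rw [h1', ← hx]; exact a) y rfl
          rw [c, h2', h1'] at b
          omega
  funext x
  exact key _ x rfl

theorem mt_phi_surj (r : (S : Set V)) {A : Finset (Sym2 V)} (hA : A ∈ trees G S) :
    ∃ f : ↥(S : Set V) → ↥(S : Set V), f r = r ∧ (∀ x, x ≠ r → G.Adj x (f x)) ∧ mt_Depth r f ∧
      mt_phi S r f = A := by
  classical
  obtain ⟨hsub, htree⟩ := mem_trees.mp hA
  set T := (SimpleGraph.fromEdgeSet (A : Set (Sym2 V))).induce (S : Set V) with hT
  have hex : ∀ x : (S : Set V), x ≠ r → ∃ u, T.Adj x u ∧ T.dist u r < T.dist x r := by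
    intro x hx
    obtain ⟨p, hp⟩ := htree.connected.exists_walk_length_eq_dist x r
    cases p with
    | nil => exact absurd rfl hx
    | cons h q =>
      refine ⟨_, h, ?_⟩
      have := SimpleGraph.dist_le q
      rw [SimpleGraph.Walk.length_cons] at hp
      omega
  let f : ↥(S : Set V) → ↥(S : Set V) := fun x => if h : x = r then r else (hex x h).choose
  have hf : ∀ x, x ≠ r → T.Adj x (f x) ∧ T.dist (f x) r < T.dist x r := by
    intro x hx
    simp only [f, dif_neg hx]
    exact (hex x hx).choose_spec
  have hmem : ∀ x, x ≠ r → s((x : V), (f x : V)) ∈ A := by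
    intro x hx
    have := (hf x hx).1
    simp only [hT, SimpleGraph.comap_adj, Function.Embedding.coe_subtype,
      SimpleGraph.fromEdgeSet_adj] at this
    exact this.1
  have hdepth : mt_Depth r f := ⟨fun x => T.dist x r, fun x hx => (hf x hx).2⟩
  refine ⟨f, by simp [f], fun x hx => (mem_edgesIn.mp (hsub (hmem x hx))).1, hdepth, ?_⟩
  apply Finset.eq_of_subset_of_card_le
  · intro e he
    obtain ⟨x, hx, rfl⟩ := (mt_mem_phi S).mp he
    exact hmem x hx
  · have h1 := mt_card_phi S hdepth
    have h2 := (SimpleGraph.isTree_iff_connected_and_card.mp htree).2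
    rw [hT, mt_card_edges G S hsub] at h2
    omega

end Trees

theorem stable_trees {V : Type*} (G : SimpleGraph V) (S : Finset V)
    (hc : (G.induce (S : Set V)).Connected) : Stable (trees G S) (fun _ => 1) := by
  classical
  intro z hz
  obtain ⟨r⟩ := hc.nonempty
  let c : ↥(S : Set V) → ↥(S : Set V) → ℂ := fun x u =>
    if G.Adj x u then z s((x : V), (u : V)) else 0
  have hne := mt_det_ne_zero (G.induce (S : Set V)) hc r c
    (by
      intro x u
      simp only [c, G.adj_comm x u, Sym2.eq_swap (a := (x : V))])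
    (by
      intro x u hxu
      have : G.Adj x u := hxu
      simp only [c, if_pos this]
      exact hz _)
    (by
      intro x u hxu
      have : ¬ G.Adj x u := hxu
      simp only [c, if_neg this])
  rw [mt_det_expand] at hne
  convert hne using 1
  symm
  rw [← Finset.sum_filter_of_ne (p := fun f : ↥(S : Set V) → ↥(S : Set V) =>
    f r = r ∧ (∀ x, x ≠ r → G.Adj x (f x)) ∧ mt_Depth r f)]
  · refine Finset.sum_bij (fun f _ => mt_phi S r f) ?_ ?_ ?_ ?_
    · intro f hf
      obtain ⟨_, h2, h3⟩ := (Finset.mem_filter.mp hf).2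
      exact mt_phi_mem G S h3 h2
    · intro f hf g hg h
      obtain ⟨h1, _, h3⟩ := (Finset.mem_filter.mp hf).2
      obtain ⟨h1', _, _⟩ := (Finset.mem_filter.mp hg).2
      exact mt_phi_inj S h3 h1 h1' h
    · intro A hA
      obtain ⟨f, h1, h2, h3, h4⟩ := mt_phi_surj G S r hA
      exact ⟨f, Finset.mem_filter.mpr ⟨Finset.mem_univ _, h1, h2, h3⟩, h4⟩
    · intro f hf
      obtain ⟨h1, h2, h3⟩ := (Finset.mem_filter.mp hf).2
      rw [mt_det_one r f h3, mul_one]
      simp only [Complex.ofReal_one, one_mul]
      unfold mt_phi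
      rw [Finset.prod_image]
      · rw [← Finset.prod_filter_of_ne (p := fun x => x ≠ r)]
        · refine Finset.prod_congr (by ext; simp) fun x hx => ?_
          have hx' : x ≠ r := (Finset.mem_filter.mp hx).2
          simp only [if_neg hx', c, if_pos (h2 x hx')]
        · intro x _ hx hxr
          apply hx
          simp [hxr, h1]
      · intro x hx y hy h
        simp only [Finset.coe_filter, Finset.mem_univ, true_and, Set.mem_ofPred_eq] at hx hy
        exact mt_injOn S h3 hx hy h
  · intro f _ hf
    have ha := left_ne_zero_of_mul hf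
    have hb := right_ne_zero_of_mul hf
    rw [Finset.prod_ne_zero_iff] at ha
    refine ⟨?_, ?_, ?_⟩
    · have := ha r (Finset.mem_univ _)
      by_contra hcon
      simp [hcon] at this
    · intro x hx
      have := ha x (Finset.mem_univ _)
      by_contra hcon
      simp [hx, c, hcon] at this
    · by_contra hcon
      exact hb (mt_det_zero r f hcon)

end Crest.Agent.R168
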