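import Crest.Agent.R168.Defs

/-!
Row 168, task B: Rayleigh monotonicity of the inclusion probabilities of the uniform spanning
tree, derived from stability of the spanning tree polynomial.
-/

set_option autoImplicit false

namespace Crest.Agent.R168

open Crest.ProbabilityR.SpanningTrees Finset

section Abstract

variable {α : Type*} [DecidableEq α]

/-- Generating polynomial of a family of finite sets. -/
noncomputable def um_Z (T : Finset (Finset α)) (z : α → ℂ) : ℂ := ∑ S ∈ T, ∏ j ∈ S, z j

theorem um_prod_update (S : Finset α) (z : α → ℂ) (f : α) (t : ℂ) :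
    ∏ j ∈ S, Function.update z f t j = if f ∈ S then t * ∏ j ∈ S.erase f, z j else ∏ j ∈ S, z j := by
  split_ifs with h
  · rw [Finset.prod_update_of_mem h, Finset.sdiff_singleton_eq_erase]
  · exact Finset.prod_update_of_notMem h _ _

/-- Part of the polynomial without the variable `f`. -/
noncomputable def um_A (T : Finset (Finset α)) (f : α) (z : α → ℂ) : ℂ :=
  ∑ S ∈ T.filter (f ∉ ·), ∏ j ∈ S, z j

/-- Coefficient of the variable `f`. -/
noncomputable def um_B (T : Finset (Finset α)) (f : α) (z : α → ℂ) : ℂ :=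
  ∑ S ∈ T.filter (f ∈ ·), ∏ j ∈ S.erase f, z j

theorem um_Z_update (T : Finset (Finset α)) (z : α → ℂ) (f : α) (t : ℂ) :
    um_Z T (Function.update z f t) = um_A T f z + t * um_B T f z := by
  unfold um_Z um_A um_B
  simp_rw [um_prod_update]
  rw [Finset.sum_ite, Finset.mul_sum, add_comm]

/-- The half-plane property of the family `T` in the variable `f`. -/
def um_HP (T : Finset (Finset α)) (f : α) : Prop :=
  ∀ z : α → ℂ, (∀ j, 0 ≤ (z j).im) → 0 ≤ (um_A T f z * (starRingEnd ℂ) (um_B T f z)).im

theorem um_im_of_ne (A B : ℂ) (h : ∀ t : ℂ, 0 < t.im → A + t * B ≠ 0) :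
    0 ≤ (A * (starRingEnd ℂ) B).im := by
  by_contra hneg
  push Not at hneg
  have hB : B ≠ 0 := by
    rintro rfl
    simp at hneg
  have hn : 0 < Complex.normSq B := Complex.normSq_pos.mpr hB
  refine h (-(A / B)) ?_ (by field_simp; ring)
  have : (A / B).im = (A * (starRingEnd ℂ) B).im / Complex.normSq B := by
    rw [Complex.div_im]
    simp [Complex.mul_im]
    ring
  rw [Complex.neg_im, this]
  have := div_neg_of_neg_of_pos hneg hn
  linarith

theorem um_HP_of_stable (T : Finset (Finset α)) (hT : Stable T (fun _ => 1)) (f : α) :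
    um_HP T f := by
  intro z hz
  have key : ∀ η : ℝ, 0 < η → 0 ≤ (um_A T f (fun j => z j + η * Complex.I) *
      (starRingEnd ℂ) (um_B T f (fun j => z j + η * Complex.I))).im := by
    intro η hη
    apply um_im_of_ne
    intro t ht
    rw [← um_Z_update]
    have := hT (Function.update (fun j => z j + η * Complex.I) f t) (by
      intro j
      by_cases hj : j = f
      · subst hj; simpa using ht
      · rw [Function.update_of_ne hj]
        have := hz j
        simp; linarith)
    simpa [um_Z] using this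
  have hc : Continuous fun η : ℝ => (um_A T f (fun j => z j + η * Complex.I) *
      (starRingEnd ℂ) (um_B T f (fun j => z j + η * Complex.I))).im := by
    unfold um_A um_B
    fun_prop
  have h0 := hc.continuousAt (x := 0)
  have hlim := h0.tendsto.mono_left (nhdsWithin_le_nhds (s := Set.Ioi (0 : ℝ)))
  have := ge_of_tendsto hlim (eventually_nhdsWithin_of_forall fun η hη => key η hη)
  simpa using this

theorem um_A_update (T : Finset (Finset α)) (f e : α) (z : α → ℂ) (t : ℂ) :
    um_A T f (Function.update z e t) =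
      um_A (T.filter (e ∉ ·)) f z + t * um_A (T.filter (e ∈ ·)) f (Function.update z e 1) := by
  unfold um_A
  simp_rw [um_prod_update]
  rw [Finset.sum_ite, Finset.mul_sum, add_comm, Finset.filter_comm, Finset.filter_comm (e ∈ ·)]
  congr 1
  refine Finset.sum_congr rfl fun S hS => ?_
  simp only [Finset.mem_filter] at hS
  simp [hS.2]

theorem um_B_update (T : Finset (Finset α)) (f e : α) (hef : e ≠ f) (z : α → ℂ) (t : ℂ) :
    um_B T f (Function.update z e t) =
      um_B (T.filter (e ∉ ·)) f z + t * um_B (T.filter (e ∈ ·)) f (Function.update z e 1) := by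
  unfold um_B
  simp_rw [um_prod_update, Finset.mem_erase, ne_eq, hef, not_false_eq_true, true_and]
  rw [Finset.sum_ite, Finset.mul_sum, add_comm, Finset.filter_comm, Finset.filter_comm (e ∈ ·)]
  congr 1
  refine Finset.sum_congr rfl fun S hS => ?_
  simp only [Finset.mem_filter] at hS
  simp [hS.2]

theorem um_update_im {z : α → ℂ} (hz : ∀ j, 0 ≤ (z j).im) (e : α) {t : ℂ} (ht : 0 ≤ t.im) (j : α) :
    0 ≤ (Function.update z e t j).im := by
  by_cases hj : j = e
  · subst hj; simpa using ht
  · rw [Function.update_of_ne hj]; exact hz j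

theorem um_HP_del {T : Finset (Finset α)} {f e : α} (hef : e ≠ f) (h : um_HP T f) :
    um_HP (T.filter (e ∉ ·)) f := by
  intro z hz
  have := h (Function.update z e 0) (um_update_im hz e (by simp))
  rwa [um_A_update, um_B_update _ _ _ hef, zero_mul, zero_mul, add_zero, add_zero] at this

theorem um_quad_nonneg (a b c : ℝ) (h : ∀ R : ℝ, 0 ≤ a * R ^ 2 + b * R + c) : 0 ≤ a := by
  by_contra ha
  push Not at ha
  have h1 := h ((|b| + |c| + 1) / (-a) + 1)
  set R := (|b| + |c| + 1) / (-a) + 1 with hR
  have hpos : 0 < (|b| + |c| + 1) / (-a) := div_pos (by positivity) (by linarith)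
  have hR1 : 1 ≤ R := by linarith
  have h2 : a * R ≤ -(|b| + |c| + 1) := by
    have : a * ((|b| + |c| + 1) / (-a)) = -(|b| + |c| + 1) := by
      have : a ≠ 0 := ha.ne
      field_simp
    rw [hR, mul_add, this]; linarith
  have h3 : a * R ^ 2 ≤ -(|b| + |c| + 1) * R := by nlinarith
  have h4 : b * R ≤ |b| * R := mul_le_mul_of_nonneg_right (le_abs_self b) (by linarith)
  have h5 : c ≤ |c| * R := by nlinarith [le_abs_self c, abs_nonneg c]
  nlinarith

theorem um_HP_con {T : Finset (Finset α)} {f e : α} (hef : e ≠ f) (h : um_HP T f) :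
    um_HP (T.filter (e ∈ ·)) f := by
  intro z hz
  set A0 := um_A (T.filter (e ∉ ·)) f z
  set B0 := um_B (T.filter (e ∉ ·)) f z
  set A1 := um_A (T.filter (e ∈ ·)) f (Function.update z e 1)
  set B1 := um_B (T.filter (e ∈ ·)) f (Function.update z e 1)
  have h1 : 0 ≤ (A1 * (starRingEnd ℂ) B1).im := by
    apply um_quad_nonneg _ ((A0 * (starRingEnd ℂ) B1).im + (A1 * (starRingEnd ℂ) B0).im)
      ((A0 * (starRingEnd ℂ) B0).im)
    intro R
    have := h (Function.update z e R) (um_update_im hz e (by simp))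
    rw [um_A_update, um_B_update _ _ _ hef] at this
    convert this using 1
    simp [Complex.mul_im, Complex.mul_re, A0, B0, A1, B1]
    ring
  have hA := um_A_update (T.filter (e ∈ ·)) f e z (z e)
  have hB := um_B_update (T.filter (e ∈ ·)) f e hef z (z e)
  have hem : (T.filter (e ∈ ·)).filter (e ∉ ·) = ∅ := by
    ext S; simp
  have hid : (T.filter (e ∈ ·)).filter (e ∈ ·) = T.filter (e ∈ ·) := by
    ext S; simp
  rw [Function.update_eq_self, hem, hid] at hA hB
  have hA0 : um_A (∅ : Finset (Finset α)) f z = 0 := by simp [um_A]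
  have hB0 : um_B (∅ : Finset (Finset α)) f z = 0 := by simp [um_B]
  rw [hA, hB, hA0, hB0, zero_add, zero_add]
  have : (z e * A1 * (starRingEnd ℂ) (z e * B1)).im =
      Complex.normSq (z e) * (A1 * (starRingEnd ℂ) B1).im := by
    simp [Complex.mul_im, Complex.mul_re, Complex.normSq_apply]
    ring
  rw [this]
  exact mul_nonneg (Complex.normSq_nonneg _) h1

theorem um_A_one (T : Finset (Finset α)) (f : α) :
    um_A T f (fun _ => 1) = ((T.filter (f ∉ ·)).card : ℂ) := by
  simp [um_A]

theorem um_B_one (T : Finset (Finset α)) (f : α) :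
    um_B T f (fun _ => 1) = ((T.filter (f ∈ ·)).card : ℂ) := by
  simp [um_B]

theorem um_pair {T : Finset (Finset α)} {f e : α} (hef : e ≠ f) (h : um_HP T f) :
    ((T.filter (e ∈ ·)).filter (f ∈ ·)).card * ((T.filter (e ∉ ·)).filter (f ∉ ·)).card ≤
      ((T.filter (e ∈ ·)).filter (f ∉ ·)).card * ((T.filter (e ∉ ·)).filter (f ∈ ·)).card := by
  have := h (Function.update (fun _ => 1) e Complex.I) (um_update_im (by simp) e (by simp))
  have hu : Function.update (fun _ : α => (1 : ℂ)) e 1 = fun _ => 1 := by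
    funext j; by_cases hj : j = e <;> simp [hj]
  rw [um_A_update, um_B_update _ _ _ hef, hu, um_A_one, um_A_one, um_B_one, um_B_one] at this
  simp [Complex.mul_im, Complex.mul_re] at this
  have h2 : (((T.filter (e ∈ ·)).filter (f ∈ ·)).card * ((T.filter (e ∉ ·)).filter (f ∉ ·)).card : ℝ)
      ≤ ((T.filter (e ∈ ·)).filter (f ∉ ·)).card * ((T.filter (e ∉ ·)).filter (f ∈ ·)).card := by
    linarith
  exact_mod_cast h2

theorem um_card_split (T : Finset (Finset α)) (e : α) :
    T.card = (T.filter (e ∈ ·)).card + (T.filter (e ∉ ·)).card :=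
  (Finset.card_filter_add_card_filter_not (s := T) (e ∈ ·)).symm

theorem um_set (f : α) (F : Finset α) (hF : f ∉ F) : ∀ (T : Finset (Finset α)), um_HP T f →
    ((T.filter (F ⊆ ·)).filter (f ∈ ·)).card * (T.filter (f ∉ ·)).card ≤
      ((T.filter (F ⊆ ·)).filter (f ∉ ·)).card * (T.filter (f ∈ ·)).card := by
  induction F using Finset.induction_on with
  | empty => intro T _; simp [mul_comm]
  | insert e F0 he ih =>
    intro T hT
    have hef : e ≠ f := fun h => hF (h ▸ Finset.mem_insert_self _ _)
    have hF0 : f ∉ F0 := fun h => hF (Finset.mem_insert_of_mem h)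
    have h1 := ih hF0 _ (um_HP_con hef hT)
    have h2 := um_pair hef hT
    have hE : (T.filter (e ∈ ·)).filter (F0 ⊆ ·) = T.filter (insert e F0 ⊆ ·) := by
      ext S; simp [Finset.insert_subset_iff, and_assoc]
    rw [hE] at h1
    have hZ0 := um_card_split (T.filter (f ∉ ·)) e
    have hZ1 := um_card_split (T.filter (f ∈ ·)) e
    rw [Finset.filter_comm (f ∉ ·), Finset.filter_comm (f ∉ ·)] at hZ0
    rw [Finset.filter_comm (f ∈ ·), Finset.filter_comm (f ∈ ·)] at hZ1
    have hX1 : ((T.filter (insert e F0 ⊆ ·)).filter (f ∈ ·)).card ≤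
        ((T.filter (e ∈ ·)).filter (f ∈ ·)).card := by
      rw [← hE]
      exact Finset.card_le_card (Finset.filter_subset_filter _ (Finset.filter_subset _ _))
    rw [hZ0, hZ1]
    set X1 := ((T.filter (insert e F0 ⊆ ·)).filter (f ∈ ·)).card
    set X0 := ((T.filter (insert e F0 ⊆ ·)).filter (f ∉ ·)).card
    set Y1 := ((T.filter (e ∈ ·)).filter (f ∈ ·)).card
    set Y0 := ((T.filter (e ∈ ·)).filter (f ∉ ·)).card
    set W1 := ((T.filter (e ∉ ·)).filter (f ∈ ·)).card
    set W0 := ((T.filter (e ∉ ·)).filter (f ∉ ·)).card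
    rcases Nat.eq_zero_or_pos Y0 with hY | hY
    · rw [hY] at h2 ⊢
      have h3 : X1 * W0 = 0 := by
        have : X1 * W0 ≤ Y1 * W0 := Nat.mul_le_mul_right _ hX1
        omega
      simp [h3]
    · apply Nat.le_of_mul_le_mul_right _ hY
      have h3 : X1 * Y0 * W0 ≤ X0 * Y1 * W0 := Nat.mul_le_mul_right _ h1
      have h4 : X0 * (Y1 * W0) ≤ X0 * (Y0 * W1) := Nat.mul_le_mul_left _ h2
      have h5 : X1 * Y0 * Y0 ≤ X0 * Y1 * Y0 := Nat.mul_le_mul_right _ h1
      nlinarith

/-- Fraction of the members of `T` containing `F`. -/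
noncomputable def um_frac (T : Finset (Finset α)) (F : Finset α) : ℝ :=
  ((T.filter (F ⊆ ·)).card : ℝ) / T.card

theorem um_frac_del {T : Finset (Finset α)} {f : α} {F : Finset α} (hF : f ∉ F) (h : um_HP T f)
    (hne : (T.filter (f ∉ ·)).Nonempty) : um_frac T F ≤ um_frac (T.filter (f ∉ ·)) F := by
  have h1 := um_set f F hF T h
  have hZ := um_card_split T f
  have hX := um_card_split (T.filter (F ⊆ ·)) f
  have hpos : 0 < (T.filter (f ∉ ·)).card := hne.card_pos
  unfold um_frac
  rw [Finset.filter_comm (f ∉ ·), hZ, hX, div_le_div_iff₀ (by positivity) (by positivity)]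
  have h2 : ((((T.filter (F ⊆ ·)).filter (f ∈ ·)).card * (T.filter (f ∉ ·)).card : ℕ) : ℝ) ≤
      ((((T.filter (F ⊆ ·)).filter (f ∉ ·)).card * (T.filter (f ∈ ·)).card : ℕ) : ℝ) := by
    exact_mod_cast h1
  push_cast at h2 ⊢
  nlinarith

theorem um_frac_del_set {F : Finset α} (D : Finset α) (hD : Disjoint D F) :
    ∀ T : Finset (Finset α), (∀ f ∈ D, um_HP T f) → (T.filter (Disjoint D ·)).Nonempty →
      um_frac T F ≤ um_frac (T.filter (Disjoint D ·)) F := by
  induction D using Finset.induction_on with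
  | empty => intro T _ _; simp
  | insert f D0 hf ih =>
    intro T hT hne
    have hE : (T.filter (f ∉ ·)).filter (Disjoint D0 ·) = T.filter (Disjoint (insert f D0) ·) := by
      ext S; simp [Finset.disjoint_insert_left, and_assoc]
    rw [Finset.disjoint_insert_left] at hD
    rw [← hE] at hne ⊢
    refine (um_frac_del hD.1 (hT f (Finset.mem_insert_self _ _))
      (hne.mono (Finset.filter_subset _ _))).trans (ih hD.2 _ ?_ hne)
    intro g hg
    exact um_HP_del (fun h => hf (h ▸ hg)) (hT g (Finset.mem_insert_of_mem hg))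

end Abstract

section Graph

variable {V : Type*}

open SimpleGraph

theorem um_support {G : SimpleGraph V} {S : Finset V} {A : Finset (Sym2 V)}
    (hA : A ⊆ edgesIn G S) {x y : V} (h : (fromEdgeSet (A : Set (Sym2 V))).Adj x y) :
    x ∈ S ∧ y ∈ S := by
  rw [fromEdgeSet_adj] at h
  have := (mem_edgesIn.1 (hA (by exact_mod_cast h.1))).2
  exact ⟨this x (by simp), this y (by simp)⟩

theorem um_conn_iff {G : SimpleGraph V} {S : Finset V} {A : Finset (Sym2 V)}
    (hA : A ⊆ edgesIn G S) :
    ((fromEdgeSet (A : Set (Sym2 V))).induce (S : Set V)).Connected ↔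
      S.Nonempty ∧ ∀ x ∈ S, ∀ y ∈ S, (fromEdgeSet (A : Set (Sym2 V))).Reachable x y := by
  constructor
  · intro h
    obtain ⟨⟨x, hx⟩⟩ := h.nonempty
    refine ⟨⟨x, hx⟩, fun x hx y hy => ?_⟩
    exact (h.preconnected ⟨x, hx⟩ ⟨y, hy⟩).map (Embedding.induce _).toHom
  · rintro ⟨⟨x0, hx0⟩, h⟩
    have : Nonempty (S : Set V) := ⟨⟨x0, hx0⟩⟩
    refine ⟨fun ⟨x, hx⟩ ⟨y, hy⟩ => ?_⟩
    have hr := h x hx y hy
    rw [reachable_iff_reflTransGen] at hr
    induction hr with
    | refl => exact Reachable.refl _
    | tail _ hbc ih =>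
      have hb := (um_support hA hbc).1
      exact (ih hb).trans (Adj.reachable (by simpa using hbc))

theorem um_card_edges {G : SimpleGraph V} {S : Finset V} {A : Finset (Sym2 V)}
    (hA : A ⊆ edgesIn G S) :
    Nat.card ((fromEdgeSet (A : Set (Sym2 V))).induce (S : Set V)).edgeSet = A.card := by
  rw [← Nat.card_eq_finsetCard]
  refine Nat.card_congr (Equiv.ofBijective
    (fun e => ⟨Sym2.map Subtype.val e.1, ?_⟩) ⟨?_, ?_⟩)
  · obtain ⟨e, he⟩ := e
    induction e using Sym2.ind with
    | _ x y =>
      have : (fromEdgeSet (A : Set (Sym2 V))).Adj x y := by simpa using he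
      rw [fromEdgeSet_adj] at this
      simpa using this.1
  · intro e e' h
    exact Subtype.ext (Sym2.map.injective Subtype.val_injective (congrArg Subtype.val h))
  · rintro ⟨e, he⟩
    induction e using Sym2.ind with
    | _ x y =>
      have h1 := mem_edgesIn.1 (hA he)
      have hxy : x ≠ y := (G.mem_edgeSet.1 h1.1).ne
      refine ⟨⟨s(⟨x, h1.2 x (by simp)⟩, ⟨y, h1.2 y (by simp)⟩), ?_⟩, rfl⟩
      simp [he, hxy]

theorem um_tree_iff {G : SimpleGraph V} {S : Finset V} {A : Finset (Sym2 V)} :
    A ∈ trees G S ↔ A ⊆ edgesIn G S ∧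
      (S.Nonempty ∧ ∀ x ∈ S, ∀ y ∈ S, (fromEdgeSet (A : Set (Sym2 V))).Reachable x y) ∧
        A.card + 1 = S.card := by
  rw [mem_trees, IsSpanningTreeOn]
  refine and_congr_right fun hA => ?_
  rw [isTree_iff_connected_and_card, um_conn_iff hA, um_card_edges hA]
  simp

theorem um_edgesIn_mono {G : SimpleGraph V} {S S' : Finset V} (h : S ⊆ S') :
    edgesIn G S ⊆ edgesIn G S' := fun _ he =>
  mem_edgesIn.2 ⟨(mem_edgesIn.1 he).1, fun v hv => h ((mem_edgesIn.1 he).2 v hv)⟩

theorem um_notMem_edgesIn {G : SimpleGraph V} {S : Finset V} {v u : V} (hv : v ∉ S) :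
    s(v, u) ∉ edgesIn G S := fun h => hv ((mem_edgesIn.1 h).2 v (by simp))

variable [DecidableEq V]

theorem um_insert_tree {G : SimpleGraph V} {S : Finset V} {v u : V} (hv : v ∉ S) (hu : u ∈ S)
    (hadj : G.Adj v u) {A : Finset (Sym2 V)} (hA : A ⊆ edgesIn G S) :
    insert s(v, u) A ∈ trees G (insert v S) ↔ A ∈ trees G S := by
  have hnot : s(v, u) ∉ A := fun h => um_notMem_edgesIn hv (hA h)
  have hsub : insert s(v, u) A ⊆ edgesIn G (insert v S) := by
    refine Finset.insert_subset (mem_edgesIn.2 ⟨hadj, ?_⟩)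
      (hA.trans (um_edgesIn_mono (Finset.subset_insert _ _)))
    intro w hw
    rcases Sym2.mem_iff.1 hw with rfl | rfl
    · exact Finset.mem_insert_self _ _
    · exact Finset.mem_insert_of_mem hu
  rw [um_tree_iff, um_tree_iff, Finset.card_insert_of_notMem hnot, Finset.card_insert_of_notMem hv]
  have hle : fromEdgeSet (A : Set (Sym2 V)) ≤ fromEdgeSet ((insert s(v, u) A : Finset _) : Set _) :=
    fromEdgeSet_mono (by simp)
  constructor
  · rintro ⟨-, ⟨-, hr⟩, hc⟩
    refine ⟨hA, ⟨⟨u, hu⟩, fun x hx y hy => ?_⟩, by omega⟩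
    have key : ∀ a b : V,
        (fromEdgeSet ((insert s(v, u) A : Finset _) : Set (Sym2 V))).Reachable a b →
        (fromEdgeSet (A : Set (Sym2 V))).Reachable (if a = v then u else a)
          (if b = v then u else b) := by
      intro a b hab
      rw [reachable_iff_reflTransGen] at hab
      induction hab with
      | refl => exact Reachable.refl _
      | @tail b c _ hbc ih =>
        refine ih.trans ?_
        rw [fromEdgeSet_adj] at hbc
        have huv : u ≠ v := hadj.ne'
        rcases Finset.mem_insert.1 (by exact_mod_cast hbc.1) with h | h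
        · rcases Sym2.eq_iff.1 h with ⟨rfl, rfl⟩ | ⟨rfl, rfl⟩
          · simp [huv]
          · simp [huv]
        · have hadj' : (fromEdgeSet (A : Set (Sym2 V))).Adj b c := by
            rw [fromEdgeSet_adj]; exact ⟨by exact_mod_cast h, hbc.2⟩
          obtain ⟨hb, hc⟩ := um_support hA hadj'
          have hb' : b ≠ v := fun h => hv (h ▸ hb)
          have hc' : c ≠ v := fun h => hv (h ▸ hc)
          rw [if_neg hb', if_neg hc']
          exact hadj'.reachable
    have := key x y (hr x (Finset.mem_insert_of_mem hx) y (Finset.mem_insert_of_mem hy))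
    have hx' : x ≠ v := fun h => hv (h ▸ hx)
    have hy' : y ≠ v := fun h => hv (h ▸ hy)
    rwa [if_neg hx', if_neg hy'] at this
  · rintro ⟨-, ⟨-, hr⟩, hc⟩
    refine ⟨hsub, ⟨⟨v, Finset.mem_insert_self _ _⟩, ?_⟩, by omega⟩
    have key : ∀ x ∈ insert v S,
        (fromEdgeSet ((insert s(v, u) A : Finset _) : Set (Sym2 V))).Reachable x u := by
      intro x hx
      rcases Finset.mem_insert.1 hx with rfl | hx
      · exact Adj.reachable (by simp [hadj.ne])
      · exact (hr x hx u hu).mono hle
    exact fun x hx y hy => (key x hx).trans (key y hy).symm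

theorem um_step (G : SimpleGraph V) {S : Finset V} {v u : V} (hv : v ∉ S) (hu : u ∈ S)
    (hadj : G.Adj v u) (hne : (trees G S).Nonempty)
    (hstab : Stable (trees G (insert v S)) (fun _ => 1)) {F : Finset (Sym2 V)}
    (hF : F ⊆ edgesIn G S) :
    um_frac (trees G (insert v S)) F ≤ um_frac (trees G S) F := by
  set D : Finset (Sym2 V) := ((edgesIn G (insert v S)).filter (v ∈ ·)).erase s(v, u) with hD
  have hDS : ∀ e ∈ edgesIn G S, e ∉ D := by
    intro e he h
    simp only [hD, Finset.mem_erase, Finset.mem_filter] at h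
    exact hv ((mem_edgesIn.1 he).2 v h.2.2)
  have hsubT : ∀ A ∈ trees G S, A ⊆ edgesIn G S := fun A hA => (um_tree_iff.1 hA).1
  have hnot : ∀ A ∈ trees G S, s(v, u) ∉ A := fun A hA h => um_notMem_edgesIn hv (hsubT A hA h)
  have himg : (trees G (insert v S)).filter (Disjoint D ·) =
      (trees G S).image (insert s(v, u)) := by
    ext A'
    simp only [Finset.mem_filter, Finset.mem_image]
    constructor
    · rintro ⟨hA', hdis⟩
      obtain ⟨hsub, ⟨-, hr⟩, -⟩ := um_tree_iff.1 hA'
      have hedge : ∀ e ∈ A', v ∈ e → e = s(v, u) := by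
        intro e he hve
        by_contra hne
        exact Finset.disjoint_left.1 hdis
          (by simp only [hD, Finset.mem_erase, Finset.mem_filter]; exact ⟨hne, hsub he, hve⟩) he
      have hmem : s(v, u) ∈ A' := by
        obtain ⟨p⟩ := hr v (Finset.mem_insert_self _ _) u (Finset.mem_insert_of_mem hu)
        cases p with
        | nil => exact absurd hu hv
        | @cons _ w _ h _ =>
          rw [fromEdgeSet_adj] at h
          have h1 : s(v, w) ∈ A' := by exact_mod_cast h.1
          rwa [← hedge _ h1 (by simp)]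
      have hsub' : A'.erase s(v, u) ⊆ edgesIn G S := by
        intro e he
        rw [Finset.mem_erase] at he
        have h1 := mem_edgesIn.1 (hsub he.2)
        refine mem_edgesIn.2 ⟨h1.1, fun w hw => ?_⟩
        rcases Finset.mem_insert.1 (h1.2 w hw) with rfl | h
        · exact absurd (hedge e he.2 hw) he.1
        · exact h
      refine ⟨A'.erase s(v, u), ?_, Finset.insert_erase hmem⟩
      rw [← um_insert_tree hv hu hadj hsub', Finset.insert_erase hmem]
      exact hA'
    · rintro ⟨A, hA, rfl⟩
      refine ⟨(um_insert_tree hv hu hadj (hsubT A hA)).2 hA, ?_⟩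
      rw [Finset.disjoint_insert_right]
      exact ⟨by simp [hD], Finset.disjoint_right.2 fun e he => hDS e (hsubT A hA he)⟩
  have hinj : Set.InjOn (insert s(v, u)) (trees G S : Set (Finset (Sym2 V))) := by
    intro A hA B hB h
    rw [← Finset.erase_insert (hnot A hA), ← Finset.erase_insert (hnot B hB), h]
  have h1 := um_frac_del_set (F := F) D (Finset.disjoint_right.2 fun e he => hDS e (hF he))
    (trees G (insert v S)) (fun f _ => um_HP_of_stable _ hstab f)
    (by rw [himg]; exact hne.image _)
  refine h1.trans (le_of_eq ?_)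
  rw [himg]
  unfold um_frac
  rw [Finset.card_image_of_injOn hinj, Finset.filter_image,
    Finset.card_image_of_injOn (hinj.mono (by intro A hA; exact (Finset.mem_filter.1 hA).1))]
  congr 3
  refine Finset.filter_congr fun A _ => ?_
  exact Finset.subset_insert_iff_of_notMem fun h => um_notMem_edgesIn hv (hF h)

omit [DecidableEq V] in
theorem um_nonempty_of_stable {T : Finset (Finset V)} (h : Stable T (fun _ => 1)) :
    T.Nonempty := by
  rw [Finset.nonempty_iff_ne_empty]
  rintro rfl
  exact h (fun _ => Complex.I) (by simp) (by simp)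

omit [DecidableEq V] in
theorem um_exists_adj (G : SimpleGraph V) {S S' : Finset V} (hSS' : S ⊆ S') (hS : S.Nonempty)
    (hS' : (G.induce (S' : Set V)).Connected) (hne : S ≠ S') :
    ∃ v ∈ S', v ∉ S ∧ ∃ u ∈ S, G.Adj v u := by
  obtain ⟨x, hx⟩ := hS
  obtain ⟨y, hy, hyS⟩ := Finset.exists_of_ssubset (hSS'.ssubset_of_ne hne)
  by_contra hcon
  push Not at hcon
  have key : ∀ b : (S' : Set V), (G.induce (S' : Set V)).Reachable ⟨x, hSS' hx⟩ b → b.1 ∈ S := by
    intro b hb
    rw [reachable_iff_reflTransGen] at hb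
    induction hb with
    | refl => exact hx
    | @tail b c _ hbc ih =>
      by_contra hc
      exact hcon c.1 c.2 hc b.1 ih (by simpa using hbc.symm)
  exact hyS (key ⟨y, hy⟩ (hS'.preconnected _ _))

theorem um_conn_insert (G : SimpleGraph V) {S : Finset V} {v u : V} (hu : u ∈ S)
    (hadj : G.Adj v u) (hS : (G.induce (S : Set V)).Connected) :
    (G.induce ((insert v S : Finset V) : Set V)).Connected := by
  have hsub : (S : Set V) ⊆ ((insert v S : Finset V) : Set V) := by simp
  rw [connected_iff_exists_forall_reachable]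
  refine ⟨⟨u, hsub hu⟩, fun ⟨w, hw⟩ => ?_⟩
  rcases Finset.mem_insert.1 (by exact_mod_cast hw) with rfl | h
  · exact Adj.reachable (by simpa using hadj.symm)
  · exact (hS.preconnected ⟨u, hu⟩ ⟨w, h⟩).map (G.induceHomOfLE hsub).toHom

end Graph

theorem ustContains_anti_of_stable {V : Type*} (G : SimpleGraph V)
    (hstab : ∀ S : Finset V, (G.induce (S : Set V)).Connected → Stable (trees G S) (fun _ => 1))
    {S S' : Finset V} (hSS' : S ⊆ S') (hS : (G.induce (S : Set V)).Connected)
    (hS' : (G.induce (S' : Set V)).Connected) {F : Finset (Sym2 V)} (hF : F ⊆ edgesIn G S) :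
    ustContains G S' F ≤ ustContains G S F := by
  classical
  have heq : ∀ S : Finset V, ustContains G S F = um_frac (trees G S) F := by
    intro S
    rw [ustContains_eq]
    unfold um_frac
    congr
  rw [heq, heq]
  clear heq
  induction hn : S'.card - S.card generalizing S with
  | zero =>
    have : S = S' := Finset.eq_of_subset_of_card_le hSS' (by omega)
    rw [this]
  | succ n ih =>
    have hne : S ≠ S' := by rintro rfl; omega
    obtain ⟨⟨x, hx⟩⟩ := hS.nonempty
    obtain ⟨v, hvS', hv, u, hu, hadj⟩ := um_exists_adj G hSS' ⟨x, hx⟩ hS' hne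
    have hc := um_conn_insert G hu hadj hS
    refine (ih (Finset.insert_subset hvS' hSS') hc
      (hF.trans (um_edgesIn_mono (Finset.subset_insert _ _))) ?_).trans
      (um_step G hv hu hadj (um_nonempty_of_stable (hstab S hS)) (hstab _ hc) hF)
    rw [Finset.card_insert_of_notMem hv]
    omega

end Crest.Agent.R168
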