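import Crest.Agent.R168.MeasTilt
import Crest.Agent.R168.MatrixTree
import Crest.Agent.R168.UstMono
import Crest.Agent.R168.GraphWindow

/-!
Row 168: the free uniform spanning forest measure as a weak limit point; its tilted marginals are
Lipschitz.
-/

set_option autoImplicit false

namespace Crest.Agent.R168

open MeasureTheory Set Filter Topology Crest.ProbabilityR.SpanningTrees

variable {V : Type*}

open Classical in
/-- The configuration of a finite set. -/
noncomputable def conf (A : Finset V) (j : V) : Bool := decide (j ∈ A)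

/-- The uniform law on a finite family of finite sets. -/
noncomputable def famMeasure (T : Finset (Finset V)) : Measure (V → Bool) :=
  (T.card : ENNReal)⁻¹ • ∑ A ∈ T, Measure.dirac (conf A)

theorem famMeasure_prob {T : Finset (Finset V)} (hT : T.Nonempty) :
    IsProbabilityMeasure (famMeasure T) := by
  constructor
  have : (T.card : ENNReal) ≠ 0 := by exact_mod_cast hT.card_pos.ne'
  simp [famMeasure, Measure.finsetSum_apply, ENNReal.inv_mul_cancel this]

theorem integral_famMeasure [Countable V] (T : Finset (Finset V)) (f : (V → Bool) → ℝ) :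
    ∫ x, f x ∂(famMeasure T) = (∑ A ∈ T, f (conf A)) / T.card := by
  rw [famMeasure, integral_smul_measure, integral_finsetSum_measure
    (fun A _ => integrable_dirac (by simp))]
  simp [div_eq_inv_mul]

theorem Stable.nonempty {T : Finset (Finset V)} {c : Finset V → ℝ} (h : Stable T c) :
    T.Nonempty := by
  rw [Finset.nonempty_iff_ne_empty]
  rintro rfl
  exact h (fun _ => Complex.I) (by simp) (by simp)

theorem lipTilt_famMeasure [Countable V] {T : Finset (Finset V)} (hT : Stable T (fun _ => 1)) :
    LipTilt (famMeasure T) := by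
  classical
  have hc : (T.card : ℝ) ≠ 0 := by exact_mod_cast hT.nonempty.card_pos.ne'
  have key : ∀ F i h, tiltM (famMeasure T) F i h =
      tilt T (fun _ => 1) i (fun j => if j ∈ F then h j else 0) := by
    intro F i h
    have hw : ∀ A : Finset V, wt F h (conf A) =
        Real.exp (∑ j ∈ A, if j ∈ F then h j else 0) := by
      intro A
      unfold wt
      congr 1
      rw [Finset.sum_ite_mem, Finset.inter_comm, ← Finset.sum_ite_mem]
      simp [conf]
    unfold tiltM tilt
    rw [integral_famMeasure, integral_famMeasure, div_div_div_cancel_right₀ hc]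
    simp only [hw, one_mul]
    congr 1
    refine Finset.sum_congr rfl fun A _ => ?_
    by_cases hi : i ∈ A <;> simp [bit, conf, hi]
  intro F i h h' δ hδ
  rw [key, key]
  refine hT.tilt_lipschitz (fun _ _ => zero_le_one) i fun j => ?_
  split_ifs
  · exact hδ j
  · simpa using (abs_nonneg _).trans (hδ j)

theorem incl_eq_integral (ν : Measure (V → Bool)) (R : Finset V) :
    incl ν R = ∫ x, ∏ j ∈ R, bit j x ∂ν := by
  rw [incl, ← integral_indicator_one (measurableSet_incl R)]
  congr 1
  funext x
  by_cases hx : x ∈ {ω : V → Bool | ∀ j ∈ R, ω j = true}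
  · rw [indicator_of_mem hx]
    exact (Finset.prod_eq_one fun j hj => by simp [bit, hx j hj]).symm
  · rw [indicator_of_notMem hx]
    simp only [mem_ofPred_eq, not_forall] at hx
    obtain ⟨j, hj, hxj⟩ := hx
    exact (Finset.prod_eq_zero hj (by simp [bit, hxj])).symm

open Classical in
theorem incl_famMeasure [Countable V] (T : Finset (Finset V)) (R : Finset V) :
    incl (famMeasure T) R = ((T.filter (fun A => R ⊆ A)).card : ℝ) / T.card := by
  rw [incl_eq_integral, integral_famMeasure, Finset.card_filter]
  congr 1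
  push_cast
  refine Finset.sum_congr rfl fun A _ => ?_
  split_ifs with h
  · exact Finset.prod_eq_one fun j hj => by simp [bit, conf, h hj]
  · obtain ⟨j, hj, hjA⟩ := Finset.not_subset.1 h
    exact Finset.prod_eq_zero hj (by simp [bit, conf, hjA])

theorem continuous_bit (i : V) : Continuous (bit i) :=
  (continuous_of_discreteTopology (f := fun b : Bool => if b then (1 : ℝ) else 0)).comp
    (continuous_apply i)

theorem continuous_wt (F : Finset V) (h : V → ℝ) : Continuous (wt F h) := by
  unfold wt
  refine Real.continuous_exp.comp (continuous_finsetSum _ fun j _ => ?_)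
  exact (continuous_of_discreteTopology (f := fun b : Bool => if b then h j else 0)).comp
    (continuous_apply j)

theorem integral_wt_pos (ν : Measure (V → Bool)) [IsProbabilityMeasure ν] (F : Finset V)
    (h : V → ℝ) : 0 < ∫ x, wt F h x ∂ν := by
  rw [integral_pos_iff_support_of_nonneg (fun x => (wt_pos F h x).le) (integrable_wt ν F h)]
  have : Function.support (wt F h) = univ := by
    ext x; simp [(wt_pos F h x).ne']
  rw [this]; simp

theorem exists_limit_measure [Countable V] (μ : ℕ → ProbabilityMeasure (V → Bool))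
    (hμ : ∀ n, LipTilt (μ n : Measure (V → Bool))) :
    ∃ ν : Measure (V → Bool), IsProbabilityMeasure ν ∧ LipTilt ν ∧
      ∀ (R : Finset V) (c : ℝ),
        Tendsto (fun n => incl (μ n : Measure (V → Bool)) R) atTop (𝓝 c) → incl ν R = c := by
  obtain ⟨ν, -, hν⟩ := isCompact_univ.ultrafilter_le_nhds ((hyperfilter ℕ).map μ) (by simp)
  have hν' : Tendsto μ (hyperfilter ℕ) (𝓝 ν) := hν
  have hint : ∀ f : (V → Bool) → ℝ, Continuous f →
      Tendsto (fun n => ∫ x, f x ∂(μ n : Measure (V → Bool))) (hyperfilter ℕ)
        (𝓝 (∫ x, f x ∂(ν : Measure (V → Bool)))) := fun f hf =>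
    ProbabilityMeasure.tendsto_iff_forall_integral_tendsto.1 hν'
      (BoundedContinuousFunction.mkOfCompact ⟨f, hf⟩)
  have htilt : ∀ F i h, Tendsto (fun n => tiltM (μ n : Measure (V → Bool)) F i h) (hyperfilter ℕ)
      (𝓝 (tiltM (ν : Measure (V → Bool)) F i h)) := fun F i h =>
    (hint _ ((continuous_bit i).mul (continuous_wt F h))).div (hint _ (continuous_wt F h))
      (integral_wt_pos _ F h).ne'
  refine ⟨ν, inferInstance, fun F i h h' δ hδ => ?_, fun R c hc => ?_⟩
  · exact le_of_tendsto' ((htilt F i h).sub (htilt F i h')).abs fun n => hμ n F i h h' δ hδ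
  · have h1 := hint (fun x => ∏ j ∈ R, bit j x)
      (continuous_finsetProd _ fun j _ => continuous_bit j)
    simp only [← incl_eq_integral] at h1
    exact tendsto_nhds_unique h1 (hc.mono_left Nat.hyperfilter_le_atTop)

theorem tendsto_ust (G : SimpleGraph ℕ) (S : ℕ → Finset ℕ) (hmono : Monotone S)
    (hex : ∀ v : ℕ, ∃ n, v ∈ S n) (hconn : ∀ n, (G.induce (S n : Set ℕ)).Connected)
    (F : Finset (Sym2 ℕ)) (hF : (↑F : Set (Sym2 ℕ)) ⊆ G.edgeSet) :
    Tendsto (fun n => ustContains G (S n) F) atTop (𝓝 (muG G F)) :=
  tendsto_ustContains_muG G (fun _ _ h1 h2 h3 _ h4 =>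
    ustContains_anti_of_stable G (stable_trees G) h1 h2 h3 h4) S hmono hex hconn F hF

theorem exists_fusf (G : SimpleGraph ℕ) (S : ℕ → Finset ℕ) (hmono : Monotone S)
    (hex : ∀ v : ℕ, ∃ n, v ∈ S n) (hconn : ∀ n, (G.induce (S n : Set ℕ)).Connected) :
    ∃ ν : Measure (Sym2 ℕ → Bool), IsProbabilityMeasure ν ∧ LipTilt ν ∧
      ∀ R : Finset (Sym2 ℕ), (↑R : Set (Sym2 ℕ)) ⊆ G.edgeSet → incl ν R = muG G R := by
  obtain ⟨ν, h1, h2, h3⟩ := exists_limit_measure
    (fun n => ⟨famMeasure (trees G (S n)), famMeasure_prob (stable_trees G _ (hconn n)).nonempty⟩)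
    (fun n => lipTilt_famMeasure (stable_trees G _ (hconn n)))
  refine ⟨ν, h1, h2, fun R hR => h3 R _ ?_⟩
  refine (tendsto_ust G S hmono hex hconn R hR).congr fun n => ?_
  show _ = incl (famMeasure (trees G (S n))) R
  rw [ustContains_eq, incl_famMeasure]
  congr!

end Crest.Agent.R168
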