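import Crest.Agent.R168.Bayes

/-!
Row 168: the innovations are independent and uniform; the law of the output.
-/

set_option autoImplicit false

namespace Crest.Agent.R168

open MeasureTheory Set Filter Topology ProbabilityTheory

variable {V : Type*}

open Classical in
/-- The observations revealed before `a` (the others are replaced by zero). -/
noncomputable def past (r : V → V → Prop) (a : V × ℕ) (Y : V × ℕ → ℝ) (c : V × ℕ) : ℝ :=
  if prec r c a then Y c else 0

theorem measurable_past (r : V → V → Prop) (a : V × ℕ) : Measurable (past r a) := by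
  refine measurable_pi_iff.2 fun c => ?_
  unfold past
  split_ifs
  · fun_prop
  · exact measurable_const

theorem field_past (r : V → V → Prop) {a b : V × ℕ} (hb : ∀ c, prec r c b → prec r c a)
    (Y : V × ℕ → ℝ) : field r (past r a Y) b = field r Y b := by
  funext j
  unfold field
  refine Finset.sum_congr rfl fun l _ => ?_
  split_ifs with h
  · simp [past, hb _ h]
  · rfl

theorem prob_past (q : V → ℕ → (V → ℝ) → ℝ) (r : V → V → Prop) {a b : V × ℕ}
    (hb : ∀ c, prec r c b → prec r c a) (Y : V × ℕ → ℝ) :
    prob q r (past r a Y) b = prob q r Y b := by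
  simp only [prob, field_past r hb]

theorem measurable_prob' {q : V → ℕ → (V → ℝ) → ℝ} (hq : ∀ i n, Measurable (q i n))
    (r : V → V → Prop) (a : V × ℕ) : Measurable fun Y => prob q r Y a :=
  measurable_prob (Θ := V × ℕ → ℝ) (q := fun _ => q) (r := fun _ => r)
    (fun i n => (hq i n).comp measurable_snd) (fun _ _ => MeasurableSet.const _) measurable_id a

/-- The filtration of the observations before `a` in growing windows. -/
noncomputable def filt (r : V → V → Prop) (F : ℕ → Finset V) (hF : Monotone F) (a : V × ℕ) :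
    Filtration ℕ (inferInstance : MeasurableSpace ((V → Bool) × (V × ℕ → ℝ × ℝ))) where
  seq n := MeasurableSpace.comap (fun ω => (pastSet r (F n) a).restrict (obs ω)) inferInstance
  mono' := by
    intro m n hmn
    have hsub : pastSet r (F m) a ⊆ pastSet r (F n) a := by
      intro c hc
      rw [mem_pastSet] at hc ⊢
      exact ⟨hF hmn hc.1, hc.2⟩
    refine Measurable.comap_le ?_
    exact (Finset.measurable_restrict₂ (X := fun _ => ℝ) hsub).comp (comap_measurable _)
  le' n := ((Finset.measurable_restrict _).comp measurable_obs).comap_le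

theorem iSup_filt (r : V → V → Prop) (F : ℕ → Finset V) (hF : Monotone F)
    (hex : ∀ j, ∃ n, j ∈ F n) (a : V × ℕ) :
    ⨆ n, filt r F hF a n = MeasurableSpace.comap (fun ω => past r a (obs ω)) inferInstance := by
  refine le_antisymm (iSup_le fun n => ?_) ?_
  · refine Measurable.comap_le ?_
    have : (fun ω => (pastSet r (F n) a).restrict (obs ω)) =
        (pastSet r (F n) a).restrict ∘ fun ω => past r a (obs ω) := by
      funext ω c
      simp [past, (mem_pastSet.1 c.2).2]
    rw [this]
    exact (Finset.measurable_restrict _).comp (comap_measurable _)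
  · refine Measurable.comap_le ?_
    refine (@measurable_pi_iff _ _ (fun _ : V × ℕ => ℝ) (⨆ n, filt r F hF a n) _ _).2 fun c => ?_
    unfold past
    split_ifs with h
    · obtain ⟨n, hn⟩ := hex c.1
      have hc : c ∈ pastSet r (F n) a := mem_pastSet.2 ⟨hn, h⟩
      refine Measurable.mono (ma := filt r F hF a n) ?_ (le_iSup _ n) le_rfl
      exact (measurable_pi_apply (X := fun _ : pastSet r (F n) a => ℝ) ⟨c, hc⟩).comp
        (comap_measurable _)
    · exact measurable_const

theorem prob_ae_eq_condExp (ν : Measure (V → Bool)) [IsProbabilityMeasure ν]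
    {F : V → ℕ → Finset V} (hF : ∀ i, Monotone (F i)) (hex : ∀ i j, ∃ n, j ∈ F i n)
    (r : V → V → Prop) (a : V × ℕ) :
    (fun ω => prob (fun i n => tiltM ν (F i n) i) r (obs ω) a) =ᵐ[ν.prod (noise V)]
      (ν.prod (noise V))[fun ω => bit a.1 ω.1 |
        MeasurableSpace.comap (fun ω => past r a (obs ω)) inferInstance] := by
  have h1 := tendsto_ae_condExp (μ := ν.prod (noise V)) (ℱ := filt r (F a.1) (hF a.1) a)
    (fun ω => bit a.1 ω.1)
  rw [iSup_filt r (F a.1) (hF a.1) (hex a.1) a] at h1
  have h2 := ae_all_iff.2 fun n => post_ae_eq_condExp ν (pastSet r (F a.1 n) a) a.1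
  filter_upwards [h1, h2] with ω h1 h2
  refine Tendsto.limsup_eq (h1.congr fun n => ?_)
  exact (h2 n).symm.trans (tiltM_field ν r (F a.1 n) a a.1 (obs ω)).symm

/-! ### Resampling one coordinate -/

theorem infinitePi_resample {ι X : Type*} [DecidableEq ι] [MeasurableSpace X] (m : Measure X)
    [IsProbabilityMeasure m] (a : ι) :
    ((Measure.infinitePi fun _ : ι => m).prod m).map (fun p => Function.update p.1 a p.2) =
      Measure.infinitePi fun _ : ι => m := by
  refine Measure.eq_infinitePi _ fun s t ht => ?_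
  rw [Measure.map_apply measurable_update' (MeasurableSet.pi s.countable_toSet fun i _ => ht i)]
  by_cases ha : a ∈ s
  · have : (fun p : (ι → X) × X => Function.update p.1 a p.2) ⁻¹' Set.pi s t =
        (Set.pi (s.erase a) t) ×ˢ t a := by
      ext p
      simp only [mem_preimage, Set.mem_pi, Finset.mem_coe, mem_prod, Finset.mem_erase]
      constructor
      · intro h
        refine ⟨fun i hi => ?_, by simpa using h a ha⟩
        simpa [Function.update_of_ne hi.1] using h i hi.2
      · rintro ⟨h1, h2⟩ i hi
        by_cases hia : i = a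
        · subst hia; simpa using h2
        · simpa [Function.update_of_ne hia] using h1 i ⟨hia, hi⟩
    rw [this, Measure.prod_prod, Measure.infinitePi_pi _ fun i _ => ht i,
      Finset.prod_erase_mul _ _ ha]
  · have : (fun p : (ι → X) × X => Function.update p.1 a p.2) ⁻¹' Set.pi s t =
        (Set.pi s t) ×ˢ univ := by
      ext p
      simp only [mem_preimage, Set.mem_pi, Finset.mem_coe, mem_prod, mem_univ, and_true]
      refine forall₂_congr fun i hi => ?_
      rw [Function.update_of_ne (fun h : i = a => ha (h ▸ hi))]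
    rw [this, Measure.prod_prod, Measure.infinitePi_pi _ fun i _ => ht i]
    simp

theorem prod_resample {A ι X : Type*} [DecidableEq ι] [MeasurableSpace A] [MeasurableSpace X]
    (ν : Measure A) [IsProbabilityMeasure ν] (m : Measure X) [IsProbabilityMeasure m] (a : ι) :
    ((ν.prod (Measure.infinitePi fun _ : ι => m)).prod m).map
        (fun p => (p.1.1, Function.update p.1.2 a p.2)) =
      ν.prod (Measure.infinitePi fun _ : ι => m) := by
  have h1 : MeasurePreserving (fun p : (ι → X) × X => Function.update p.1 a p.2)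
      ((Measure.infinitePi fun _ : ι => m).prod m) (Measure.infinitePi fun _ : ι => m) :=
    ⟨measurable_update', infinitePi_resample m a⟩
  exact (((MeasurePreserving.id ν).prod h1).comp (measurePreserving_prodAssoc ν _ m)).map_eq

/-- The innovation at `a`. -/
noncomputable def innov (q : V → ℕ → (V → ℝ) → ℝ) (r : V → V → Prop) (Y : V × ℕ → ℝ)
    (a : V × ℕ) : ℝ := cdfp (prob q r Y a) (Y a)

theorem measurable_innov {q : V → ℕ → (V → ℝ) → ℝ} (hq : ∀ i n, Measurable (q i n))
    (r : V → V → Prop) : Measurable (innov q r) := by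
  refine measurable_pi_iff.2 fun a => ?_
  exact continuous_cdfp.measurable.comp ((measurable_prob' hq r a).prodMk (measurable_pi_apply a))

theorem innov_step (ν : Measure (V → Bool)) [IsProbabilityMeasure ν]
    {F : V → ℕ → Finset V} (hF : ∀ i, Monotone (F i)) (hex : ∀ i j, ∃ n, j ∈ F i n)
    (r : V → V → Prop) (hirr : ∀ i, ¬ r i i) (a : V × ℕ) {G : Set (V × ℕ → ℝ)}
    (hG : MeasurableSet G) {B : Set ℝ} (hB : MeasurableSet B) :
    (ν.prod (noise V)).real ({ω | past r a (obs ω) ∈ G} ∩
        {ω | innov (fun i n => tiltM ν (F i n) i) r (obs ω) a ∈ B}) =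
      (ν.prod (noise V)).real {ω | past r a (obs ω) ∈ G} * unif.real B := by
  classical
  set q : V → ℕ → (V → ℝ) → ℝ := fun i n => tiltM ν (F i n) i with hq
  have hqm : ∀ i n, Measurable (q i n) := fun i n => measurable_tiltM _ _ _
  have hq01 : ∀ i n h, 0 ≤ q i n h ∧ q i n h ≤ 1 := fun i n h => tiltM_mem01 _ _ _ _
  set P := ν.prod (noise V) with hP
  set p : (V → Bool) × (V × ℕ → ℝ × ℝ) → ℝ := fun ω => prob q r (obs ω) a with hp
  have hpm : Measurable p := (measurable_prob' hqm r a).comp measurable_obs
  have hpast : Measurable fun ω : (V → Bool) × (V × ℕ → ℝ × ℝ) => past r a (obs ω) :=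
    (measurable_past r a).comp measurable_obs
  set G' : Set ((V → Bool) × (V × ℕ → ℝ × ℝ)) := {ω | past r a (obs ω) ∈ G} with hG'
  have hG'm : MeasurableSet G' := hpast hG
  have hEm : MeasurableSet {ω : (V → Bool) × (V × ℕ → ℝ × ℝ) | innov q r (obs ω) a ∈ B} :=
    (measurable_pi_iff.1 ((measurable_innov hqm r).comp measurable_obs) a) hB
  -- the two conditional probabilities
  set φ : Bool → ℝ → ℝ := fun b t => (mb b).real (cdfp t ⁻¹' B) with hφ
  have hφm : ∀ b, Measurable (φ b) := fun b =>
    (measurable_measure_prodMk_left (continuous_cdfp.measurable hB)).ennreal_toReal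
  have hφ01 : ∀ b t, 0 ≤ φ b t ∧ φ b t ≤ 1 := fun b t => ⟨measureReal_nonneg, measureReal_le_one⟩
  have hnaa : ¬ prec r a a := by
    rintro (h | h)
    · exact lt_irrefl _ h
    · exact hirr _ h.2
  -- resampling
  set ρ : ((V → Bool) × (V × ℕ → ℝ × ℝ)) × (ℝ × ℝ) → (V → Bool) × (V × ℕ → ℝ × ℝ) :=
    fun z => (z.1.1, Function.update z.1.2 a z.2) with hρ
  have hρm : Measurable ρ := by
    refine (measurable_fst.comp measurable_fst).prodMk ?_
    exact measurable_update'.comp ((measurable_snd.comp measurable_fst).prodMk measurable_snd)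
  have hpastρ : ∀ z, past r a (obs (ρ z)) = past r a (obs z.1) := by
    intro z
    funext c
    unfold past
    split_ifs with h
    · have : c ≠ a := fun e => hnaa (e ▸ h)
      simp [hρ, obs, Function.update_of_ne this]
    · rfl
  have hpρ : ∀ z, p (ρ z) = p z.1 := by
    intro z
    simp only [hp]
    rw [← prob_past q r (a := a) (fun _ h => h), hpastρ, prob_past q r (fun _ h => h)]
  have step1 : P.real (G' ∩ {ω | innov q r (obs ω) a ∈ B}) =
      ∫ ω in G', φ (ω.1 a.1) (p ω) ∂P := by
    have hres : (P.prod (unif.prod m1)).map ρ = P := prod_resample ν (unif.prod m1) a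
    conv_lhs => rw [← hres]
    rw [measureReal_def, Measure.map_apply hρm (hG'm.inter hEm), ← measureReal_def,
      ← integral_indicator hG'm, ← integral_indicator_one (hρm (hG'm.inter hEm)), integral_prod
        ((ρ ⁻¹' (G' ∩ {ω | innov q r (obs ω) a ∈ B})).indicator 1)
        ((integrable_const (1 : ℝ)).indicator (hρm (hG'm.inter hEm)))]
    refine integral_congr_ae (Eventually.of_forall fun ω => ?_)
    simp only
    by_cases hω : ω ∈ G'
    · rw [indicator_of_mem hω]
      have : ∀ w : ℝ × ℝ, (ρ ⁻¹' (G' ∩ {ω | innov q r (obs ω) a ∈ B})).indicator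
          (1 : ((V → Bool) × (V × ℕ → ℝ × ℝ)) × (ℝ × ℝ) → ℝ) (ω, w) =
          (sel (ω.1 a.1) ⁻¹' (cdfp (p ω) ⁻¹' B)).indicator (1 : ℝ × ℝ → ℝ) w := by
        intro w
        have e1 : ρ (ω, w) ∈ G' := by
          simp only [hG', mem_ofPred_eq, hpastρ]; exact hω
        have e2 : innov q r (obs (ρ (ω, w))) a = cdfp (p ω) (sel (ω.1 a.1) w) := by
          have := hpρ (ω, w)
          simp only [hp] at this
          simp only [innov, this, hp]
          simp [hρ, obs]
        simp only [indicator, mem_preimage, mem_inter_iff, mem_ofPred_eq, e1, e2, true_and,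
          Pi.one_apply]
      simp only [this]
      have hc : Measurable (cdfp (p ω)) :=
        (continuous_cdfp.comp (Continuous.prodMk_right _)).measurable
      rw [integral_indicator_one (measurable_sel _ (hc hB)), hφ]
      simp only
      rw [← map_sel, measureReal_def, measureReal_def, Measure.map_apply (measurable_sel _) (hc hB)]
    · rw [indicator_of_notMem hω]
      have : ∀ w : ℝ × ℝ, (ρ ⁻¹' (G' ∩ {ω | innov q r (obs ω) a ∈ B})).indicator
          (1 : ((V → Bool) × (V × ℕ → ℝ × ℝ)) × (ℝ × ℝ) → ℝ) (ω, w) = 0 := by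
        intro w
        refine indicator_of_notMem (fun h => hω ?_) _
        have := h.1
        simp only [hG', mem_ofPred_eq, hpastρ] at this
        exact this
      simp only [this, integral_zero]
  rw [step1]
  -- conditioning
  set 𝒢 : MeasurableSpace ((V → Bool) × (V × ℕ → ℝ × ℝ)) :=
    MeasurableSpace.comap (fun ω => past r a (obs ω)) inferInstance with h𝒢
  have h𝒢le : 𝒢 ≤ Prod.instMeasurableSpace := hpast.comap_le
  have hG'𝒢 : MeasurableSet[𝒢] G' := ⟨G, hG, rfl⟩
  set d : (V → Bool) × (V × ℕ → ℝ × ℝ) → ℝ := fun ω => φ true (p ω) - φ false (p ω) with hd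
  have hp𝒢 : Measurable[𝒢] p := by
    have : p = (fun Y => prob q r Y a) ∘ fun ω => past r a (obs ω) := by
      funext ω
      simp only [hp, Function.comp, prob_past q r (a := a) (fun _ h => h)]
    rw [this]
    exact (measurable_prob' hqm r a).comp (comap_measurable _)
  have hd𝒢 : Measurable[𝒢] d := ((hφm true).comp hp𝒢).sub ((hφm false).comp hp𝒢)
  have hdb : ∀ ω, ‖d ω‖ ≤ 1 := by
    intro ω
    have := hφ01 true (p ω)
    have := hφ01 false (p ω)
    simp only [hd, Real.norm_eq_abs]
    rw [abs_le]; constructor <;> linarith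
  have hbitm : @Measurable _ _ Prod.instMeasurableSpace _
      fun ω : (V → Bool) × (V × ℕ → ℝ × ℝ) => bit a.1 ω.1 :=
    (measurable_bit a.1).comp measurable_fst
  have hbit : Integrable (fun ω : (V → Bool) × (V × ℕ → ℝ × ℝ) => bit a.1 ω.1) P :=
    Integrable.of_bound hbitm.aestronglyMeasurable 1 (Eventually.of_forall fun ω => by
      rw [Real.norm_eq_abs, abs_of_nonneg (bit_nonneg _ _)]; exact bit_le_one _ _)
  have hdm : @Measurable _ _ Prod.instMeasurableSpace _ d := hd𝒢.mono h𝒢le le_rfl
  have hdbit : Integrable (d * fun ω => bit a.1 ω.1) P :=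
    hbit.bdd_mul hdm.aestronglyMeasurable (Eventually.of_forall hdb)
  have hce := condExp_mul_of_stronglyMeasurable_left (m := 𝒢) hd𝒢.stronglyMeasurable hdbit hbit
  have hpe := prob_ae_eq_condExp ν hF hex r a
  have step2 : ∫ ω in G', d ω * bit a.1 ω.1 ∂P = ∫ ω in G', d ω * p ω ∂P := by
    have := setIntegral_condExp h𝒢le hdbit hG'𝒢
    refine this.symm.trans (setIntegral_congr_ae hG'm ?_)
    filter_upwards [hce, hpe] with ω h1 h2 _
    rw [h1, Pi.mul_apply, ← h2]
  have hφ0 : Integrable (fun ω => φ false (p ω)) P :=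
    Integrable.of_bound ((hφm false).comp hpm).aestronglyMeasurable 1
      (Eventually.of_forall fun ω => by
        rw [Real.norm_eq_abs, abs_of_nonneg (hφ01 _ _).1]; exact (hφ01 _ _).2)
  have hpi : Integrable p P :=
    Integrable.of_bound hpm.aestronglyMeasurable 1 (Eventually.of_forall fun ω => by
      rw [Real.norm_eq_abs, abs_of_nonneg (prob_mem01 hq01 _ _ _).1]
      exact (prob_mem01 hq01 _ _ _).2)
  have hdp : Integrable (fun ω => d ω * p ω) P :=
    hpi.bdd_mul hdm.aestronglyMeasurable (Eventually.of_forall hdb)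
  have e1 : ∀ ω, φ (ω.1 a.1) (p ω) = φ false (p ω) + d ω * bit a.1 ω.1 := by
    intro ω
    simp only [hd, bit]
    cases ω.1 a.1 <;> simp
  simp only [e1]
  have hdbit' : Integrable (fun ω => d ω * bit a.1 ω.1) P := hdbit
  rw [integral_add hφ0.integrableOn hdbit'.integrableOn, step2,
    ← integral_add hφ0.integrableOn hdp.integrableOn]
  have e2 : ∀ ω, φ false (p ω) + d ω * p ω = unif.real B := by
    intro ω
    rw [← mixture_real (prob_mem01 hq01 r (obs ω) a).1 (prob_mem01 hq01 r (obs ω) a).2 hB]
    simp only [hd, hφ, mb, hp]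
    simp
    ring
  simp only [e2]
  simp

end Crest.Agent.R168
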