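import Crest.Agent.R168.Defs

/-!
Row 168: a stable weighted family has tilted marginals that are Lipschitz for the sup norm of
the field (Schwarz lemma applied to a square root).
-/

set_option autoImplicit false

namespace Crest.Agent.R168

open Complex Metric

theorem slit_schwarz {f : ℂ → ℂ} (hd : DifferentiableOn ℂ f (ball 0 1))
    (hs : ∀ s ∈ ball (0 : ℂ) 1, f s ∈ slitPlane) {s : ℂ} (hs1 : ‖s‖ < 1) :
    ‖f s - f 0‖ ≤ ‖s‖ * (2 * ‖f s‖ + 2 * ‖f 0‖) := by
  set w : ℂ → ℂ := fun t => f t ^ (2⁻¹ : ℂ) with hw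
  have hwd : DifferentiableOn ℂ w (ball 0 1) := hd.cpow (differentiableOn_const _) hs
  have hre : ∀ t ∈ ball (0 : ℂ) 1, 0 < (w t).re := by
    intro t ht
    simp only [hw, cpow_inv_two_re]
    apply Real.sqrt_pos.2
    have h1 := hs t ht
    rw [mem_slitPlane_iff] at h1
    have h2 : -(f t).re < ‖f t‖ := by
      rcases h1 with h1 | h1
      · have := norm_nonneg (f t); linarith
      · have h3 := Complex.abs_re_lt_norm.2 h1
        have := neg_abs_le (f t).re
        linarith
    linarith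
  have hsq : ∀ t, w t ^ 2 = f t := by
    intro t
    simp only [hw]
    exact_mod_cast cpow_nat_inv_pow (f t) (n := 2) (by norm_num)
  have h0 : (0 : ℂ) ∈ ball (0 : ℂ) 1 := by simp
  set a := w 0 with ha
  have hare : 0 < a.re := hre 0 h0
  have hne : ∀ t ∈ ball (0 : ℂ) 1, w t + (starRingEnd ℂ) a ≠ 0 := by
    intro t ht h
    have := congrArg Complex.re h
    simp at this
    have := hre t ht
    linarith
  set ψ : ℂ → ℂ := fun t => (w t - a) / (w t + (starRingEnd ℂ) a) with hψ
  have hψd : DifferentiableOn ℂ ψ (ball 0 1) :=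
    (hwd.sub_const _).div (hwd.add_const _) hne
  have hle : ∀ t ∈ ball (0 : ℂ) 1, ‖w t - a‖ ≤ ‖w t + (starRingEnd ℂ) a‖ := by
    intro t ht
    have h1 := hre t ht
    rw [← sq_le_sq₀ (norm_nonneg _) (norm_nonneg _), Complex.sq_norm, Complex.sq_norm,
      Complex.normSq_apply, Complex.normSq_apply]
    simp
    nlinarith [mul_pos h1 hare]
  have hmaps : Set.MapsTo ψ (ball 0 1) (closedBall 0 1) := by
    intro t ht
    simp only [hψ, mem_closedBall, dist_zero_right, norm_div]
    exact div_le_one_of_le₀ (hle t ht) (norm_nonneg _)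
  have hψ0 : ψ 0 = 0 := by simp [hψ, ha]
  have hS := norm_le_norm_of_mapsTo_ball hψd hmaps hψ0 hs1
  have hsb : s ∈ ball (0 : ℂ) 1 := by simpa using hs1
  have h1 : ‖w s - a‖ ≤ ‖s‖ * (‖w s‖ + ‖a‖) := by
    simp only [hψ, norm_div] at hS
    rw [div_le_iff₀ (norm_pos_iff.2 (hne s hsb))] at hS
    refine hS.trans (mul_le_mul_of_nonneg_left ?_ (norm_nonneg _))
    simpa using norm_add_le (w s) ((starRingEnd ℂ) a)
  have h2 : f s - f 0 = (w s - a) * (w s + a) := by
    rw [← hsq s, ← hsq 0]; ring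
  have h3 : ‖f s‖ = ‖w s‖ ^ 2 := by rw [← hsq s, norm_pow]
  have h4 : ‖f 0‖ = ‖a‖ ^ 2 := by rw [← hsq 0, norm_pow]
  rw [h2, norm_mul, h3, h4]
  calc ‖w s - a‖ * ‖w s + a‖ ≤ (‖s‖ * (‖w s‖ + ‖a‖)) * (‖w s‖ + ‖a‖) :=
        mul_le_mul h1 (norm_add_le _ _) (norm_nonneg _) (by positivity)
    _ = ‖s‖ * (‖w s‖ + ‖a‖) ^ 2 := by ring
    _ ≤ _ := by
        refine mul_le_mul_of_nonneg_left ?_ (norm_nonneg _)
        nlinarith [sq_nonneg (‖w s‖ - ‖a‖)]

variable {V : Type*}

open Classical in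
/-- Multiplicative form of `tilt`. -/
noncomputable def tl (T : Finset (Finset V)) (c : Finset V → ℝ) (i : V) (lam : V → ℝ) : ℝ :=
  (∑ S ∈ T, if i ∈ S then c S * ∏ j ∈ S, lam j else 0) / ∑ S ∈ T, c S * ∏ j ∈ S, lam j

theorem tilt_eq_tl (T : Finset (Finset V)) (c : Finset V → ℝ) (i : V) (h : V → ℝ) :
    tilt T c i h = tl T c i (fun j => Real.exp (h j)) := by
  simp only [tilt, tl, Real.exp_sum]

theorem Stable.sum_pos {T : Finset (Finset V)} {c : Finset V → ℝ} (hst : Stable T c)
    (hc : ∀ S ∈ T, 0 ≤ c S) {lam : V → ℝ} (hl : ∀ j, 0 < lam j) :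
    0 < ∑ S ∈ T, c S * ∏ j ∈ S, lam j := by
  have hex : ∃ S ∈ T, c S ≠ 0 := by
    by_contra hne
    push Not at hne
    apply hst (fun _ => I) (by simp)
    exact Finset.sum_eq_zero fun S hS => by simp [hne S hS]
  obtain ⟨S0, hS0, hc0⟩ := hex
  refine Finset.sum_pos' (fun S hS => mul_nonneg (hc S hS)
    (Finset.prod_nonneg fun j _ => (hl j).le)) ⟨S0, hS0, ?_⟩
  exact mul_pos (lt_of_le_of_ne (hc S0 hS0) hc0.symm) (Finset.prod_pos fun j _ => hl j)

theorem tl_mem {T : Finset (Finset V)} {c : Finset V → ℝ}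
    (hc : ∀ S ∈ T, 0 ≤ c S) (i : V) {lam : V → ℝ} (hl : ∀ j, 0 < lam j) :
    0 ≤ tl T c i lam ∧ tl T c i lam ≤ 1 := by
  have hp : ∀ S ∈ T, 0 ≤ c S * ∏ j ∈ S, lam j := fun S hS =>
    mul_nonneg (hc S hS) (Finset.prod_nonneg fun j _ => (hl j).le)
  constructor
  · refine div_nonneg (Finset.sum_nonneg fun S hS => ?_) (Finset.sum_nonneg hp)
    split_ifs
    · exact hp S hS
    · exact le_rfl
  · refine div_le_one_of_le₀ (Finset.sum_le_sum fun S hS => ?_) (Finset.sum_nonneg hp)
    split_ifs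
    · exact le_rfl
    · exact hp S hS

/-- No zero on points of the form `lam j * (1 + s * v j)` with `‖s‖ < 1`. -/
theorem Stable.ne_zero_path {T : Finset (Finset V)} {c : Finset V → ℝ} (hst : Stable T c)
    (hc : ∀ S ∈ T, 0 ≤ c S) {lam v : V → ℝ} (hl : ∀ j, 0 < lam j) (hv : ∀ j, 0 < v j)
    (hv1 : ∀ j, v j ≤ 1) {s : ℂ} (hs : ‖s‖ < 1) :
    ∑ S ∈ T, (c S : ℂ) * ∏ j ∈ S, ((lam j : ℂ) * (1 + s * v j)) ≠ 0 := by
  rcases lt_trichotomy s.im 0 with h | h | h
  · intro h0
    apply hst (fun j => (lam j : ℂ) * (1 + (starRingEnd ℂ) s * v j))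
    · intro j
      have := mul_pos (hl j) (mul_pos (neg_pos.2 h) (hv j))
      simpa using this
    · have := congrArg (starRingEnd ℂ) h0
      simpa [map_sum, map_prod] using this
  · have hsr : s = (s.re : ℂ) := by
      apply Complex.ext <;> simp [h]
    have habs : |s.re| < 1 := (Complex.abs_re_le_norm s).trans_lt hs
    have hpos : ∀ j, 0 < lam j * (1 + s.re * v j) := by
      intro j
      refine mul_pos (hl j) ?_
      have h1 := abs_lt.1 habs
      nlinarith [hv j, hv1 j]
    have := hst.sum_pos hc hpos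
    rw [hsr]
    exact_mod_cast this.ne'
  · apply hst
    intro j
    simp
    exact mul_pos (hl j) (mul_pos h (hv j))

theorem Stable.tl_step {T : Finset (Finset V)} {c : Finset V → ℝ} (hst : Stable T c)
    (hc : ∀ S ∈ T, 0 ≤ c S) (i : V) {lam v : V → ℝ} (hl : ∀ j, 0 < lam j) (hv : ∀ j, 0 < v j)
    (hv1 : ∀ j, v j ≤ 1) {s : ℝ} (hs0 : 0 ≤ s) (hs : s < 1) :
    |tl T c i (fun j => lam j * (1 + s * v j)) - tl T c i lam| ≤ 8 * s := by
  classical
  set N : ℂ → ℂ := fun t => ∑ S ∈ T, if i ∈ S then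
    (c S : ℂ) * ∏ j ∈ S, ((lam j : ℂ) * (1 + t * v j)) else 0 with hN
  set Z : ℂ → ℂ := fun t => ∑ S ∈ T, (c S : ℂ) * ∏ j ∈ S, ((lam j : ℂ) * (1 + t * v j)) with hZ
  have hZne : ∀ t ∈ ball (0 : ℂ) 1, Z t ≠ 0 := fun t ht =>
    hst.ne_zero_path hc hl hv hv1 (by simpa using ht)
  have hprod : ∀ S : Finset V,
      Differentiable ℂ (fun t : ℂ => (c S : ℂ) * ∏ j ∈ S, ((lam j : ℂ) * (1 + t * v j))) := by
    intro S
    refine Differentiable.const_mul ?_ _
    exact Differentiable.fun_finsetProd fun j _ => by fun_prop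
  have hNd : Differentiable ℂ N := by
    refine Differentiable.fun_sum fun S _ => ?_
    split_ifs
    · exact hprod S
    · exact differentiable_const _
  have hZd : Differentiable ℂ Z := Differentiable.fun_sum fun S _ => hprod S
  set f : ℂ → ℂ := fun t => N t / Z t + 1 with hf
  have hfd : DifferentiableOn ℂ f (ball 0 1) :=
    (hNd.differentiableOn.div hZd.differentiableOn hZne).add_const _
  have hslit : ∀ t ∈ ball (0 : ℂ) 1, f t ∈ slitPlane := by
    intro t ht
    by_contra hns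
    rw [mem_slitPlane_iff] at hns
    push Not at hns
    obtain ⟨h1, h2⟩ := hns
    -- `N t / Z t = -τ` with `τ ≥ 1`
    set τ : ℝ := 1 - (f t).re with hτ
    have hτ1 : 1 ≤ τ := by linarith
    have hq : N t / Z t = -(τ : ℂ) := by
      have : f t = ((f t).re : ℂ) := by
        apply Complex.ext <;> simp [h2]
      have h3 : N t / Z t = f t - 1 := by simp [hf]
      rw [h3, this, hτ]; simp
    have hNZ : N t = -(τ : ℂ) * Z t := by
      rw [← hq]; field_simp [hZne t ht]
    set ρ : ℝ := (1 + τ) / τ with hρ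
    have hρpos : 0 < ρ := by positivity
    have hl' : ∀ j, 0 < Function.update lam i (ρ * lam i) j := by
      intro j
      by_cases hj : j = i
      · subst hj; simpa using mul_pos hρpos (hl j)
      · simpa [Function.update_of_ne hj] using hl j
    apply hst.ne_zero_path hc hl' hv hv1 (s := t) (by simpa using ht)
    have hterm : ∀ S ∈ T, (c S : ℂ) * ∏ j ∈ S,
        (((Function.update lam i (ρ * lam i) j : ℝ) : ℂ) * (1 + t * v j)) =
        (c S : ℂ) * ∏ j ∈ S, ((lam j : ℂ) * (1 + t * v j)) +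
          ((ρ : ℂ) - 1) * (if i ∈ S then
            (c S : ℂ) * ∏ j ∈ S, ((lam j : ℂ) * (1 + t * v j)) else 0) := by
      intro S _
      split_ifs with hi
      · rw [← Finset.mul_prod_erase S _ hi, ← Finset.mul_prod_erase S _ hi]
        have : ∏ j ∈ S.erase i, (((Function.update lam i (ρ * lam i) j : ℝ) : ℂ) * (1 + t * v j)) =
            ∏ j ∈ S.erase i, ((lam j : ℂ) * (1 + t * v j)) :=
          Finset.prod_congr rfl fun j hj => by
            rw [Function.update_of_ne (Finset.ne_of_mem_erase hj)]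
        rw [this]
        simp only [Function.update_self]
        push_cast
        ring
      · have : ∏ j ∈ S, (((Function.update lam i (ρ * lam i) j : ℝ) : ℂ) * (1 + t * v j)) =
            ∏ j ∈ S, ((lam j : ℂ) * (1 + t * v j)) :=
          Finset.prod_congr rfl fun j hj => by
            rw [Function.update_of_ne (fun h : j = i => hi (h ▸ hj))]
        rw [this]; ring
    rw [Finset.sum_congr rfl hterm, Finset.sum_add_distrib, ← Finset.mul_sum]
    change Z t + ((ρ : ℂ) - 1) * N t = 0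
    rw [hNZ, hρ]
    have : (τ : ℂ) ≠ 0 := by exact_mod_cast (by linarith : τ ≠ 0)
    push_cast
    field_simp
    ring
  have hreal : ∀ r : ℝ, f r = ((tl T c i (fun j => lam j * (1 + r * v j)) + 1 : ℝ) : ℂ) := by
    intro r
    simp only [hf, hN, hZ, tl]
    push_cast
    congr 2
    refine Finset.sum_congr rfl fun S _ => ?_
    split_ifs <;> simp
  have hS := slit_schwarz hfd hslit (s := (s : ℂ)) (by simpa [abs_of_nonneg hs0] using hs)
  have h0 : f 0 = ((tl T c i lam + 1 : ℝ) : ℂ) := by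
    have := hreal 0
    simpa using this
  rw [hreal s, h0] at hS
  have hpos : ∀ j, 0 < lam j * (1 + s * v j) := fun j =>
    mul_pos (hl j) (by nlinarith [hv j])
  obtain ⟨a0, a1⟩ := tl_mem hc i hpos
  obtain ⟨b0, b1⟩ := tl_mem hc i hl
  rw [← Complex.ofReal_sub, Complex.norm_real, Complex.norm_real, Complex.norm_real,
    Complex.norm_real] at hS
  simp only [Real.norm_eq_abs, add_sub_add_right_eq_sub] at hS
  rw [abs_of_nonneg hs0, abs_of_nonneg (by linarith : 0 ≤ tl T c i lam + 1),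
    abs_of_nonneg (by linarith : 0 ≤ tl T c i (fun j => lam j * (1 + s * v j)) + 1)] at hS
  nlinarith

theorem Stable.tilt_lipschitz {T : Finset (Finset V)} {c : Finset V → ℝ} (hst : Stable T c)
    (hc : ∀ S ∈ T, 0 ≤ c S) (i : V) {h h' : V → ℝ} {δ : ℝ} (hδ : ∀ j, |h j - h' j| ≤ δ) :
    |tilt T c i h - tilt T c i h'| ≤ 100 * δ := by
  have hδ0 : 0 ≤ δ := (abs_nonneg _).trans (hδ i)
  rw [tilt_eq_tl, tilt_eq_tl]
  rcases hδ0.eq_or_lt with h0 | hδpos
  · have : h = h' := by
      funext j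
      have := hδ j
      rw [← h0] at this
      exact sub_eq_zero.1 (abs_nonpos_iff.1 this)
    rw [this, ← h0]; simp
  by_cases hbig : 1 / 100 ≤ δ
  · obtain ⟨a0, a1⟩ := tl_mem hc i (lam := fun j => Real.exp (h j)) fun j => Real.exp_pos _
    obtain ⟨b0, b1⟩ := tl_mem hc i (lam := fun j => Real.exp (h' j)) fun j => Real.exp_pos _
    rw [abs_le]; constructor <;> linarith
  push Not at hbig
  set s : ℝ := Real.exp (3 * δ) - 1 with hs
  have hs0 : 0 < s := by
    have := Real.add_one_lt_exp (x := 3 * δ) (by linarith)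
    linarith
  have hs6 : s ≤ 6 * δ := by
    have h1 : |3 * δ| ≤ 1 := by rw [abs_of_nonneg (by linarith)]; linarith
    have h2 := Real.abs_exp_sub_one_le h1
    rw [abs_of_nonneg (by linarith : 0 ≤ 3 * δ)] at h2
    have := le_abs_self (Real.exp (3 * δ) - 1)
    linarith
  set mu : V → ℝ := fun j => Real.exp (h j - 2 * δ) with hmu
  have key : ∀ g : V → ℝ, (∀ j, |h j - g j| ≤ δ) →
      |tl T c i (fun j => Real.exp (g j)) - tl T c i mu| ≤ 8 * s := by
    intro g hg
    set v : V → ℝ := fun j => (Real.exp (g j - h j + 2 * δ) - 1) / s with hv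
    have hv0 : ∀ j, 0 < v j := by
      intro j
      have h1 := abs_le.1 (hg j)
      have := Real.add_one_lt_exp (x := g j - h j + 2 * δ) (by linarith)
      exact div_pos (by linarith) hs0
    have hv1 : ∀ j, v j ≤ 1 := by
      intro j
      have h1 := abs_le.1 (hg j)
      have := Real.exp_le_exp.2 (show g j - h j + 2 * δ ≤ 3 * δ by linarith)
      exact (div_le_one hs0).2 (by linarith)
    have := hst.tl_step hc i (lam := mu) (fun j => Real.exp_pos _) hv0 hv1 hs0.le (by linarith)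
    have he : (fun j => mu j * (1 + s * v j)) = fun j => Real.exp (g j) := by
      funext j
      simp only [hmu, hv]
      rw [mul_div_cancel₀ _ hs0.ne', add_sub_cancel, ← Real.exp_add]
      congr 1; ring
    rwa [he] at this
  have k1 := key h (fun j => by simpa using hδ0)
  have k2 := key h' hδ
  rw [abs_le] at k1 k2 ⊢
  constructor <;> linarith

end Crest.Agent.R168
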