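import Crest.Agent.R168.Bayes
import Crest.Agent.R168.Lipschitz
import Crest.Prelude.Def_StronglyRayleigh

/-!
Row 168: tilted marginals of measures: finite-sum forms, transport along injections, and the
Lipschitz bound for strongly Rayleigh laws.
-/

set_option autoImplicit false

namespace Crest.Agent.R168

open MeasureTheory Set Crest.ProbabilityR.StronglyRayleigh

variable {V : Type*}

/-- The Lipschitz property of all tilted marginals. -/
def LipTilt (ν : Measure (V → Bool)) : Prop :=
  ∀ (F : Finset V) (i : V) (h h' : V → ℝ) (δ : ℝ), (∀ j, |h j - h' j| ≤ δ) →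
    |tiltM ν F i h - tiltM ν F i h'| ≤ 100 * δ

theorem measurableSet_cyl (G S : Finset V) :
    MeasurableSet {ω : V → Bool | ∀ i ∈ G, (ω i = true ↔ i ∈ S)} := by
  have : {ω : V → Bool | ∀ i ∈ G, (ω i = true ↔ i ∈ S)} =
      ⋂ i ∈ G, {ω : V → Bool | ω i = true ↔ i ∈ S} := by
    ext ω; simp
  rw [this]
  refine Finset.measurableSet_biInter _ fun i _ => ?_
  by_cases hi : i ∈ S
  · simpa [hi] using measurableSet_bit i
  · have := (measurableSet_bit i).compl
    convert this using 1
    ext ω; simp [hi]

theorem integral_filter_eq_sum (ν : Measure (V → Bool)) [IsFiniteMeasure ν] (G : Finset V)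
    (ψ : Finset V → ℝ) :
    ∫ x, ψ (G.filter (fun j => x j = true)) ∂ν =
      ∑ S ∈ G.powerset, (ν {ω | ∀ i ∈ G, (ω i = true ↔ i ∈ S)}).toReal * ψ S := by
  classical
  have : ∀ x : V → Bool, ψ (G.filter (fun j => x j = true)) = ∑ S ∈ G.powerset,
      {ω : V → Bool | ∀ i ∈ G, (ω i = true ↔ i ∈ S)}.indicator (fun _ => ψ S) x := by
    intro x
    rw [Finset.sum_eq_single (G.filter (fun j => x j = true))]
    · rw [indicator_of_mem]
      intro i hi
      simp [hi]
    · intro S hS hne
      refine indicator_of_notMem (fun h => hne ?_) _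
      ext i
      simp only [Finset.mem_filter]
      constructor
      · intro hi
        have hiG := Finset.mem_powerset.1 hS hi
        exact ⟨hiG, (h i hiG).2 hi⟩
      · rintro ⟨h1, h2⟩; exact (h i h1).1 h2
    · intro h; exact absurd (Finset.mem_powerset.2 (Finset.filter_subset _ _)) h
  simp only [this]
  rw [integral_finsetSum _ fun S _ => (integrable_const _).indicator (measurableSet_cyl G S)]
  refine Finset.sum_congr rfl fun S _ => ?_
  rw [integral_indicator_const _ (measurableSet_cyl G S), smul_eq_mul, measureReal_def]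

open Classical in
theorem tiltM_eq_tilt (ν : Measure (V → Bool)) [IsFiniteMeasure ν] {F G : Finset V}
    (hFG : F ⊆ G) {i : V} (hi : i ∈ G) (h : V → ℝ) :
    tiltM ν F i h = tilt G.powerset (fun S => (ν {ω | ∀ i ∈ G, (ω i = true ↔ i ∈ S)}).toReal) i
      (fun j => if j ∈ F then h j else 0) := by
  have hw : ∀ x : V → Bool, wt F h x = Real.exp (∑ j ∈ G.filter (fun j => x j = true),
      if j ∈ F then h j else 0) := by
    intro x
    unfold wt
    congr 1
    rw [Finset.sum_filter, ← Finset.sum_subset hFG]
    · exact Finset.sum_congr rfl fun j hj => by simp [hj]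
    · intro j _ hj; simp [hj]
  unfold tiltM tilt
  congr 1
  · have := integral_filter_eq_sum ν G (fun S => if i ∈ S then
      Real.exp (∑ j ∈ S, if j ∈ F then h j else 0) else 0)
    simp only [mul_ite, mul_zero] at this
    rw [← this]
    refine integral_congr_ae (Filter.Eventually.of_forall fun x => ?_)
    simp only [bit, hw, Finset.mem_filter, hi, true_and]
    split_ifs <;> simp
  · rw [← integral_filter_eq_sum ν G (fun S => Real.exp (∑ j ∈ S, if j ∈ F then h j else 0))]
    simp only [hw]

theorem lipTilt_of_stronglyRayleigh (ν : Measure (V → Bool)) [IsFiniteMeasure ν]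
    (hsr : IsStronglyRayleigh ν) : LipTilt ν := by
  classical
  intro F i h h' δ hδ
  have hst : Stable (insert i F).powerset
      (fun S => (ν {ω | ∀ j ∈ insert i F, (ω j = true ↔ j ∈ S)}).toReal) :=
    fun z hz => hsr (insert i F) z fun j _ => hz j
  rw [tiltM_eq_tilt ν (Finset.subset_insert i F) (Finset.mem_insert_self i F),
    tiltM_eq_tilt ν (Finset.subset_insert i F) (Finset.mem_insert_self i F)]
  refine hst.tilt_lipschitz (fun _ _ => ENNReal.toReal_nonneg) i fun j => ?_
  split_ifs
  · exact hδ j
  · simpa using (abs_nonneg _).trans (hδ j)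

theorem tiltM_map {V' : Type*} (σ : V ↪ V') (ν : Measure (V' → Bool)) (F : Finset V) (i : V)
    (h : V' → ℝ) :
    tiltM (ν.map (fun x => x ∘ σ)) F i (h ∘ σ) = tiltM ν (F.map σ) (σ i) h := by
  have hm : Measurable fun x : V' → Bool => x ∘ σ :=
    measurable_pi_iff.2 fun j => measurable_pi_apply (σ j)
  have hw : ∀ x : V' → Bool, wt F (h ∘ σ) (x ∘ σ) = wt (F.map σ) h x := by
    intro x; simp [wt, Finset.sum_map]
  have hwm : Measurable (wt F (h ∘ σ)) := (measurable_wt F).comp measurable_prodMk_left
  unfold tiltM
  rw [integral_map hm.aemeasurable ((measurable_bit i).fun_mul hwm).aestronglyMeasurable,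
    integral_map hm.aemeasurable hwm.aestronglyMeasurable]
  simp only [hw]
  rfl

theorem LipTilt.map {V' : Type*} (σ : V ↪ V') {ν : Measure (V' → Bool)} (hν : LipTilt ν) :
    LipTilt (ν.map (fun x => x ∘ σ)) := by
  intro F i h h' δ hδ
  have e1 : h = Function.extend σ h 0 ∘ σ := (Function.extend_comp σ.injective h 0).symm
  have e2 : h' = Function.extend σ h' 0 ∘ σ := (Function.extend_comp σ.injective h' 0).symm
  rw [e1, e2, tiltM_map, tiltM_map]
  refine hν _ _ _ _ _ fun j => ?_
  by_cases hj : ∃ a, σ a = j
  · obtain ⟨a, rfl⟩ := hj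
    simpa [σ.injective.extend_apply] using hδ a
  · simpa [Function.extend_apply' _ _ _ hj] using (abs_nonneg _).trans (hδ i)

/-- Inclusion probabilities of a measure. -/
noncomputable def incl (ν : Measure (V → Bool)) (R : Finset V) : ℝ :=
  ν.real {ω | ∀ j ∈ R, ω j = true}

theorem measurableSet_incl (R : Finset V) :
    MeasurableSet {ω : V → Bool | ∀ j ∈ R, ω j = true} := by
  have := measurableSet_cyl R R
  convert this using 1
  ext ω
  exact forall₂_congr fun j hj => by simp [hj]

theorem tiltM_eq_tiltInc (ν : Measure (V → Bool)) [IsFiniteMeasure ν] (F : Finset V) (i : V)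
    (h : V → ℝ) : tiltM ν F i h = tiltInc (incl ν) F i h := by
  classical
  have hw : ∀ x : V → Bool, wt F h x = ∑ R ∈ F.powerset,
      {ω : V → Bool | ∀ j ∈ R, ω j = true}.indicator
        (fun _ => ∏ j ∈ R, (Real.exp (h j) - 1)) x := by
    intro x
    have : wt F h x = ∏ j ∈ F, (1 + if x j then Real.exp (h j) - 1 else 0) := by
      unfold wt
      rw [Real.exp_sum]
      refine Finset.prod_congr rfl fun j _ => ?_
      split_ifs <;> simp
    rw [this, Finset.prod_one_add]
    refine Finset.sum_congr rfl fun R _ => ?_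
    by_cases hx : x ∈ {ω : V → Bool | ∀ j ∈ R, ω j = true}
    · rw [indicator_of_mem hx]
      exact Finset.prod_congr rfl fun j hj => by simp [hx j hj]
    · rw [indicator_of_notMem hx]
      simp only [mem_ofPred_eq, not_forall] at hx
      obtain ⟨j, hj, hxj⟩ := hx
      exact Finset.prod_eq_zero hj (by simp [hxj])
  have hw' : ∀ x : V → Bool, bit i x * wt F h x = ∑ R ∈ F.powerset,
      {ω : V → Bool | ∀ j ∈ insert i R, ω j = true}.indicator
        (fun _ => ∏ j ∈ R, (Real.exp (h j) - 1)) x := by
    intro x
    rw [hw, Finset.mul_sum]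
    refine Finset.sum_congr rfl fun R _ => ?_
    by_cases hx : x i = true <;> simp [bit, indicator, hx]
  unfold tiltM tiltInc
  simp only [hw']
  simp only [hw]
  rw [integral_finsetSum _ fun R _ => (integrable_const _).indicator (measurableSet_incl _),
    integral_finsetSum _ fun R _ => (integrable_const _).indicator (measurableSet_incl _)]
  congr 1
  · refine Finset.sum_congr rfl fun R _ => ?_
    rw [integral_indicator_const _ (measurableSet_incl _), smul_eq_mul, incl]
  · refine Finset.sum_congr rfl fun R _ => ?_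
    rw [integral_indicator_const _ (measurableSet_incl _), smul_eq_mul, incl]

end Crest.Agent.R168
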