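import Crest.Agent.R168.Construct

/-!
Row 168: the two one-dimensional observation laws and the probability integral transform.
-/

set_option autoImplicit false

namespace Crest.Agent.R168

open MeasureTheory Set

/-- Uniform law on `[0, 1]`, as a measure on the real line. -/
noncomputable def unif : Measure ℝ := volume.restrict (Icc 0 1)

instance unif_prob : IsProbabilityMeasure unif := ⟨by simp [unif]⟩

instance unif_noAtoms : NullSingletonClass unif := by unfold unif; infer_instance

/-- Law of an observation of a hidden `true`. -/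
noncomputable def m1 : Measure ℝ := unif.withDensity (fun y => ENNReal.ofReal (dens y))

theorem Iic_inter_Icc01 {y : ℝ} (hy : 0 ≤ y) : Iic y ∩ Icc (0 : ℝ) 1 = Icc 0 (clamp y) := by
  ext t
  simp only [clamp, mem_inter_iff, mem_Iic, mem_Icc, le_max_iff, le_min_iff]
  constructor
  · rintro ⟨h1, h2, h3⟩; exact ⟨h2, Or.inr ⟨h3, h1⟩⟩
  · rintro ⟨h1, h2 | h2⟩
    · exact ⟨h2.trans hy, h1, h2.trans zero_le_one⟩
    · exact ⟨h2.2, h1, h2.1⟩

theorem clamp_of_nonpos {y : ℝ} (hy : y ≤ 0) : clamp y = 0 := by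
  simp [clamp, hy]

theorem clamp_of_one_le {y : ℝ} (hy : 1 ≤ y) : clamp y = 1 := by
  simp [clamp, hy]

theorem Iic_inter_Icc01_neg {y : ℝ} (hy : y < 0) : Iic y ∩ Icc (0 : ℝ) 1 = ∅ := by
  ext t
  simp only [mem_inter_iff, mem_Iic, mem_Icc, mem_empty_iff_false, iff_false, not_and]
  intro h1 h2; linarith

theorem unif_Iic (y : ℝ) : unif (Iic y) = ENNReal.ofReal (clamp y) := by
  rw [unif, Measure.restrict_apply measurableSet_Iic]
  rcases lt_or_ge y 0 with hy | hy
  · rw [Iic_inter_Icc01_neg hy, clamp_of_nonpos hy.le]; simp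
  · rw [Iic_inter_Icc01 hy]; simp

theorem m1_Iic (y : ℝ) : m1 (Iic y) = ENNReal.ofReal (clamp y - eps * bump y) := by
  rw [m1, withDensity_apply _ measurableSet_Iic, unif, Measure.restrict_restrict measurableSet_Iic]
  rcases lt_or_ge y 0 with hy | hy
  · rw [Iic_inter_Icc01_neg hy, bump, clamp_of_nonpos hy.le]; simp
  · rw [Iic_inter_Icc01 hy, ← ofReal_integral_eq_lintegral_ofReal]
    · congr 1
      rw [integral_Icc_eq_integral_Ioc, ← intervalIntegral.integral_of_le (clamp_nonneg y)]
      have : ∫ t in (0 : ℝ)..clamp y, dens t =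
          ∫ t in (0 : ℝ)..clamp y, ((1 - eps) + (2 * eps) * t) := by
        refine intervalIntegral.integral_congr fun t ht => ?_
        rw [uIcc_of_le (clamp_nonneg y)] at ht
        simp only [dens]
        rw [clamp_of_mem ht.1 (ht.2.trans (clamp_le_one y))]
        ring
      rw [this, intervalIntegral.integral_add (by simp) (by
        apply Continuous.intervalIntegrable; fun_prop), intervalIntegral.integral_const_mul]
      simp [bump]
      ring
    · exact continuous_dens.integrableOn_Icc
    · exact Filter.Eventually.of_forall fun t => (dens_pos t).le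

instance m1_prob : IsProbabilityMeasure m1 := by
  constructor
  have h1 : m1 (Iic 1) = 1 := by
    rw [m1_Iic, bump, clamp_of_one_le le_rfl]; simp
  have h2 : m1 (Iic 1)ᶜ = 0 := by
    refine withDensity_absolutelyContinuous _ _ ?_
    rw [prob_compl_eq_zero_iff measurableSet_Iic, unif_Iic, clamp_of_one_le le_rfl]; simp
  rw [← measure_add_measure_compl (measurableSet_Iic (a := (1 : ℝ))), h1, h2, add_zero]

theorem unif_ae_mem : ∀ᵐ y ∂unif, y ∈ Icc (0 : ℝ) 1 := ae_restrict_mem measurableSet_Icc

theorem m1_ae_mem : ∀ᵐ y ∂m1, y ∈ Icc (0 : ℝ) 1 :=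
  (withDensity_absolutelyContinuous _ _).ae_le unif_ae_mem

/-- Distribution function of the mixture with weight `p`. -/
noncomputable def cdfp (p y : ℝ) : ℝ := y - eps * p * bump y

theorem continuous_cdfp : Continuous fun x : ℝ × ℝ => cdfp x.1 x.2 := by
  have := continuous_bump
  unfold cdfp; fun_prop

theorem cdfp_strictMono {p : ℝ} (h0 : 0 ≤ p) (h1 : p ≤ 1) : StrictMono (cdfp p) := by
  intro y y' hy
  have h := bump_lip y' y
  rw [abs_of_pos (sub_pos.2 hy)] at h
  have h2 := (abs_le.1 h).2
  unfold cdfp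
  rw [eps_eq]
  nlinarith [mul_le_mul_of_nonneg_left h2 h0]

theorem bump_of_nonpos {y : ℝ} (hy : y ≤ 0) : bump y = 0 := by
  rw [bump, clamp_of_nonpos hy]; simp

theorem bump_of_one_le {y : ℝ} (hy : 1 ≤ y) : bump y = 0 := by
  rw [bump, clamp_of_one_le hy]; simp

theorem cdfp_surj (p u : ℝ) : ∃ y, cdfp p y = u := by
  rcases le_total u 0 with hu | hu
  · exact ⟨u, by simp [cdfp, bump_of_nonpos hu]⟩
  rcases le_total 1 u with hu1 | hu1
  · exact ⟨u, by simp [cdfp, bump_of_one_le hu1]⟩
  have hc : Continuous (cdfp p) := continuous_cdfp.comp (Continuous.prodMk_right p)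
  have := intermediate_value_Icc (zero_le_one' ℝ) hc.continuousOn
  have h0 : cdfp p 0 = 0 := by simp [cdfp, bump_of_nonpos le_rfl]
  have h1 : cdfp p 1 = 1 := by simp [cdfp, bump_of_one_le le_rfl]
  rw [h0, h1] at this
  obtain ⟨y, -, hy⟩ := this ⟨hu, hu1⟩
  exact ⟨y, hy⟩

theorem clamp_cdfp {p : ℝ} (h0 : 0 ≤ p) (h1 : p ≤ 1) (y : ℝ) :
    clamp (cdfp p y) = clamp y - eps * p * bump y := by
  rcases le_total y 0 with hu | hu
  · simp [cdfp, bump_of_nonpos hu]
  rcases le_total 1 y with hu1 | hu1
  · simp [cdfp, bump_of_one_le hu1]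
  have e0 : cdfp p 0 = 0 := by simp [cdfp, bump_of_nonpos le_rfl]
  have e1 : cdfp p 1 = 1 := by simp [cdfp, bump_of_one_le le_rfl]
  rw [clamp_of_mem hu hu1, clamp_of_mem (e0 ▸ (cdfp_strictMono h0 h1).monotone hu)
    (e1 ▸ (cdfp_strictMono h0 h1).monotone hu1)]
  rfl

theorem mixture_map {p : ℝ} (h0 : 0 ≤ p) (h1 : p ≤ 1) :
    (ENNReal.ofReal (1 - p) • unif + ENNReal.ofReal p • m1).map (cdfp p) = unif := by
  have hc : Continuous (cdfp p) := continuous_cdfp.comp (Continuous.prodMk_right p)
  symm
  refine Measure.ext_of_Iic _ _ fun u => ?_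
  obtain ⟨y, rfl⟩ := cdfp_surj p u
  rw [Measure.map_apply hc.measurable measurableSet_Iic]
  have : cdfp p ⁻¹' Iic (cdfp p y) = Iic y := by
    ext t; simp [(cdfp_strictMono h0 h1).le_iff_le]
  rw [this, unif_Iic, clamp_cdfp h0 h1]
  simp only [Measure.add_apply, Measure.smul_apply, smul_eq_mul, unif_Iic, m1_Iic]
  have hb : 0 ≤ clamp y - eps * bump y := by
    have := clamp_cdfp zero_le_one le_rfl y
    rw [mul_one] at this
    rw [← this]; exact clamp_nonneg _
  rw [← ENNReal.ofReal_mul (by linarith), ← ENNReal.ofReal_mul h0, ← ENNReal.ofReal_add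
    (mul_nonneg (by linarith) (clamp_nonneg y)) (mul_nonneg h0 hb)]
  congr 1; ring

theorem mixture_real {p : ℝ} (h0 : 0 ≤ p) (h1 : p ≤ 1) {B : Set ℝ} (hB : MeasurableSet B) :
    (1 - p) * unif.real (cdfp p ⁻¹' B) + p * m1.real (cdfp p ⁻¹' B) = unif.real B := by
  have hc : Continuous (cdfp p) := continuous_cdfp.comp (Continuous.prodMk_right p)
  have : (Measure.map (cdfp p) (ENNReal.ofReal (1 - p) • unif + ENNReal.ofReal p • m1)).real B =
      unif.real B := by rw [mixture_map h0 h1]
  rw [← this, measureReal_def (Measure.map _ _), Measure.map_apply hc.measurable hB]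
  simp only [Measure.add_apply, Measure.smul_apply, smul_eq_mul, measureReal_def]
  rw [ENNReal.toReal_add (by finiteness) (by finiteness), ENNReal.toReal_mul, ENNReal.toReal_mul,
    ENNReal.toReal_ofReal h0, ENNReal.toReal_ofReal (by linarith)]

theorem integral_low_unif : ∫ y, low y ∂unif = 1 / 2 := by
  unfold low
  rw [integral_indicator_const _ measurableSet_Iic, measureReal_def, unif_Iic,
    clamp_of_mem (by norm_num) (by norm_num), ENNReal.toReal_ofReal (by norm_num)]
  simp

theorem integral_low_m1 : ∫ y, low y ∂m1 = 1 / 2 - eps / 4 := by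
  unfold low
  rw [integral_indicator_const _ measurableSet_Iic, measureReal_def, m1_Iic, bump,
    clamp_of_mem (by norm_num) (by norm_num), ENNReal.toReal_ofReal (by rw [eps_eq]; norm_num)]
  simp; ring

theorem measurable_low : Measurable low := measurable_const.indicator measurableSet_Iic

end Crest.Agent.R168
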