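import Crest.Agent.R168.Defs

/-!
Row 168 skeleton: statements handed out as tasks (each is to be proved, with exactly this
statement and name, in its own new file; this file is never imported by a statement file).
-/

set_option autoImplicit false

namespace Crest.Agent.R168.Skel

open Crest.ProbabilityR.SpanningTrees Crest.ProbabilityR.GraphTables Crest.Agent.R168

/-- TASK A (file `R168/MatrixTree.lean`, name `Crest.Agent.R168.stable_trees`). -/
theorem stable_trees {V : Type*} (G : SimpleGraph V) (S : Finset V)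
    (hc : (G.induce (S : Set V)).Connected) : Stable (trees G S) (fun _ => 1) := by
  sorry

/-- TASK B (file `R168/UstMono.lean`, name `Crest.Agent.R168.ustContains_anti_of_stable`). -/
theorem ustContains_anti_of_stable {V : Type*} (G : SimpleGraph V)
    (hstab : ∀ S : Finset V, (G.induce (S : Set V)).Connected → Stable (trees G S) (fun _ => 1))
    {S S' : Finset V} (hSS' : S ⊆ S') (hS : (G.induce (S : Set V)).Connected)
    (hS' : (G.induce (S' : Set V)).Connected) {F : Finset (Sym2 V)} (hF : F ⊆ edgesIn G S) :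
    ustContains G S' F ≤ ustContains G S F := by
  sorry

/-- TASK C1 (file `R168/GraphEquiv.lean`). -/
theorem qG_comap (σ : Equiv.Perm ℕ) (G : SimpleGraph ℕ) (e : Sym2 ℕ) (n : ℕ) (h : Sym2 ℕ → ℝ) :
    qG (G.comap σ) e n (h ∘ Sym2.map σ) = qG G (Sym2.map σ e) n h := by
  sorry

/-- TASK C2 (file `R168/GraphMeas.lean`). -/
theorem measurable_qG (e : Sym2 ℕ) (n : ℕ) :
    Measurable (fun p : (ℕ → ℕ → Bool) × (Sym2 ℕ → ℝ) => qG (graphOfTable p.1) e n p.2) := by
  sorry

/-- TASK C3 (file `R168/GraphWindow.lean`): windows of a connected locally finite graph. -/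
theorem window_spec (G : SimpleGraph ℕ) (hG : G.Connected)
    (hlf : ∀ v : ℕ, (G.neighborSet v).Finite) (e : Sym2 ℕ) :
    Monotone (window G e) ∧ (∀ n, ∀ f ∈ window G e n, f ∈ G.edgeSet) ∧
      ∀ f ∈ G.edgeSet, ∃ n, f ∈ window G e n := by
  sorry

/-- TASK C4 (file `R168/GraphWindow.lean`): the limit along any exhaustion is `muG`. -/
theorem tendsto_ustContains_muG (G : SimpleGraph ℕ)
    (hanti : ∀ S S' : Finset ℕ, S ⊆ S' → (G.induce (S : Set ℕ)).Connected →
      (G.induce (S' : Set ℕ)).Connected → ∀ F : Finset (Sym2 ℕ), F ⊆ edgesIn G S →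
        ustContains G S' F ≤ ustContains G S F)
    (S : ℕ → Finset ℕ) (hmono : Monotone S) (hex : ∀ v : ℕ, ∃ n, v ∈ S n)
    (hconn : ∀ n, (G.induce (S n : Set ℕ)).Connected)
    (F : Finset (Sym2 ℕ)) (hF : (↑F : Set (Sym2 ℕ)) ⊆ G.edgeSet) :
    Filter.Tendsto (fun n => ustContains G (S n) F) Filter.atTop (nhds (muG G F)) := by
  sorry

end Crest.Agent.R168.Skel
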